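import Crest.Statements.S0010
import Crest.Agent.R9.Milnor

set_option autoImplicit false
open Crest.NumberTheoryR.MilnorK
open Crest Crest.NumberTheoryR

namespace Crest.Agent.S0010

/-- Let K and L be fields of characteristic p that are finitely generated and of transcendence degree at least 2 over algebraically closed subfields k and l. Let Θ be a linear isomorphism, over the integers mod p, from Kˣ/(Kˣ)^p to Lˣ/(Lˣ)^p that maps the span of the Steinberg elements [f] ⊗ [1 - f] (f ≠ 0, 1) of K exactly onto that of L. Then there is exactly one field isomorphism α from K to L with α(k) = l such that, for some non-zero scalar c, Θ[u] = c · [α(u)] for every unit u of K. -/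
theorem result {p : ℕ} [Fact p.Prime]
    {K L : Type*} [Field K] [Field L] [CharP K p] [CharP L p] (k : Subfield K) (l : Subfield L)
    [IsAlgClosed k] [IsAlgClosed l]
    (hK : ∃ s : Finset K, Subfield.closure ((k : Set K) ∪ (s : Set K)) = ⊤)
    (hL : ∃ s : Finset L, Subfield.closure ((l : Set L) ∪ (s : Set L)) = ⊤)
    (hK2 : 2 ≤ Algebra.trdeg k K) (hL2 : 2 ≤ Algebra.trdeg l L)
    (Θ : KOne K p ≃ₗ[ZMod p] KOne L p) (hΘ : IsCompatible Θ) :
    ∃! α : K ≃+* L, k.map α.toRingHom = l ∧
      ∃ c : ZMod p, c ≠ 0 ∧ ∀ u : Kˣ, Θ (cls K p u) = c • cls L p (Units.map α.toRingHom.toMonoidHom u) := by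
  have := R9.essFiniteType_of_closure k hK
  obtain ⟨x₀, y₀, hx₀, hy₀⟩ := (R9.trdeg_eq_finrank p k K).2 hK2
  obtain ⟨d, α, hd, hα⟩ := R9.exists_equiv p (R9.corrOf Θ) (R9.corrOf_stein hΘ)
    (R9.corrOf_symm_stein hΘ) hx₀ hy₀
  have hd' : (d : ZMod p) ≠ 0 := by
    rw [Ne, CharP.cast_eq_zero_iff (ZMod p) p, ← CharP.cast_eq_zero_iff K p]; exact hd
  have hcast : ∀ (m : ℕ) (a : KOne L p), m • a = (m : ZMod p) • a := fun m a =>
    (Nat.cast_smul_eq_nsmul (ZMod p) m a).symm
  have hmain : ∀ u : Kˣ, Θ (cls K p u) =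
      (d : ZMod p)⁻¹ • cls L p (Units.map α.toRingHom.toMonoidHom u) := by
    intro u
    obtain ⟨U, V, hU, hV, h⟩ := hα u u.ne_zero
    have h1 : U = u ^ d := by ext; simp [hU]
    have h2 : V = Units.map α.toRingHom.toMonoidHom u := by ext; simp [hV]
    rw [h1, h2, R9.cls_pow, map_nsmul, hcast] at h
    rw [← h, smul_smul, inv_mul_cancel₀ hd', one_smul]
  refine ⟨α, ⟨?_, (d : ZMod p)⁻¹, inv_ne_zero hd', hmain⟩, ?_⟩
  · ext v
    rw [R9.mem_iff_roots p l hL, Subfield.mem_map]
    constructor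
    · rintro ⟨u, hu, rfl⟩ n
      obtain ⟨a, ha⟩ := (R9.mem_iff_roots p k hK u).1 hu n
      exact ⟨α a, by rw [← map_pow, ha]; rfl⟩
    · intro h
      refine ⟨α.symm v, (R9.mem_iff_roots p k hK _).2 fun n => ?_, by simp⟩
      obtain ⟨a, ha⟩ := h n
      exact ⟨α.symm a, by rw [← map_pow, ha]⟩
  · rintro α' ⟨-, c, hc, h⟩
    let n := (c * d).val
    have hn : ((n : ℕ) : ZMod p) = c * d := ZMod.natCast_zmod_val _
    have hn0 : (n : K) ≠ 0 := by
      rw [Ne, CharP.cast_eq_zero_iff K p, ← CharP.cast_eq_zero_iff (ZMod p) p, hn]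
      exact mul_ne_zero hc hd'
    have hsymm : ∀ w : L, R9.Const w → R9.Const (α'.symm w) := by
      intro w hw
      obtain ⟨a, rfl⟩ := (R9.const_iff p).1 hw
      rw [map_pow]; exact R9.Const.pow_char p _
    have key := R9.eq_id_of_pow p (α'.symm.toRingHom.comp α.toRingHom) (n := n) (ZMod.val_lt _) hn0
      (fun v hv => by
        have h1 := h (Units.mk0 v hv)
        rw [hmain] at h1
        have h2 : cls L p ((Units.map α'.toRingHom.toMonoidHom (Units.mk0 v hv)) ^ n) =
            cls L p (Units.map α.toRingHom.toMonoidHom (Units.mk0 v hv)) := by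
          rw [R9.cls_pow, hcast, hn, mul_comm, mul_smul, ← h1,
            smul_smul, mul_inv_cancel₀ hd', one_smul]
        have h3 := hsymm _ ((R9.cls_eq_iff p _ _).1 h2)
        simpa using h3) hx₀
    ext v
    have h4 : α'.symm (α v) = v := key v
    conv_rhs => rw [← α'.apply_symm_apply (α v), h4]

end Crest.Agent.S0010
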