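import Crest.Statements.S0012
import Crest.Agent.R11.Final

set_option autoImplicit false
open Crest Crest.NumberTheoryR

namespace Crest.Agent.S0012

/-- For every real exponent ν > 2 there is a natural number Q such that, for every integer p and every natural number q ≥ Q, the distance from π to p / q is at least 1 / q ^ ν (the fraction need not be in lowest terms). Equivalently, the irrationality exponent of π is at most 2. -/
theorem result (ν : ℝ) (hν : 2 < ν) :
    ∃ Q : ℕ, ∀ (p : ℤ) (q : ℕ), Q ≤ q → 1 / (q : ℝ) ^ ν ≤ |Real.pi - (p : ℝ) / (q : ℝ)| := by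
  by_contra h
  push Not at h
  refine R11.no_approx (ν := min ν 3) (lt_min hν (by norm_num)) (min_le_right _ _) fun N => ?_
  obtain ⟨p, q, h1, h2⟩ := h (N + 1)
  have hq : (1 : ℝ) ≤ q := by exact_mod_cast (by omega : 1 ≤ q)
  refine ⟨p, q, by omega, h2.le.trans ?_⟩
  rw [Real.rpow_def_of_pos (by linarith), one_div, ← Real.exp_neg, Real.exp_le_exp]
  nlinarith [Real.log_nonneg hq, min_le_left ν 3]

end Crest.Agent.S0012
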