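import Crest.Statements.S0053
import Crest.Agent.R39.Main
import Crest.Agent.R39.Graph

set_option autoImplicit false
open Crest Crest.CombinatoricsR

namespace Crest.Agent.S0053

open Crest.Agent.R39 in
/-- Every finite simple graph that is cubic (3-regular), bipartite (properly 2-colourable), 3-vertex-connected (at least four vertices, connected after deleting any two) and planar has a Hamiltonian cycle. Planarity is taken in combinatorial-map form: the graph is connected and has a rotation system (a cyclic order of the darts at each vertex) whose face count F satisfies (number of vertices) - (number of edges) + F = 2. -/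
theorem result (V : Type)
    [Fintype V] [DecidableEq V] (G : SimpleGraph V) [DecidableRel G.Adj]
    (hcubic : G.IsRegularOfDegree 3) (hbip : G.Colorable 2)
    (hplanar : Crest.CombinatoricsR.PlanarMap.IsPlanarMap G) (hconn : Crest.CombinatoricsR.PlanarMap.IsThreeConnected G) :
    G.IsHamiltonian := by
  classical
  obtain ⟨col⟩ := hbip
  obtain ⟨hG, R, hE⟩ := hplanar
  obtain ⟨fc, hfc⟩ := exists_fc hcubic col hG R hE
  obtain ⟨D, hD⟩ := exists_dartCol hcubic col R fc hfc
  obtain ⟨T, hT, hsurj⟩ := exists_tri col R fc D hD
  haveI : Nonempty V := hG.nonempty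
  letI : Fintype (Face R) := Fintype.ofFinite _
  have hF := card_faces hcubic col R hE (T.m 0)
  have hEul : T.Euler := by
    have : T.Vall = Finset.univ := by
      ext f; simpa [Tri.Vall] using hsurj f
    unfold Tri.Euler
    rw [this, Finset.card_univ, ← Nat.card_eq_fintype_card (α := Face R), hF]
  have hne : Nonempty {v : V // col v = 0} := by
    obtain ⟨v⟩ := ‹Nonempty V›
    by_cases hv : col v = 0
    · exact ⟨⟨v, hv⟩⟩
    · exact ⟨(T.m 0).symm ⟨v, hv⟩⟩
  obtain ⟨b0⟩ := hne
  obtain ⟨μ, -, hμ⟩ := main _ _ _ _ T rfl (cut3_of_models hcubic hconn col T hT) hEul b0 0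
  exact ham_of_good col T hT μ hμ

end Crest.Agent.S0053
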