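import Crest.Statements.S0065
import Crest.Agent.R46.Concat
import Crest.Agent.R46.Real
import Crest.Agent.R46.Bridge
import Crest.Agent.R46.Par
import Crest.Agent.R46.Sound
import Crest.Agent.R46.Compl

set_option autoImplicit false
open Crest.CombinatoricsR.Tiling
open Crest Crest.CombinatoricsR

namespace Crest.Agent.S0065

/-- There is a finite nonempty T ⊆ ℤ³ such that T tiles ℤ³ by translations (some set A of translations writes every lattice point uniquely as a + t with a ∈ A, t ∈ T) while no such A is invariant under a finite-index subgroup of ℤ³, and the union of the closed unit cubes z + [0,1]³, z ∈ T, tiles ℝ³ up to null sets by some set of real translation vectors (almost every point lies in exactly one translate) while no such set is invariant under a full-rank lattice, the integer span of a basis of ℝ³. -/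
theorem result :
    ∃ T : Finset (Fin 3 → ℤ), T.Nonempty ∧
      (∃ A : Set (Fin 3 → ℤ), IsTilingBy T A) ∧
      (∀ A : Set (Fin 3 → ℤ), IsTilingBy T A → ¬ IsFullyPeriodic A) ∧
      (∃ B : Set (Fin 3 → ℝ), IsAETilingBy (cubeThickening T) B) ∧
      ∀ B : Set (Fin 3 → ℝ), IsAETilingBy (cubeThickening T) B → ¬ IsLatticePeriodic B := by
  obtain ⟨P⟩ := R46.exists_par
  obtain ⟨l, hl⟩ := R46.bridge P.C_ne P.eta_gen (R46.expr_cond P) (R46.compl P)
    fun _ _ h _ hL hper => R46.sound h hL hper
  obtain ⟨T, hT, hr⟩ := R46.exists_rigid hl
  exact ⟨T, R46.final_of_rigid hT hr⟩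

end Crest.Agent.S0065
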