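import Crest.Statements.S0066
import Crest.Agent.R47.Main

set_option autoImplicit false
open Crest Crest.CombinatoricsR

namespace Crest.Agent.S0066

/-- There is a fixed 66 × 66 binary pattern H such that for every h ≥ 1, with n = (386h + 2) · 2^h and ε = (386h + 2)⁻², some n × n binary matrix A is ε-far from free of ordered copies of H (every n × n binary matrix without an ordered copy of H differs from A in at least ε · n² cells) while the number of ordered copies of H in A is at most ε · 2^(-h) · n^132. An ordered copy picks 66 rows and 66 columns in increasing order on which A coincides with H, zeros included. -/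
theorem result :
    ∃ H : Fin 66 → Fin 66 → Bool, ∀ h : ℕ, 1 ≤ h →
      ∃ A : Fin ((386 * h + 2) * 2 ^ h) → Fin ((386 * h + 2) * 2 ^ h) → Bool,
        (∀ B : Fin ((386 * h + 2) * 2 ^ h) → Fin ((386 * h + 2) * 2 ^ h) → Bool,
          Crest.CombinatoricsR.OrderedMatrix.orderedCopyCount H B = 0 →
            ((386 * (h : ℝ) + 2) ^ 2)⁻¹ * (((386 * h + 2) * 2 ^ h : ℕ) : ℝ) ^ 2 ≤
              ((Finset.univ.filter (fun rc : Fin ((386 * h + 2) * 2 ^ h) × Fin ((386 * h + 2) * 2 ^ h) =>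
                A rc.1 rc.2 ≠ B rc.1 rc.2)).card : ℝ)) ∧
        (Crest.CombinatoricsR.OrderedMatrix.orderedCopyCount H A : ℝ) /
            (((386 * h + 2) * 2 ^ h : ℕ) : ℝ) ^ 132 ≤
          ((386 * (h : ℝ) + 2) ^ 2)⁻¹ * (2 : ℝ)⁻¹ ^ h := by
  refine ⟨Crest.Agent.R47.pat, fun h hh => ?_⟩
  obtain ⟨A, hA1, hA2⟩ := Crest.Agent.R47.main h (386 * h + 2) hh (by omega)
  have hm : (0 : ℝ) < 386 * (h : ℝ) + 2 := by positivity
  have hN : (0 : ℝ) < (2 : ℝ) ^ h := by positivity
  refine ⟨A, fun B hB => ?_, ?_⟩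
  · have h1 := hA1 B hB
    have h2 : (((2 ^ h * 2 ^ h : ℕ)) : ℝ) ≤ _ := Nat.cast_le.2 h1
    refine le_trans (le_of_eq ?_) h2
    push_cast
    field_simp
  · have h2 : (_ : ℝ) ≤ ((2 ^ h * (((386 * h + 2) * 2 ^ h) ^ 65 *
        ((386 * h + 2) * 2 ^ h) ^ 65) : ℕ) : ℝ) := Nat.cast_le.2 hA2
    have h3 : (0 : ℝ) < (((386 * h + 2) * 2 ^ h : ℕ) : ℝ) ^ 132 := by positivity
    rw [div_le_iff₀ h3]
    refine le_trans h2 (le_of_eq ?_)
    push_cast
    rw [inv_pow]
    generalize (386 * (h : ℝ) + 2) = M at *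
    generalize (2 : ℝ) ^ h = N at *
    field_simp

end Crest.Agent.S0066
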