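import Crest.Statements.S0071
import Crest.Agent.R52.Frac2

set_option autoImplicit false
open Crest Crest.CombinatoricsR

namespace Crest.Agent.S0071

/-- Let F be a non-empty family of subsets of a finite non-empty type, closed upwards and not containing ∅, and let r ∈ [0, 1]. If F has a fractional cover of cost at most 1/2 at r (weights g(S) ∈ [0, 1] with Σ_{S ⊆ H} g(S) ≥ 1 for all H ∈ F and Σ_S g(S) · r^(card S) ≤ 1/2), then F has an integral cover of cost at most 1/2 at r / (25 · 512^4): a family G such that every member of F contains a member of G and Σ_{S ∈ G} (r / (25 · 512^4))^(card S) ≤ 1/2. -/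
theorem result (α : Type) [Fintype α]
    [DecidableEq α] [Nonempty α] (F : Finset (Finset α)) (hne : F.Nonempty) (hempty : ∅ ∉ F)
    (hup : ∀ A ∈ F, ∀ B : Finset α, A ⊆ B → B ∈ F) (r : ℝ) (hr0 : 0 ≤ r) (hr1 : r ≤ 1)
    (g : Finset α → ℝ) (hg : ∀ S : Finset α, 0 ≤ g S ∧ g S ≤ 1)
    (hcov : ∀ H ∈ F, 1 ≤ ∑ S ∈ H.powerset, g S)
    (hcost : ∑ S : Finset α, g S * r ^ S.card ≤ 1 / 2) :
    ∃ G : Finset (Finset α), (∀ H ∈ F, ∃ S ∈ G, S ⊆ H) ∧
      ∑ S ∈ G, (r / (25 * 512 ^ 4)) ^ S.card ≤ 1 / 2 := by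
  rcases hr0.eq_or_lt with h0 | h0
  · refine ⟨F, fun H hH => ⟨H, hH, Finset.Subset.refl _⟩, ?_⟩
    rw [Finset.sum_eq_zero]
    · norm_num
    · intro S hS
      have : S.card ≠ 0 := fun h => hempty (Finset.card_eq_zero.mp h ▸ hS)
      rw [← h0, zero_div, zero_pow this]
  have hc := hcost
  rw [← Finset.add_sum_erase _ _ (Finset.mem_univ ∅)] at hc
  simp only [Finset.card_empty, pow_zero, mul_one] at hc
  have hnn : 0 ≤ ∑ S ∈ Finset.univ.erase (∅ : Finset α), g S * r ^ S.card :=
    Finset.sum_nonneg fun S _ => mul_nonneg (hg S).1 (pow_nonneg hr0 _)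
  refine Crest.Agent.R52.frac_to_int F g (fun S => (hg S).1) (fun H hH => ?_) hr1
    (by linarith [(hg ∅).1]) (by positivity) ?_
  · have := hcov H hH
    rw [← Finset.add_sum_erase _ _ (Finset.empty_mem_powerset H)] at this
    linarith
  · rw [← mul_div_assoc, div_le_iff₀ (by norm_num)]
    nlinarith

end Crest.Agent.S0071
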