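import Crest.Statements.S0074
import Crest.Agent.R53.Final

set_option autoImplicit false
open Crest Crest.CombinatoricsR

namespace Crest.Agent.S0074

/-- There are two matroids M₀, M₁ on the whole of ℕ (a countably infinite ground set), each equal to its own dual on the same labelled ground set, such that no independent set of M₀ together with an independent set of M₁ covers ℕ, and the pair has no packing/covering partition: no splitting ℕ = P ⊔ C allows disjoint S₀, S₁ ⊆ P with Sᵢ spanning the restriction of Mᵢ to P, and sets I₀, I₁ with union C, Iᵢ independent in the contraction of Mᵢ onto C (the complement of C contracted). -/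
theorem result :
    ∃ M₀ M₁ : Matroid ℕ, M₀.E = Set.univ ∧ M₁.E = Set.univ ∧ M₀.dual = M₀ ∧ M₁.dual = M₁ ∧
      (∀ I₀ I₁ : Set ℕ, M₀.Indep I₀ → M₁.Indep I₁ → I₀ ∪ I₁ ≠ Set.univ) ∧
      ¬ ∃ P C S₀ S₁ I₀ I₁ : Set ℕ, P ∪ C = Set.univ ∧ Disjoint P C ∧
          S₀ ⊆ P ∧ S₁ ⊆ P ∧ Disjoint S₀ S₁ ∧
          (M₀.restrict P).closure S₀ = P ∧ (M₁.restrict P).closure S₁ = P ∧
          I₀ ⊆ C ∧ I₁ ⊆ C ∧ (M₀.contract Cᶜ).Indep I₀ ∧ (M₁.contract Cᶜ).Indep I₁ ∧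
          I₀ ∪ I₁ = C := by
  obtain ⟨M₀, M₁, h1, h2, h3, h4, h5⟩ := Crest.Agent.R53.exists_pair
  refine ⟨M₀, M₁, h1, h2, h3, h4, h5, ?_⟩
  rintro ⟨P, C, S₀, S₁, I₀, I₁, a1, a2, a3, a4, a5, a6, a7, -, -, a8, a9, a10⟩
  refine h5 _ _ (Crest.Agent.R53.indep_of_pc M₀ h1 h3 a1 a2 a3 a6 a8)
    (Crest.Agent.R53.indep_of_pc M₁ h2 h4 a1 a2 a4 a7 a9) (Set.eq_univ_of_forall fun x => ?_)
  rcases (a1.symm ▸ Set.mem_univ x : x ∈ P ∪ C) with hx | hx
  · by_cases h : x ∈ S₀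
    · exact Or.inr (Or.inr ⟨hx, Set.disjoint_left.1 a5 h⟩)
    · exact Or.inl (Or.inr ⟨hx, h⟩)
  · rcases (a10.symm ▸ hx : x ∈ I₀ ∪ I₁) with h | h
    · exact Or.inl (Or.inl h)
    · exact Or.inr (Or.inl h)

end Crest.Agent.S0074
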