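import Crest.Statements.S0076
import Crest.Agent.R55.Glue

set_option autoImplicit false
open Crest Crest.CombinatoricsR

namespace Crest.Agent.S0076

/-- Let n ≥ 2 and let H be a finite simple graph with h ≥ 1 edges on at most n vertices. Suppose the edge probability p ∈ [0, 1] is such that for every subgraph F of H the expected number of subgraphs of the binomial random graph on n labelled vertices that are isomorphic to F is at least 1/2. Then at edge probability min(1, 2^11 · e^50 · p · (1 + log₂ h)) that random graph contains a (not necessarily induced) copy of H with probability at least 1/2. -/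
theorem result
    (n : ℕ) (hn : 2 ≤ n) (W : Type) [Fintype W] [DecidableEq W] (H : SimpleGraph W)
    [DecidableRel H.Adj] (hW : Fintype.card W ≤ n) (hH : 1 ≤ H.edgeFinset.card)
    (p : ℝ) (hp0 : 0 ≤ p) (hp1 : p ≤ 1)
    (hE : ∀ F : H.Subgraph, (1 : ℝ) / 2 ≤
      Crest.CombinatoricsR.RandomGraph.gnpExpect n p (fun G => (G.copyCount F.coe : ℝ))) :
    (1 : ℝ) / 2 ≤ Crest.CombinatoricsR.RandomGraph.gnpProb n
      (min 1 (2048 * Real.exp 50 * p * (1 + Real.logb 2 (H.edgeFinset.card : ℝ))))
      {G | H.IsContained G} := by
  classical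
  obtain ⟨ι⟩ : Nonempty (W ↪ Fin n) := Function.Embedding.nonempty_of_card_le (by simpa using hW)
  have key := R55.abstract_threshold (Γ := Equiv.Perm (Fin n)) (R55.slots_nonempty H ι hH) hp0
    (fun A hA => (hE (R55.subOf H ι A)).trans (R55.expect_le H ι hA hp0 hp1))
    (fun y => H.IsContained (RandomGraph.graphOf (R55.boolEquiv _ y)))
    (fun a b ha hab => ha.mono_right fun u v huv => by
      obtain ⟨e, he, h⟩ := (R55.graphOf_adj a u v).1 huv
      exact (R55.graphOf_adj b u v).2 ⟨e, hab he, h⟩)
    (R55.contained_smul H ι) (R55.card_slots_le H ι) rfl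
  generalize min 1 (2048 * Real.exp 50 * p * (1 + Real.logb 2 (H.edgeFinset.card : ℝ))) = r at *
  have h1 : RandomGraph.gnpProb n r {G | H.IsContained G} =
      ∑ y : Finset (RandomGraph.EdgeSlot n), Lib.Sunflower.wt r y *
        (if H.IsContained (RandomGraph.graphOf (R55.boolEquiv _ y)) then 1 else 0) := by
    rw [← R55.sum_bernoulli r (fun ω => if H.IsContained (RandomGraph.graphOf ω) then 1 else 0)]
    unfold RandomGraph.gnpProb FinProb.bernoulliProb
    rw [Finset.sum_filter]
    refine Finset.sum_congr rfl fun ω _ => ?_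
    by_cases h : H.IsContained (RandomGraph.graphOf ω) <;> simp [h]
  have h2 : ∑ y : Finset (RandomGraph.EdgeSlot n), Lib.Sunflower.wt r y *
        (if H.IsContained (RandomGraph.graphOf (R55.boolEquiv _ y)) then 1 else 0) +
      ∑ y : Finset (RandomGraph.EdgeSlot n), Lib.Sunflower.wt r y *
        (if H.IsContained (RandomGraph.graphOf (R55.boolEquiv (RandomGraph.EdgeSlot n) y))
          then 0 else 1) = 1 := by
    rw [← Finset.sum_add_distrib]
    refine Eq.trans (Finset.sum_congr rfl fun y _ => ?_)
      (Lib.Sunflower.sum_wt (X := RandomGraph.EdgeSlot n) r)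
    split_ifs <;> simp
  rw [h1]
  linarith

end Crest.Agent.S0076
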