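import Crest.Statements.S0077
import Crest.Agent.R56.Russo

set_option autoImplicit false
open Crest Crest.CombinatoricsR

namespace Crest.Agent.S0077

/-- Let n ≥ 2 and let P be a family of simple graphs on n labelled vertices that is invariant under renaming vertices, closed under adding edges, non-empty and not everything; let 0 < ε < 1/2. If the binomial random graph with edge probability p ∈ [0, 1] lies in P with probability at least ε, then at every edge probability q ∈ [0, 1] with q ≥ p + 2^19 · log(1/(2ε)) / (log n)² it lies in P with probability at least 1 - ε: the threshold interval from ε to 1 - ε is at most that long. -/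
theorem result (n : ℕ) (hn : 2 ≤ n)
    (P : Set (SimpleGraph (Fin n)))
    (hsymm : ∀ σ : Equiv.Perm (Fin n), ∀ G : SimpleGraph (Fin n), G ∈ P → G.map σ.toEmbedding ∈ P)
    (hmono : ∀ G G' : SimpleGraph (Fin n), G ≤ G' → G ∈ P → G' ∈ P)
    (hne : P.Nonempty) (hnu : P ≠ Set.univ) (ε : ℝ) (hε0 : 0 < ε) (hε : ε < 1 / 2)
    (p q : ℝ) (hp0 : 0 ≤ p) (hp1 : p ≤ 1) (hq0 : 0 ≤ q) (hq1 : q ≤ 1)
    (hp : ε ≤ Crest.CombinatoricsR.RandomGraph.gnpProb n p P)
    (hq : p + 2 ^ 19 / Real.log n ^ 2 * Real.log (1 / (2 * ε)) ≤ q) :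
    1 - ε ≤ Crest.CombinatoricsR.RandomGraph.gnpProb n q P := by
  classical
  set f : (RandomGraph.EdgeSlot n → Bool) → ℝ :=
    fun x => if RandomGraph.graphOf x ∈ P then 1 else 0 with hf
  have e1 : ∀ t, RandomGraph.gnpProb n t P = R56.ex t f := fun t =>
    R56.bernoulliProb_eq t _ _ fun x => by simp [hf]
  have hf01 : ∀ x, f x = 0 ∨ f x = 1 := fun x => by simp only [hf]; split_ifs <;> simp
  have hL : 0 < Real.log n := Real.log_pos (by exact_mod_cast hn)
  have hD : ∀ j x, 0 ≤ R56.Dd j f x := by
    intro j x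
    have : RandomGraph.graphOf (Function.update x j false) ≤
        RandomGraph.graphOf (Function.update x j true) := by
      apply SimpleGraph.fromEdgeSet_mono
      rintro z ⟨h, hz⟩
      refine ⟨h, ?_⟩
      by_cases e : (⟨z, h⟩ : RandomGraph.EdgeSlot n) = j
      · rw [e, Function.update_self]
      · rwa [Function.update_of_ne e] at hz ⊢
    have := hmono _ _ this
    simp only [R56.Dd, hf]
    split_ifs <;> simp_all
  have hsym : ∀ σ : Equiv.Perm (Fin n), ∃ τ : RandomGraph.EdgeSlot n → RandomGraph.EdgeSlot n,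
      (∀ e, (τ e).1.toFinset = e.1.toFinset.map σ.toEmbedding) ∧ ∀ x, f (x ∘ τ) = f x := by
    intro σ
    refine ⟨fun e => ⟨e.1.map σ, by rw [Sym2.isDiag_map σ.injective]; exact e.2⟩, fun e => ?_,
      fun x => ?_⟩
    · ext a
      simp only [Sym2.mem_toFinset, Sym2.mem_map, Finset.mem_map, Equiv.coe_toEmbedding]
    · set y := x ∘ fun e : RandomGraph.EdgeSlot n =>
        (⟨e.1.map σ, by rw [Sym2.isDiag_map σ.injective]; exact e.2⟩ : RandomGraph.EdgeSlot n)
        with hy
      have key : ∀ a b, (RandomGraph.graphOf y).Adj a b ↔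
          (RandomGraph.graphOf x).Adj (σ a) (σ b) := by
        intro a b
        simp [RandomGraph.graphOf, hy]
      have k1 : (RandomGraph.graphOf y).map σ.toEmbedding = RandomGraph.graphOf x := by
        ext a b
        obtain ⟨a, rfl⟩ := σ.surjective a
        obtain ⟨b, rfl⟩ := σ.surjective b
        rw [← key]
        exact SimpleGraph.map_adj_apply
      have k2 : (RandomGraph.graphOf x).map σ.symm.toEmbedding = RandomGraph.graphOf y := by
        ext a b
        rw [key]
        have := SimpleGraph.map_adj_apply (G := RandomGraph.graphOf x) (f := σ.symm.toEmbedding)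
          (a := σ a) (b := σ b)
        simpa using this
      have k3 : RandomGraph.graphOf y ∈ P ↔ RandomGraph.graphOf x ∈ P :=
        ⟨fun h => k1 ▸ hsymm σ _ h, fun h => k2 ▸ hsymm σ.symm _ h⟩
      simp only [hf, k3]
  rw [e1] at hp ⊢
  refine R56.threshold hf01 hD (K := Real.log n ^ 2 / 2 ^ 17) (by positivity) (fun t t0 t1 => ?_)
    hε0 hε hp0 hq1 hp ?_
  · have := R56.core (ι := RandomGraph.EdgeSlot n) (r := 2) t0 t1 (V := fun e => e.1.toFinset)
      (fun e e' h => Subtype.ext (Sym2.ext fun a => by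
        rw [← Sym2.mem_toFinset, ← Sym2.mem_toFinset]
        exact Iff.of_eq (congrArg (a ∈ ·) h)))
      (fun e => Sym2.card_toFinset_of_not_isDiag _ e.2) le_rfl hn hf01 hsym
    have e : ((2 : ℕ) : ℝ) / (((2 : ℕ) : ℝ) - 1) = ((2 : ℕ) : ℝ) := by norm_num
    rw [e, Real.rpow_natCast, div_mul_eq_mul_div, le_div_iff₀ (by positivity)] at this
    rw [div_mul_eq_mul_div, div_le_iff₀ (by positivity)]
    push_cast at this
    linarith
  · refine le_trans (le_of_eq ?_) hq
    field_simp
    norm_num

end Crest.Agent.S0077
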