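import Crest.Statements.S0078
import Crest.Agent.R56.Russo

set_option autoImplicit false
open Crest Crest.CombinatoricsR

namespace Crest.Agent.S0078

/-- For every r ≥ 3 there is a real constant C such that for all n ≥ r, all 0 < p < 1 and every Boolean function f of the simple r-uniform hypergraph on n labelled vertices that is invariant under renaming the vertices (no monotonicity assumed), the variance of f under independent edge-coins of bias p, namely P(f = true) · (1 - P(f = true)), is at most C · (log n)^(-r/(r-1)) times the total pivotal influence of f at bias p (natural logarithm). -/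
theorem result (r : ℕ) (hr : 3 ≤ r) :
    ∃ C : ℝ, ∀ n : ℕ, r ≤ n → ∀ p : ℝ, 0 < p → p < 1 →
      ∀ f : (Crest.CombinatoricsR.HypergraphCube.HyperedgeSlot n r → Bool) → Bool,
        Crest.CombinatoricsR.HypergraphCube.IsSymmetric f →
          Crest.CombinatoricsR.HypergraphCube.probTrue p f *
              (1 - Crest.CombinatoricsR.HypergraphCube.probTrue p f) ≤
            C / Real.log n ^ ((r : ℝ) / ((r : ℝ) - 1)) *
              Crest.CombinatoricsR.HypergraphCube.totalInfluence p f := by
  refine ⟨2 * (128 * r) ^ 2, fun n hn p h0 h1 f hf => ?_⟩
  have := R56.core (ι := HypergraphCube.HyperedgeSlot n r) h0 h1 (V := fun e => e.1)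
    Subtype.val_injective (fun e => e.2) (by omega) (by omega)
    (f := fun x => if f x = true then 1 else 0) (fun x => by split_ifs <;> simp)
    (fun σ => ⟨HypergraphCube.relabelSlot σ, fun e => rfl, fun x => by
      have := hf σ x
      change (if f (HypergraphCube.relabel σ x) = true then (1 : ℝ) else 0) = _
      rw [this]⟩)
  have e1 : HypergraphCube.probTrue p f = R56.ex p fun x => if f x = true then 1 else 0 :=
    R56.bernoulliProb_eq p _ _ fun x => by simp
  have e2 : HypergraphCube.totalInfluence p f =
      ∑ j, R56.ex p fun x => R56.Dd j (fun x => if f x = true then (1 : ℝ) else 0) x ^ 2 := by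
    refine Finset.sum_congr rfl fun j _ => R56.bernoulliProb_eq p _ _ fun x => ?_
    simp only [R56.Dd, Set.mem_ofPred_eq]
    cases f (Function.update x j true) <;> cases f (Function.update x j false) <;> simp
  rw [e1, e2]
  exact this

end Crest.Agent.S0078
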