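import Crest.Statements.S0079
import Crest.Agent.R57.Main

set_option autoImplicit false
open Crest Crest.CombinatoricsR

namespace Crest.Agent.S0079

open Crest.Agent.R57 in
/-- Every finite oriented graph (an irreflexive adjacency relation with no pair of opposite arcs) on a nonempty vertex set has a vertex v whose first out-neighbourhood is no larger than its second out-neighbourhood, the set of vertices other than v that are not out-neighbours of v but are reached from v by a directed path of length two. -/
theorem result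
    (V : Type*) [Fintype V] [Nonempty V] (G : Digraph V)
    (hloop : ∀ v, ¬ G.Adj v v) (hopp : ∀ u v, G.Adj u v → ¬ G.Adj v u) :
    ∃ v : V, Set.ncard {u | G.Adj v u} ≤
      Set.ncard {w | w ≠ v ∧ ¬ G.Adj v w ∧ ∃ u, G.Adj v u ∧ G.Adj u w} := by
  classical
  by_contra hcon
  push Not at hcon
  let Γ : Finset (V × V) := Finset.univ.filter (fun p => p.1 = p.2 ∨ G.Adj p.1 p.2)
  have hmem : ∀ x y, (x, y) ∈ Γ ↔ x = y ∨ G.Adj x y := by intro x y; simp [Γ]
  refine not_bad Γ (fun x => (hmem x x).2 (Or.inl rfl)) ?_ ?_
  · intro x y h1 h2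
    rcases (hmem _ _).1 h1 with h | h
    · exact h
    · rcases (hmem _ _).1 h2 with h' | h'
      · exact h'.symm
      · exact absurd h' (hopp _ _ h)
  · intro v
    have h := hcon v
    have e1 : Set.ncard {u | G.Adj v u} = (Finset.univ.filter (fun u => G.Adj v u)).card := by
      rw [← Set.ncard_coe_finset]; congr 1; ext u; simp
    have e2 : Set.ncard {w | w ≠ v ∧ ¬ G.Adj v w ∧ ∃ u, G.Adj v u ∧ G.Adj u w}
        = (Finset.univ.filter
          (fun w => w ≠ v ∧ ¬ G.Adj v w ∧ ∃ u, G.Adj v u ∧ G.Adj u w)).card := by
      rw [← Set.ncard_coe_finset]; congr 1; ext u; simp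
    have e3 : nb Γ {v} = insert v (Finset.univ.filter (fun u => G.Adj v u)) := by
      ext u; simp [hmem, eq_comm]
    have e4 : (nb Γ {v}).card = (Finset.univ.filter (fun u => G.Adj v u)).card + 1 := by
      rw [e3, Finset.card_insert_of_notMem (by simp [hloop])]
    have e5 : nb Γ (nb Γ {v}) ⊆ nb Γ {v} ∪ Finset.univ.filter
          (fun w => w ≠ v ∧ ¬ G.Adj v w ∧ ∃ u, G.Adj v u ∧ G.Adj u w) := by
      intro w hw
      obtain ⟨y, hy, hyw⟩ := mem_nb.1 hw
      by_cases hw' : w ∈ nb Γ {v}
      · exact Finset.mem_union_left _ hw'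
      · refine Finset.mem_union_right _ ?_
        rw [e3] at hw' hy
        simp only [Finset.mem_insert, Finset.mem_filter, Finset.mem_univ, true_and,
          not_or] at hw' hy ⊢
        refine ⟨hw'.1, hw'.2, ?_⟩
        rcases (hmem _ _).1 hyw with h1 | h1
        · subst h1; tauto
        · rcases hy with hy | hy
          · subst hy; exact absurd h1 hw'.2
          · exact ⟨y, hy, h1⟩
    have e6 := (Finset.card_le_card e5).trans (Finset.card_union_le _ _)
    omega

end Crest.Agent.S0079
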