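import Crest.Statements.S0088
import Crest.Agent.R66.Final

set_option autoImplicit false
open Crest Crest.CombinatoricsR

namespace Crest.Agent.S0088

/-- For each d ≥ 3 there are D and ε > 0 such that for every N there is a pure d-dimensional simplicial complex, given by its top faces on the vertex set Fin n with n ≥ N, each vertex lying in at least one and at most D top faces and the 1-skeleton connected, which is an ε-coboundary expander over the two-element field in each degree i < d: for every i-cochain f some i-coboundary b (a constant if i = 0) has ε · ‖f - b‖ ≤ ‖δ_i f‖, in the top-face-weighted Hamming norms of degrees i and i + 1. -/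
theorem result (d : ℕ) (hd : 3 ≤ d) :
    ∃ D : ℕ, ∃ ε : ℝ, 0 < ε ∧ ∀ N : ℕ, ∃ n : ℕ, ∃ T : Finset (Finset (Fin n)), N ≤ n ∧
      (∀ τ ∈ T, τ.card = d + 1) ∧
      (∀ v : Fin n, 1 ≤ Crest.CombinatoricsR.Cochain.vertexDegree T v ∧ Crest.CombinatoricsR.Cochain.vertexDegree T v ≤ D) ∧
      (Crest.CombinatoricsR.Cochain.skeleton T).Connected ∧
      ∀ i : ℕ, i < d → ∀ f : Finset (Fin n) → ZMod 2,
        ∃ b : Finset (Fin n) → ZMod 2, Crest.CombinatoricsR.Cochain.IsCoboundaryClass i b ∧
          ε * Crest.CombinatoricsR.Cochain.cochainNorm d T i (f - b) ≤ Crest.CombinatoricsR.Cochain.cochainNorm d T (i + 1) (Crest.CombinatoricsR.Cochain.coboundary i f) := by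
  obtain ⟨D, ε, hε, h⟩ := R66.final d (by omega)
  exact ⟨D, ε, hε, h⟩

end Crest.Agent.S0088
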