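import Crest.Statements.S0094
import Crest.Agent.R71.Geom
import Crest.Agent.R71.Model

set_option autoImplicit false
open Pointwise Crest.AnalysisR
open Crest Crest.AnalysisR

namespace Crest.Agent.S0094

/-- For all real a, b ≥ 1 there are n ≥ 1 and a compact convex set K in Euclidean n-space with nonempty interior, symmetric about 0, such that, with L the cube of points having all coordinates in [-1, 1] and polars taken for the standard inner product (the y pairing to at most 1 with each point of the set): some m translates of a⁻¹ • (polar of K) cover the polar of L, while any k translates of L covering K satisfy b * log m < log k. So log N(K, L) > b log N(L°, a⁻¹K°) for covering numbers N. -/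
theorem result
    (a b : ℝ) (ha : 1 ≤ a) (hb : 1 ≤ b) :
    ∃ n : ℕ, 0 < n ∧ ∃ K : Set (EuclideanSpace ℝ (Fin n)),
      Convex ℝ K ∧ IsCompact K ∧ (interior K).Nonempty ∧ (∀ x ∈ K, -x ∈ K) ∧
      ∃ t₁ : Finset (EuclideanSpace ℝ (Fin n)),
        polarSet {x : EuclideanSpace ℝ (Fin n) | ∀ i, |x i| ≤ 1} ⊆ ⋃ y ∈ t₁, (y +ᵥ a⁻¹ • polarSet K) ∧
        ∀ t₂ : Finset (EuclideanSpace ℝ (Fin n)),
          K ⊆ ⋃ x ∈ t₂, (x +ᵥ {z : EuclideanSpace ℝ (Fin n) | ∀ i, |z i| ≤ 1}) →
          b * Real.log t₁.card < Real.log t₂.card := by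
  classical
  obtain ⟨N, hN⟩ : ∃ N : ℕ, 96 * a ≤ N := exists_nat_ge _
  have hN0 : 0 < N := by
    have : (0 : ℝ) < N := by linarith
    exact_mod_cast this
  have hN' : (0 : ℝ) < N := by exact_mod_cast hN0
  obtain ⟨q, hq⟩ : ∃ q : ℕ, 4 * b * N ^ 3 ≤ q := exists_nat_ge _
  have hq' : (0 : ℝ) < q := lt_of_lt_of_le (by positivity) hq
  haveI : NeZero q := ⟨by
    rintro rfl
    simp at hq'⟩
  obtain ⟨L, hL⟩ : ∃ L : ℕ, L = 2 * 3 ^ N * q ^ 3 ^ N := ⟨_, rfl⟩
  have hL0 : 0 < L := by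
    have := Nat.pos_of_ne_zero (NeZero.ne q)
    rw [hL]
    positivity
  haveI : Nonempty (Fin L) := ⟨⟨0, hL0⟩⟩
  obtain ⟨s, hs⟩ : ∃ s : ℕ, s = Fintype.card (Fin L → Fin q) := ⟨_, rfl⟩
  have hs0 : 0 < s := by rw [hs]; exact Fintype.card_pos
  have hs1 : (1 : ℝ) ≤ s := by exact_mod_cast hs0
  let Θ : Type := R71.Half (Fin L) × ((Fin L → Fin q) → Finset (Fin N × Fin N))
  obtain ⟨D, hD⟩ : ∃ D : ℕ, 12 * a * Fintype.card Θ + 1 ≤ D := exists_nat_ge _
  have hD' : (0 : ℝ) < D := lt_of_lt_of_le (by positivity) hD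
  have hD0 : 0 < D := by exact_mod_cast hD'
  obtain ⟨C, hC⟩ : ∃ C : ℕ, C = L ^ N * (2 * D + 1) ^ Fintype.card Θ := ⟨_, rfl⟩
  have hC0 : 0 < C := by rw [hC]; positivity
  have hC1 : (1 : ℝ) ≤ C := by exact_mod_cast hC0
  obtain ⟨m, hm⟩ : ∃ m : ℕ, Real.exp (4 * (b * Real.log C + s * Real.log 2)) < m :=
    exists_nat_gt _
  have hm' : (0 : ℝ) < m := (Real.exp_pos _).trans hm
  have hm0 : 0 < m := by exact_mod_cast hm'
  have hlm : 4 * (b * Real.log C + s * Real.log 2) < Real.log m :=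
    (Real.lt_log_iff_exp_lt hm').2 hm
  have hlC : 0 ≤ Real.log C := Real.log_nonneg hC1
  have hl2 : 0 < Real.log 2 := Real.log_pos (by norm_num)
  have hlm0 : 0 ≤ Real.log m := by
    have : 0 ≤ b * Real.log C + s * Real.log 2 := by positivity
    linarith
  haveI : Nonempty (Fin m) := ⟨⟨0, hm0⟩⟩
  haveI : Nonempty (R71.Half (Fin L)) := ⟨⟨Finset.univ, by rw [Finset.card_univ]; omega⟩⟩
  let d : Fin m := ⟨0, hm0⟩
  let 𝓛 : Finset (((Fin L → Fin q) → Fin N × Fin N → Fin m) × (Θ → ℤ)) :=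
    (Finset.univ.biUnion fun Q : Fin N → Fin L => R71.fixS (R71.SQ Q) fun _ _ => d) ×ˢ
      Fintype.piFinset fun _ => Finset.Icc (-(D : ℤ)) D
  refine R71.geom (R71.ff (q := q) (Λ := Fin L) (β := Fin m) N) ha (by linarith) 𝓛
    (fun l y => ∃ τ : R71.Half (Fin L) × ((Fin L → Fin q) → Fin m) → Θ,
      (∀ u, ∑ x, |y x| * |R71.ff N u x - R71.FF N l.1 u (τ x)| ≤ 12 / N) ∧
        ∀ θ, l.2 θ = ⌊(D : ℝ) * ∑ x with τ x = θ, y x⌋)
    (fun y hy => ?_) (fun l y y' hy hy' u => ?_) (2 ^ s * m ^ (s / 2)) (fun I hI => ?_)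
    fun k hk => ?_
  · obtain ⟨Q, G, hG, τ, hτ⟩ := R71.dual d hN0 y hy
    exact ⟨(G, fun θ => ⌊(D : ℝ) * ∑ x with τ x = θ, y x⌋), Finset.mem_product.2
      ⟨Finset.mem_biUnion.2 ⟨Q, Finset.mem_univ _, hG⟩,
        Fintype.mem_piFinset.2 fun θ => R71.floor_mem D hy _⟩, τ, hτ, fun _ => rfl⟩
  · obtain ⟨τ, h1, h2⟩ := hy
    obtain ⟨τ', h1', h2'⟩ := hy'
    refine (R71.close _ (R71.FF N l.1) (fun u θ => ?_) hD0 y y' τ τ' h1 h1'
      (fun θ => (h2 θ).symm.trans (h2' θ)) u).trans ?_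
    · rw [R71.FF, abs_of_nonneg (R71.lev_nonneg _ _ _)]
      exact R71.lev_le hN0 _ _
    · have h3 : 2 * (12 / (N : ℝ)) ≤ 1 / (4 * a) := by
        rw [← mul_div_assoc, div_le_div_iff₀ hN' (by linarith)]
        linarith
      have h4 : 3 * (Fintype.card Θ : ℝ) / D ≤ 1 / (4 * a) := by
        rw [div_le_div_iff₀ hD' (by linarith)]
        linarith
      have h5 : 1 / (4 * a) + 1 / (4 * a) = 1 / (2 * a) := by
        field_simp
        norm_num
      linarith
  · have := R71.primal hN0 (by rw [Fintype.card_fin, hL]) I hI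
    rwa [← hs, Fintype.card_fin] at this
  · have h1 : 𝓛.card ≤ C * m ^ (N * N * (N * s / q)) := by
      rw [Finset.card_product, Fintype.card_piFinset, Finset.prod_const, Finset.card_univ,
        Int.card_Icc, hC, mul_right_comm]
      refine Nat.mul_le_mul ((Finset.card_biUnion_le_card_mul _ _ (m ^ (N * N * (N * s / q)))
        fun Q _ => ?_).trans (le_of_eq ?_)) (le_of_eq ?_)
      · rw [R71.card_fixS, Fintype.card_fun, Fintype.card_fin, Fintype.card_prod, Fintype.card_fin,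
          ← pow_mul]
        exact Nat.pow_le_pow_right hm0 (Nat.mul_le_mul_left _ (hs ▸ R71.card_SQ Q))
      · simp
      · congr 1
        omega
    have h2 : Real.log 𝓛.card ≤ Real.log C + (N * N * (N * s / q : ℕ) : ℕ) * Real.log m := by
      rw [← Real.log_pow, ← Real.log_mul (by positivity) (by positivity)]
      rcases Nat.eq_zero_or_pos 𝓛.card with h0 | h0
      · rw [h0, Nat.cast_zero, Real.log_zero]
        refine Real.log_nonneg (one_le_mul_of_one_le_of_one_le hC1 (one_le_pow₀ ?_))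
        exact_mod_cast hm0
      · exact Real.log_le_log (by exact_mod_cast h0) (by exact_mod_cast h1)
    have h3 : b * ((N * N * (N * s / q : ℕ) : ℕ) : ℝ) ≤ s / 4 := by
      have h4 : ((N * s / q : ℕ) : ℝ) ≤ N * s / q := by
        have := Nat.cast_div_le (α := ℝ) (m := N * s) (n := q)
        rwa [Nat.cast_mul] at this
      push_cast
      calc b * (N * N * ((N * s / q : ℕ) : ℝ)) ≤ b * (N * N * (N * s / q)) := by gcongr
        _ = 4 * b * N ^ 3 / q * (s / 4) := by ring
        _ ≤ 1 * (s / 4) := mul_le_mul_of_nonneg_right ((div_le_one hq').2 hq) (by positivity)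
        _ = _ := one_mul _
    rw [Fintype.card_fun, Fintype.card_fin, ← hs] at hk
    have hk0 : 0 < k := by
      rcases Nat.eq_zero_or_pos k with rfl | h0
      · have : 0 < m ^ s := by positivity
        omega
      · exact h0
    have h4 : s * Real.log m ≤ Real.log k + (s * Real.log 2 + (s / 2 : ℕ) * Real.log m) := by
      rw [← Real.log_pow, ← Real.log_pow, ← Real.log_pow,
        ← Real.log_mul (by positivity) (by positivity),
        ← Real.log_mul (by positivity) (by positivity)]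
      exact Real.log_le_log (by positivity) (by exact_mod_cast hk)
    have h5 : ((s / 2 : ℕ) : ℝ) ≤ s / 2 := Nat.cast_div_le
    have h6 := mul_le_mul_of_nonneg_right h5 hlm0
    have h7 := mul_le_mul_of_nonneg_right h3 hlm0
    have h8 := mul_le_mul_of_nonneg_left h2 (by linarith : 0 ≤ b)
    have h9 := mul_le_mul_of_nonneg_right hs1 hlm0
    nlinarith

end Crest.Agent.S0094
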