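import Crest.Statements.S0096
import Crest.Agent.R72.CoreC

set_option autoImplicit false
open Crest Crest.AnalysisR

namespace Crest.Agent.S0096

/-- There is an absolute constant C such that for every integer n ≥ 1 and all complex F, G on ℝ × ℝ in L³ (Lebesgue measure), the disjoint-annulus count annulusCount n F G (pointwise supremum of ∑_j ‖B_{ε_j,R_j}(F,G)‖ over at most n rational annuli 0 < ε_j < R_j with pairwise disjoint open intervals, B the truncated triangular Hilbert transform) has L^{3/2} quasi-norm (∫ S^{3/2})^{2/3} at most C √n log(2+n) ‖F‖₃ ‖G‖₃. -/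
theorem result :
    ∃ C : ℝ, ∀ n : ℕ, 1 ≤ n → ∀ F G : ℝ × ℝ → ℂ,
      MeasureTheory.MemLp F 3 MeasureTheory.volume → MeasureTheory.MemLp G 3 MeasureTheory.volume →
        (∫⁻ z, Crest.AnalysisR.annulusCount n F G z ^ (3 / 2 : ℝ)) ^ (2 / 3 : ℝ) ≤
          ENNReal.ofReal (C * Real.sqrt n * Real.log (2 + n)) * MeasureTheory.eLpNorm F 3 MeasureTheory.volume *
            MeasureTheory.eLpNorm G 3 MeasureTheory.volume := by
  obtain ⟨C, hC, h⟩ := Crest.Agent.R72.count_majorant
  refine ⟨C, fun n hn F G hF hG => ?_⟩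
  obtain ⟨W, -, hW, hb⟩ := h n hn F G hF hG
  have h1 : (1 : ℝ) ≤ Real.log (2 + n) := by
    have hn' : (1 : ℝ) ≤ n := by exact_mod_cast hn
    rw [Real.le_log_iff_exp_le (by linarith)]
    have := Real.exp_one_lt_d9
    linarith
  have h2 : C * Real.sqrt n ≤ C * Real.sqrt n * Real.log (2 + n) :=
    le_mul_of_one_le_right (mul_nonneg hC (Real.sqrt_nonneg _)) h1
  refine le_trans ?_ (hb.trans ?_)
  · refine ENNReal.rpow_le_rpow (MeasureTheory.lintegral_mono_ae ?_) (by norm_num)
    filter_upwards [hW] with z hz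
    exact ENNReal.rpow_le_rpow hz (by norm_num)
  · gcongr

end Crest.Agent.S0096
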