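import Crest.Statements.S0097
import Crest.Agent.R72.DyadicR

set_option autoImplicit false
open Crest Crest.AnalysisR

namespace Crest.Agent.S0097

theorem localForm_smul (k : ℤ) (n₀ n₁ n₂ : ℕ) (F₀ F₁ F₂ : ℝ × ℝ → ℝ) (a b c : ℝ) :
    TriangularDyadic.localForm k n₀ n₁ n₂ (fun z => a * F₀ z) (fun z => b * F₁ z)
      (fun z => c * F₂ z) = a * b * c * TriangularDyadic.localForm k n₀ n₁ n₂ F₀ F₁ F₂ := by
  unfold TriangularDyadic.localForm
  rw [mul_left_comm]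
  congr 1
  rw [← MeasureTheory.integral_const_mul]
  congr 1
  funext x₀
  rw [← MeasureTheory.integral_const_mul]
  congr 1
  funext x₁
  rw [← MeasureTheory.integral_const_mul]
  congr 1
  funext x₂
  ring

theorem int_smul (F : ℝ × ℝ → ℝ) {a : ℝ} (ha : 0 ≤ a) :
    (∫ z in Set.Ici 0 ×ˢ Set.Ici 0, abs (a * F z) ^ 3) =
      a ^ 3 * ∫ z in Set.Ici 0 ×ˢ Set.Ici 0, abs (F z) ^ 3 := by
  rw [← MeasureTheory.integral_const_mul]
  congr 1
  funext z
  rw [abs_mul, abs_of_nonneg ha, mul_pow]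

theorem scale_le {I e : ℝ} (hI : 0 ≤ I) (he : 0 < e) :
    ((I ^ (1 / 3 : ℝ) + e)⁻¹) ^ 3 * I ≤ 1 := by
  have h0 : 0 ≤ I ^ (1 / 3 : ℝ) := Real.rpow_nonneg hI _
  have h1 : (I ^ (1 / 3 : ℝ)) ^ 3 = I := by
    rw [← Real.rpow_natCast, ← Real.rpow_mul hI]; norm_num
  have hp : 0 < I ^ (1 / 3 : ℝ) + e := by linarith
  rw [inv_pow, inv_mul_le_iff₀ (pow_pos hp 3), mul_one]
  calc I = (I ^ (1 / 3 : ℝ)) ^ 3 := h1.symm
    _ ≤ _ := pow_le_pow_left₀ h0 (by linarith) 3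

/-- For real functions F₀, F₁, F₂ on ℝ × ℝ that are measurable, bounded and compactly supported, and every finite set of admissible dyadic triples, indexed by (k, n₀, n₁) : ℤ × ℕ × ℕ with third index the bitwise exclusive-or n₀ ^^^ n₁, the sum of the absolute values of the local forms TriangularDyadic.localForm is at most 40 times the product of the three L³ norms over the quarter plane [0,∞)². By non-negativity this is the same bound for the full sum over any finite set of scales. -/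
theorem result
    (F₀ F₁ F₂ : ℝ × ℝ → ℝ) (hF₀ : Measurable F₀) (hF₁ : Measurable F₁) (hF₂ : Measurable F₂)
    (hb : ∃ M : ℝ, ∀ z, abs (F₀ z) ≤ M ∧ abs (F₁ z) ≤ M ∧ abs (F₂ z) ≤ M)
    (hc₀ : HasCompactSupport F₀) (hc₁ : HasCompactSupport F₁) (hc₂ : HasCompactSupport F₂)
    (𝓘 : Finset (ℤ × ℕ × ℕ)) :
    ∑ i ∈ 𝓘, abs (Crest.AnalysisR.TriangularDyadic.localForm i.1 i.2.1 i.2.2 (i.2.1 ^^^ i.2.2) F₀ F₁ F₂) ≤
      40 * (∫ z in Set.Ici 0 ×ˢ Set.Ici 0, abs (F₀ z) ^ 3) ^ (1 / 3 : ℝ) *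
        (∫ z in Set.Ici 0 ×ˢ Set.Ici 0, abs (F₁ z) ^ 3) ^ (1 / 3 : ℝ) *
        (∫ z in Set.Ici 0 ×ˢ Set.Ici 0, abs (F₂ z) ^ 3) ^ (1 / 3 : ℝ) := by
  obtain ⟨M, hM⟩ := hb
  set I₀ := ∫ z in Set.Ici 0 ×ˢ Set.Ici 0, abs (F₀ z) ^ 3 with hI₀
  set I₁ := ∫ z in Set.Ici 0 ×ˢ Set.Ici 0, abs (F₁ z) ^ 3 with hI₁
  set I₂ := ∫ z in Set.Ici 0 ×ˢ Set.Ici 0, abs (F₂ z) ^ 3 with hI₂
  have p₀ : 0 ≤ I₀ := MeasureTheory.integral_nonneg fun z => by positivity
  have p₁ : 0 ≤ I₁ := MeasureTheory.integral_nonneg fun z => by positivity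
  have p₂ : 0 ≤ I₂ := MeasureTheory.integral_nonneg fun z => by positivity
  set S := ∑ i ∈ 𝓘, abs (Crest.AnalysisR.TriangularDyadic.localForm i.1 i.2.1 i.2.2
    (i.2.1 ^^^ i.2.2) F₀ F₁ F₂) with hS
  set α := I₀ ^ (1 / 3 : ℝ) with hα
  set β := I₁ ^ (1 / 3 : ℝ) with hβ
  set γ := I₂ ^ (1 / 3 : ℝ) with hγ
  have a0 : 0 ≤ α := Real.rpow_nonneg p₀ _
  have b0 : 0 ≤ β := Real.rpow_nonneg p₁ _
  have c0 : 0 ≤ γ := Real.rpow_nonneg p₂ _
  have key : ∀ e : ℝ, 0 < e → S ≤ 18 * ((α + e) * (β + e) * (γ + e)) := by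
    intro e he
    have ha : 0 < α + e := by linarith
    have hb' : 0 < β + e := by linarith
    have hc : 0 < γ + e := by linarith
    have ia := inv_pos.mpr ha
    have ib := inv_pos.mpr hb'
    have ic := inv_pos.mpr hc
    have hM0 : 0 ≤ M := (abs_nonneg _).trans (hM 0).1
    have h := Crest.Agent.R72.dyadicR (fun z => (α + e)⁻¹ * F₀ z) (fun z => (β + e)⁻¹ * F₁ z)
      (fun z => (γ + e)⁻¹ * F₂ z) (hF₀.const_mul _) (hF₁.const_mul _) (hF₂.const_mul _)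
      ⟨((α + e)⁻¹ + (β + e)⁻¹ + (γ + e)⁻¹) * M, fun z => by
        obtain ⟨h0, h1, h2⟩ := hM z
        refine ⟨?_, ?_, ?_⟩
        · rw [abs_mul, abs_of_pos ia]
          exact mul_le_mul (by linarith) h0 (abs_nonneg _) (by positivity)
        · rw [abs_mul, abs_of_pos ib]
          exact mul_le_mul (by linarith) h1 (abs_nonneg _) (by positivity)
        · rw [abs_mul, abs_of_pos ic]
          exact mul_le_mul (by linarith) h2 (abs_nonneg _) (by positivity)⟩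
      (hc₀.mul_left (f := fun _ => (α + e)⁻¹)) (hc₁.mul_left (f := fun _ => (β + e)⁻¹))
      (hc₂.mul_left (f := fun _ => (γ + e)⁻¹)) 𝓘
    simp only [localForm_smul] at h
    rw [int_smul F₀ ia.le, int_smul F₁ ib.le, int_smul F₂ ic.le] at h
    have e1 : ∑ i ∈ 𝓘, abs ((α + e)⁻¹ * (β + e)⁻¹ * (γ + e)⁻¹ *
        TriangularDyadic.localForm i.1 i.2.1 i.2.2 (i.2.1 ^^^ i.2.2) F₀ F₁ F₂) =
        (α + e)⁻¹ * (β + e)⁻¹ * (γ + e)⁻¹ * S := by
      rw [hS, Finset.mul_sum]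
      refine Finset.sum_congr rfl fun i _ => ?_
      rw [abs_mul, abs_of_pos (by positivity)]
    rw [e1] at h
    have s0 := scale_le p₀ he
    have s1 := scale_le p₁ he
    have s2 := scale_le p₂ he
    have h18 : (α + e)⁻¹ * (β + e)⁻¹ * (γ + e)⁻¹ * S ≤ 18 := by
      refine h.trans ?_
      rw [← hI₀, ← hI₁, ← hI₂]
      linarith
    rw [← mul_inv, ← mul_inv, inv_mul_le_iff₀ (by positivity)] at h18
    linarith
  have lim : Filter.Tendsto (fun e : ℝ => 18 * ((α + e) * (β + e) * (γ + e))) (nhdsWithin 0 (Set.Ioi 0))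
      (nhds (18 * ((α + 0) * (β + 0) * (γ + 0)))) := by
    apply Filter.Tendsto.mono_left _ nhdsWithin_le_nhds
    exact Continuous.tendsto (by fun_prop) 0
  have h18 : S ≤ 18 * ((α + 0) * (β + 0) * (γ + 0)) :=
    ge_of_tendsto lim (by filter_upwards [self_mem_nhdsWithin] with e he using key e he)
  have : 0 ≤ α * β * γ := by positivity
  simp only [add_zero] at h18
  linarith

end Crest.Agent.S0097
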