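import Crest.Statements.S0102
import Crest.Agent.R77.Trans
import Crest.Agent.R77.Cross

set_option autoImplicit false
open Laplacian InnerProductSpace
open Crest Crest.AnalysisR Crest.AnalysisR.PDE

namespace Crest.Agent.S0102

open Crest.Agent.R77

/-- Let n ≥ 2, p, q > 0 and A, B be real with (n + A)/(p + 1) + (n + B)/(q + 1) > n - 2. Then there is no pair of everywhere-positive continuous functions u, v on ℝⁿ, twice continuously differentiable away from the origin, with -Δu(x) = ‖x‖^A v(x)^p and -Δv(x) = ‖x‖^B u(x)^q at every x ≠ 0. -/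
theorem result
    (n : ℕ) (hn : 2 ≤ n) (p q A B : ℝ) (hp : 0 < p) (hq : 0 < q)
    (hsub : (n : ℝ) - 2 < ((n : ℝ) + A) / (p + 1) + ((n : ℝ) + B) / (q + 1)) :
    ¬ ∃ u v : EuclideanSpace ℝ (Fin n) → ℝ,
        Continuous u ∧ Continuous v ∧
        ContDiffOn ℝ 2 u {0}ᶜ ∧ ContDiffOn ℝ 2 v {0}ᶜ ∧
        (∀ x, 0 < u x) ∧ (∀ x, 0 < v x) ∧
        ∀ x, x ≠ 0 →
          -(Δ u) x = ‖x‖ ^ A * v x ^ p ∧ -(Δ v) x = ‖x‖ ^ B * u x ^ q := by
  rintro ⟨u, v, hu, hv, hu2, hv2, hu0, hv0, hE⟩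
  rcases hn.eq_or_lt with rfl | hn3
  · refine no_two hu2 hu0 fun x hx => ?_
    have h1 := (hE x hx).1
    have h2 : 0 < ‖x‖ ^ A * v x ^ p :=
      mul_pos (Real.rpow_pos_of_pos (norm_pos_iff.2 hx) _) (Real.rpow_pos_of_pos (hv0 x) _)
    linarith
  have hn3' : 3 ≤ n := hn3
  obtain ⟨c, hc, hrep⟩ := rep hn3'
  obtain ⟨hv1, hv3⟩ := hrep v (fun y => ‖y‖ ^ B * u y ^ q) hv hv2 hv0 (fun y hy => (hE y hy).2)
    fun y => mul_nonneg (Real.rpow_nonneg (norm_nonneg _) _) (Real.rpow_nonneg (hu0 y).le _)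
  obtain ⟨hu1, hu3⟩ := hrep u (fun y => ‖y‖ ^ A * v y ^ p) hu hu2 hu0 (fun y hy => (hE y hy).1)
    fun y => mul_nonneg (Real.rpow_nonneg (norm_nonneg _) _) (Real.rpow_nonneg (hv0 y).le _)
  haveI : Nonempty (Sp n) := by
    haveI : Nonempty (Fin n) := ⟨⟨0, by omega⟩⟩
    exact (NormedSpace.sphere_nonempty.2 zero_le_one).to_subtype
  have hok : Ok (dat n c p q A B u v) (sg n) :=
    ⟨dat_com hn3' hc u v hsub, dat_half hn3' A B hp hq hu hv hu0 hv0 hv1, dat_half hn3' B A hq hp hv hu hv0 hu0 hu1⟩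
  rcases hv3 with hv3 | ⟨κ, hκ, hl⟩
  · rcases hu3 with hu3 | ⟨κ, hκ, hl⟩
    · exact hok.cyl_false (dat_eqn hn3' c p A B hq hu hu0 hv3) (dat_eqn hn3' c q B A hp hv hv0 hu3)
    · refine hok.swap.no_lower hκ fun x => ?_
      simp only [dat, Dat.swap, sub_add_cancel]
      rw [mul_comm]
      exact mul_le_mul_of_nonneg_left (hl _) (Real.exp_pos _).le
  · refine hok.no_lower hκ fun x => ?_
    simp only [dat, sub_add_cancel]
    rw [mul_comm]
    exact mul_le_mul_of_nonneg_left (hl _) (Real.exp_pos _).le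

end Crest.Agent.S0102
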