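import Crest.Statements.S0103
import Crest.Agent.R78.Final

set_option autoImplicit false
open Crest Crest.AnalysisR Crest.AnalysisR.OperatorAlgebra

namespace Crest.Agent.S0103

/-- For every ε > 0 there is δ > 0 such that, for every complex Hilbert space H and all von Neumann algebras M and N on H for which every element of norm at most 1 of either algebra lies within operator-norm distance less than δ of some element of norm at most 1 of the other, there is a unitary operator u on H with ‖u − 1‖ < ε and u M u⋆ = N (the elements of N are exactly the conjugates u x u⋆ of elements x of M). -/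
theorem result (ε : ℝ) (hε : 0 < ε) :
    ∃ δ : ℝ, 0 < δ ∧
      ∀ (H : Type*) [NormedAddCommGroup H] [InnerProductSpace ℂ H] [CompleteSpace H] (M N : VonNeumannAlgebra H),
        (∀ x ∈ M, ‖x‖ ≤ 1 → ∃ y ∈ N, ‖y‖ ≤ 1 ∧ ‖x - y‖ < δ) →
        (∀ y ∈ N, ‖y‖ ≤ 1 → ∃ x ∈ M, ‖x‖ ≤ 1 ∧ ‖y - x‖ < δ) →
        ∃ u : H →L[ℂ] H, u ∈ unitary (H →L[ℂ] H) ∧ ‖u - 1‖ < ε ∧
          ∀ y : H →L[ℂ] H, y ∈ N ↔ ∃ x ∈ M, y = u * x * star u := by
  exact Crest.Agent.R78.s0103 ε hε

end Crest.Agent.S0103
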