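import Crest.Statements.S0108
import Crest.Agent.R81.Final

set_option autoImplicit false
open Crest.AnalysisR.Torus3
open Crest Crest.AnalysisR Crest.AnalysisR.Torus3

namespace Crest.Agent.S0108

/-- There are a volume-preserving smooth diffeomorphism `T` of the three-torus `(ℝ/ℤ)³` (normalised Haar measure) and a real square-integrable function `g` of mean zero whose two-sided orbit `g ∘ Tⁿ`, `n ∈ ℤ`, is an orthonormal basis of the complex mean-zero square-integrable functions: the functions `g ∘ Tⁿ` are orthonormal, and a complex square-integrable function of mean zero that is orthogonal to all of them vanishes almost everywhere. -/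
theorem result :
    ∃ (T : Equiv.Perm T3) (g : T3 → ℝ), IsSmoothDiffeo T ∧
      MeasureTheory.MeasurePreserving T MeasureTheory.volume MeasureTheory.volume ∧
      MeasureTheory.MemLp g 2 MeasureTheory.volume ∧ ∫ x, g x = 0 ∧
      (∀ m n : ℤ, ∫ x, g ((T ^ m) x) * g ((T ^ n) x) = if m = n then 1 else 0) ∧
      (∀ h : T3 → ℂ, MeasureTheory.MemLp h 2 MeasureTheory.volume → ∫ x, h x = 0 →
        (∀ n : ℤ, ∫ x, h x * (g ((T ^ n) x) : ℂ) = 0) → h =ᵐ[MeasureTheory.volume] 0) := by
  exact Crest.Agent.R81.final

end Crest.Agent.S0108
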