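import Crest.Statements.S0110
import Crest.Agent.R82.Sharp

set_option autoImplicit false
open MeasureTheory
open scoped ENNReal NNReal
open Crest.AnalysisR.OT
open Crest Crest.AnalysisR Crest.AnalysisR.OT

namespace Crest.Agent.S0110

/-- The exponent one third is optimal, even on the cube with three-atom targets: for d ≥ 2, ρ the uniform probability measure on the cube of points of ℝᵈ with all coordinates in [-1, 1], every α > 1/3 and every C ≥ 0, there are three-atomic probability measures μ, ν on that cube, each admitting a quadratic optimal transport map from ρ, such that for all such optimal maps Tμ, Tν some coupling π of μ, ν has C · (∫ ‖y - z‖² dπ)^α < ∫ ‖Tμ - Tν‖² dρ. Hence ‖Tμ - Tν‖_{L²(ρ)} > √C · W₂(μ, ν)^α. -/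
theorem result
    (d : ℕ) (hd : 2 ≤ d) (α : ℝ) (hα : 1 / 3 < α) (C : ℝ≥0) :
    ∃ μ ν : Measure (EuclideanSpace ℝ (Fin d)),
      IsProbabilityOn {x : EuclideanSpace ℝ (Fin d) | ∀ i, |x i| ≤ 1} μ ∧
      IsProbabilityOn {x : EuclideanSpace ℝ (Fin d) | ∀ i, |x i| ≤ 1} ν ∧
      IsThreeAtomic μ ∧ IsThreeAtomic ν ∧
      (∃ T, IsOptimalMap (uniformProbOn {x : EuclideanSpace ℝ (Fin d) | ∀ i, |x i| ≤ 1}) μ T) ∧
      (∃ T, IsOptimalMap (uniformProbOn {x : EuclideanSpace ℝ (Fin d) | ∀ i, |x i| ≤ 1}) ν T) ∧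
      ∀ Tμ Tν : EuclideanSpace ℝ (Fin d) → EuclideanSpace ℝ (Fin d),
        IsOptimalMap (uniformProbOn {x : EuclideanSpace ℝ (Fin d) | ∀ i, |x i| ≤ 1}) μ Tμ →
        IsOptimalMap (uniformProbOn {x : EuclideanSpace ℝ (Fin d) | ∀ i, |x i| ≤ 1}) ν Tν →
        ∃ π : Measure (EuclideanSpace ℝ (Fin d) × EuclideanSpace ℝ (Fin d)), IsPairCoupling μ ν π ∧
          (C : ℝ≥0∞) * quadCost π ^ α < ∫⁻ x, ‖Tμ x - Tν x‖ₑ ^ 2 ∂(uniformProbOn {x : EuclideanSpace ℝ (Fin d) | ∀ i, |x i| ≤ 1}) := by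
  open R82.Sharp in
  let i₀ : Fin d := ⟨0, by omega⟩
  let i₁ : Fin d := ⟨1, by omega⟩
  have h01 : i₀ ≠ i₁ := by simp [i₀, i₁]
  obtain ⟨t, ht0, ht, hlt⟩ := exists_eps α hα C (1 / 4 ^ d) (by positivity)
  have hprob := rho_prob i₀
  change ∃ μ ν : Measure (EuclideanSpace ℝ (Fin d)), IsProbabilityOn (cube d) μ ∧
    IsProbabilityOn (cube d) ν ∧ IsThreeAtomic μ ∧ IsThreeAtomic ν ∧
    (∃ T, IsOptimalMap (uniformProbOn (cube d)) μ T) ∧
    (∃ T, IsOptimalMap (uniformProbOn (cube d)) ν T) ∧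
    ∀ Tμ Tν : EuclideanSpace ℝ (Fin d) → EuclideanSpace ℝ (Fin d),
      IsOptimalMap (uniformProbOn (cube d)) μ Tμ → IsOptimalMap (uniformProbOn (cube d)) ν Tν →
      ∃ π : Measure (EuclideanSpace ℝ (Fin d) × EuclideanSpace ℝ (Fin d)), IsPairCoupling μ ν π ∧
        (C : ℝ≥0∞) * quadCost π ^ α < ∫⁻ x, ‖Tμ x - Tν x‖ₑ ^ 2 ∂(uniformProbOn (cube d))
  set ρ := uniformProbOn (cube d) with hρ
  have habs : |t| ≤ 1 / 2 := by rwa [abs_of_pos ht0]
  have habs' : |-t| ≤ 1 / 2 := by rwa [abs_neg]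
  have hon : ∀ s : ℝ, |s| ≤ 1 / 2 → IsProbabilityOn (cube d) (ρ.map (Tm i₀ i₁ s)) := by
    intro s hs
    refine ⟨Measure.isProbabilityMeasure_map (measurable_Tm s).aemeasurable, ?_⟩
    rw [Measure.map_apply (measurable_Tm s) measurableSet_cube.compl]
    have : Tm i₀ i₁ s ⁻¹' (cube d)ᶜ = ∅ := by
      ext x; simp [Tm_mem_cube s (hs.trans (by norm_num)) x]
    rw [this, measure_empty]
  have hbd : ∀ᵐ x ∂ρ, ‖x‖ ≤ Real.sqrt d := rho_ae_cube.mono fun x hx => norm_le_of_cube hx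
  refine ⟨ρ.map (Tm i₀ i₁ t), ρ.map (Tm i₀ i₁ (-t)), hon t habs, hon _ habs',
    threeAtomic_map (measurable_Tm t) _ (atom_inj h01 t) (Tm_mem h01 t)
      (cell_pos h01 t ht0.ne' habs),
    threeAtomic_map (measurable_Tm _) _ (atom_inj h01 _) (Tm_mem h01 _)
      (cell_pos h01 _ (neg_ne_zero.2 ht0.ne') habs'),
    ⟨_, isOptimal_of_argmax _ (measurable_Tm t) (Tm_mem h01 t) (Tm_max h01 t)⟩,
    ⟨_, isOptimal_of_argmax _ (measurable_Tm _) (Tm_mem h01 _) (Tm_max h01 _)⟩, ?_⟩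
  intro Tμ Tν hμ hν
  have e1 := ae_eq_of_isOptimal _ (measurable_Tm t) (Tm_mem h01 t) (Tm_max h01 t) (rho_ties _)
    hbd hμ
  have e2 := ae_eq_of_isOptimal _ (measurable_Tm _) (Tm_mem h01 _) (Tm_max h01 _) (rho_ties _)
    hbd hν
  have hrf : Measurable (rf i₁) := (rf i₁).continuous.measurable
  have hpair : Measurable fun x => (Tm i₀ i₁ t x, rf i₁ (Tm i₀ i₁ t x)) :=
    (measurable_Tm t).prodMk (hrf.comp (measurable_Tm t))
  have hW : MeasurableSet {x : EuclideanSpace ℝ (Fin d) | |x i₀| < t * x i₁} := by measurability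
  refine ⟨ρ.map fun x => (Tm i₀ i₁ t x, rf i₁ (Tm i₀ i₁ t x)), ⟨?_, ?_⟩, ?_⟩
  · rw [Measure.map_map measurable_fst hpair]; rfl
  · rw [Measure.map_map measurable_snd hpair]
    have hm : ρ.map (rf i₁) = ρ := (rf_preserving (i₁ := i₁)).map_eq
    conv_rhs => rw [← hm, Measure.map_map (measurable_Tm _) hrf]
    congr 1
    ext1 x
    exact (Tm_neg_rf h01 t x).symm
  · have hcost : quadCost (ρ.map fun x => (Tm i₀ i₁ t x, rf i₁ (Tm i₀ i₁ t x))) ≤
        ENNReal.ofReal (4 * t ^ 3) := by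
      rw [quadCost, lintegral_map (by fun_prop) hpair]
      have : ∀ x, ‖Tm i₀ i₁ t x - rf i₁ (Tm i₀ i₁ t x)‖ₑ ^ 2 =
          {x : EuclideanSpace ℝ (Fin d) | |x i₀| < t * x i₁}.indicator
            (fun _ => ENNReal.ofReal (4 * t ^ 2)) x := by
        intro x
        rw [enorm_sq_eq, Set.indicator_apply]
        simp only [Set.mem_ofPred_eq, Tm]
        split_ifs
        · have : EuclideanSpace.single i₁ t - rf i₁ (EuclideanSpace.single i₁ t) =
              EuclideanSpace.single i₁ (2 * t) := by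
            ext i; simp only [PiLp.sub_apply, rf_apply, PiLp.single_apply]; split_ifs <;> ring
          rw [this, PiLp.norm_single, Real.norm_eq_abs, sq_abs]; congr 1; ring
        · have : EuclideanSpace.single i₀ (1 : ℝ) - rf i₁ (EuclideanSpace.single i₀ 1) = 0 := by
            ext i; simp only [PiLp.sub_apply, rf_apply, PiLp.single_apply]
            split_ifs <;> simp_all
          rw [this]; simp
        · have : EuclideanSpace.single i₀ (-1 : ℝ) - rf i₁ (EuclideanSpace.single i₀ (-1)) = 0 := by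
            ext i; simp only [PiLp.sub_apply, rf_apply, PiLp.single_apply]
            split_ifs <;> simp_all
          rw [this]; simp
      simp only [this]
      rw [lintegral_indicator_const hW]
      refine (mul_le_mul_right (wedge_le t ht0) _).trans (le_of_eq ?_)
      rw [← ENNReal.ofReal_mul (by positivity)]; congr 1; ring
    have hlow : ENNReal.ofReal (t / 4 ^ d) ≤ ∫⁻ x, ‖Tμ x - Tν x‖ₑ ^ 2 ∂ρ := by
      refine (le_wedge h01 t ht0 (by linarith)).trans ?_
      rw [← lintegral_indicator_one hW]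
      apply lintegral_mono_ae
      filter_upwards [e1, e2] with x hx1 hx2
      rw [hx1, hx2, Set.indicator_apply]
      split_ifs with hx
      · simp only [Set.mem_ofPred_eq] at hx
        have h3 : ¬ |x i₀| < -t * x i₁ := by linarith [abs_nonneg (x i₀)]
        have h4 : 1 ≤ ‖Tm i₀ i₁ t x - Tm i₀ i₁ (-t) x‖ := by
          refine le_trans ?_ (PiLp.norm_apply_le _ i₀)
          simp only [Tm, if_pos hx, if_neg h3]
          split_ifs <;> simp [h01]
        rw [enorm_sq_eq, Pi.one_apply, ← ENNReal.ofReal_one]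
        exact ENNReal.ofReal_le_ofReal (one_le_pow₀ h4)
      · exact zero_le
    refine lt_of_lt_of_le ?_ hlow
    calc (C : ℝ≥0∞) * quadCost (ρ.map fun x => (Tm i₀ i₁ t x, rf i₁ (Tm i₀ i₁ t x))) ^ α
        ≤ (C : ℝ≥0∞) * ENNReal.ofReal (4 * t ^ 3) ^ α := by
          gcongr
      _ = ENNReal.ofReal (C * (4 * t ^ 3) ^ α) := by
          rw [ENNReal.ofReal_rpow_of_pos (by positivity), ENNReal.ofReal_mul C.coe_nonneg]
          simp
      _ < _ := by
          rw [ENNReal.ofReal_lt_ofReal_iff (by positivity)]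
          rwa [mul_one_div] at hlt

end Crest.Agent.S0110
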