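import Crest.Statements.S0120
import Crest.Agent.R91.Main

set_option autoImplicit false
open Crest Crest.AnalysisR

namespace Crest.Agent.S0120

/-- There are separable real Banach spaces X and Y and a bijection Ψ from X to Y with (4/21) * ‖s - t‖ ≤ ‖Ψ s - Ψ t‖ ≤ (76/25) * ‖s - t‖ for all s, t in X, such that X contains a linearly isometric copy of c₀(ℓ₂), Y has no closed linear subspace linearly homeomorphic to c₀(ℓ₂), and X and Y are not linearly homeomorphic. Here ℓ₂ is the real Hilbert space of square-summable real sequences and c₀(ℓ₂) is the space of ℓ₂-valued sequences tending to zero, with the supremum norm. -/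
theorem result :
    ∃ (X : Type) (_ : NormedAddCommGroup X) (_ : NormedSpace ℝ X)
      (Y : Type) (_ : NormedAddCommGroup Y) (_ : NormedSpace ℝ Y),
      CompleteSpace X ∧ TopologicalSpace.SeparableSpace X ∧
      CompleteSpace Y ∧ TopologicalSpace.SeparableSpace Y ∧
      (∃ Ψ : X → Y, Function.Bijective Ψ ∧
        ∀ s t : X, (4 / 21 : ℝ) * ‖s - t‖ ≤ ‖Ψ s - Ψ t‖ ∧ ‖Ψ s - Ψ t‖ ≤ (76 / 25 : ℝ) * ‖s - t‖) ∧
      Nonempty (ZeroAtInftyContinuousMap ℕ (lp (fun _ : ℕ => ℝ) 2) →ₗᵢ[ℝ] X) ∧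
      (∀ S : Submodule ℝ Y, IsClosed (S : Set Y) →
        IsEmpty (S ≃L[ℝ] ZeroAtInftyContinuousMap ℕ (lp (fun _ : ℕ => ℝ) 2))) ∧
      IsEmpty (X ≃L[ℝ] Y) := by
  have : Fact ((2 : ENNReal) ≠ ⊤) := ⟨ENNReal.ofNat_ne_top⟩
  have : Nontrivial (lp (fun _ : ℕ => ℝ) 2) := ⟨⟨lp.single 2 0 1, 0, fun h => by
    have := lp.norm_single (E := fun _ : ℕ => ℝ) (p := 2) (by norm_num) 0 1
    rw [h] at this
    simp at this⟩⟩
  obtain ⟨Y, i1, i2, h1, h2, h3, Ψ, h4, h5⟩ :=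
    R91.exists_space (lp (fun _ : ℕ => ℝ) 2) (R91.noC0_hilbert _) R91.projL2
  have hn : ∀ s : WithLp 1 (R91.C0 (lp (fun _ : ℕ => ℝ) 2) × Y), ‖s‖ = ‖s.fst‖ + ‖s.snd‖ :=
    fun s => WithLp.prod_norm_eq_of_L1 s
  have h6 : ∀ s t : WithLp 1 (R91.C0 (lp (fun _ : ℕ => ℝ) 2) × Y),
      (4 / 21 : ℝ) * ‖s - t‖ ≤ ‖Ψ s.ofLp - Ψ t.ofLp‖ ∧
        ‖Ψ s.ofLp - Ψ t.ofLp‖ ≤ (76 / 25 : ℝ) * ‖s - t‖ := fun s t => by
    rw [hn]; exact h5 s.ofLp t.ofLp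
  let ι : R91.C0 (lp (fun _ : ℕ => ℝ) 2) →ₗᵢ[ℝ] WithLp 1 (R91.C0 (lp (fun _ : ℕ => ℝ) 2) × Y) :=
    { toLinearMap := (WithLp.linearEquiv 1 ℝ _).symm.toLinearMap ∘ₗ LinearMap.inl ℝ _ Y
      norm_map' := fun x => by rw [hn]; simp }
  refine ⟨WithLp 1 (R91.C0 (lp (fun _ : ℕ => ℝ) 2) × Y), inferInstance, inferInstance, Y, i1, i2,
    inferInstance, ?_, h1, h2, ⟨fun s => Ψ s.ofLp, ⟨fun s t h => ?_, fun y => ?_⟩, h6⟩, ⟨ι⟩,
    fun S _ => h3.isEmpty S, ⟨fun e => ?_⟩⟩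
  · exact (WithLp.prodContinuousLinearEquiv 1 ℝ _ Y).symm.surjective.denseRange.separableSpace
      (WithLp.prodContinuousLinearEquiv 1 ℝ _ Y).symm.continuous
  · have h7 := (h6 s t).1
    rw [show Ψ s.ofLp = Ψ t.ofLp from h, sub_self, norm_zero] at h7
    exact sub_eq_zero.1 (norm_le_zero_iff.1 (by linarith))
  · obtain ⟨u, rfl⟩ := h4 y
    exact ⟨WithLp.toLp 1 u, rfl⟩
  · obtain ⟨v, hv⟩ := exists_ne (0 : lp (fun _ : ℕ => ℝ) 2)
    refine hv (h3.not_embed (e.toLinearMap ∘ₗ ι.toLinearMap).toAddMonoidHom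
      (norm_nonneg e.toContinuousLinearMap) (b := ‖e.symm.toContinuousLinearMap‖)
      (fun x => ?_) (fun x => ?_) v)
    · simpa using e.toContinuousLinearMap.le_opNorm (ι x)
    · simpa using e.symm.toContinuousLinearMap.le_opNorm (e (ι x))

end Crest.Agent.S0120
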