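import Crest.Statements.S0121
import Crest.Agent.R91.Main

set_option autoImplicit false
open Crest Crest.AnalysisR

namespace Crest.Agent.S0121

/-- There is a separable real Banach space Z with no closed linear subspace linearly homeomorphic to c₀ and a map F from Z ⊕_∞ c₀ onto Z that is bi-Lipschitz: c‖u − v‖ ≤ ‖F u − F v‖ ≤ C‖u − v‖ for some constants 0 < c ≤ C and all u, v. Here c₀ is the space of real sequences tending to zero with the supremum norm, and Z ⊕_∞ c₀ is the product with the maximum norm. -/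
theorem result :
    ∃ (Z : Type) (_ : NormedAddCommGroup Z) (_ : NormedSpace ℝ Z),
      CompleteSpace Z ∧ TopologicalSpace.SeparableSpace Z ∧
      (∀ S : Submodule ℝ Z, IsClosed (S : Set Z) →
        IsEmpty (S ≃L[ℝ] ZeroAtInftyContinuousMap ℕ ℝ)) ∧
      ∃ F : Z × ZeroAtInftyContinuousMap ℕ ℝ → Z, Function.Surjective F ∧
        ∃ c C : ℝ, 0 < c ∧
          ∀ u v : Z × ZeroAtInftyContinuousMap ℕ ℝ,
            c * ‖u - v‖ ≤ ‖F u - F v‖ ∧ ‖F u - F v‖ ≤ C * ‖u - v‖ := by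
  obtain ⟨Y, i1, i2, h1, h2, h3, Ψ, h4, h5⟩ :=
    R91.exists_space ℝ (R91.noC0_hilbert _) R91.projReal
  refine ⟨Y, i1, i2, h1, h2, fun S _ => h3.isEmpty S, fun u => Ψ u.swap,
    h4.comp Prod.swap_surjective, 4 / 21, 76 / 25 * 2, by norm_num, fun u v => ?_⟩
  obtain ⟨h6, h7⟩ := h5 u.swap v.swap
  have a1 : ‖u.1 - v.1‖ ≤ ‖u - v‖ := norm_fst_le (u - v)
  have a2 : ‖u.2 - v.2‖ ≤ ‖u - v‖ := norm_snd_le (u - v)
  have a3 : ‖u - v‖ ≤ ‖u.2 - v.2‖ + ‖u.1 - v.1‖ :=
    max_le (le_add_of_nonneg_left (norm_nonneg _)) (le_add_of_nonneg_right (norm_nonneg _))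
  simp only [Prod.fst_swap, Prod.snd_swap] at h6 h7
  constructor <;> linarith

end Crest.Agent.S0121
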