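import Crest.Statements.S0122
import Crest.Agent.R92.Main

set_option autoImplicit false
open Crest.AnalysisR.MassAction
open Crest Crest.AnalysisR Crest.AnalysisR.MassAction

namespace Crest.Agent.S0122

/-- For a finite reaction network on `d ≥ 1` species that is weakly reversible, with positive rate constants and mass-action kinetics, every positive stoichiometric class `P` contains a nonempty compact convex set `K` that is forward invariant and absorbing: from every point of `P` there is a solution defined for all forward time, it is unique, it stays coordinatewise positive, and it lies in `K` from some finite time on. -/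
theorem result
    (d : ℕ) (hd : 1 ≤ d) (R : Network d) (hR : IsWeaklyReversible R)
    (k : (Fin d → ℕ) × (Fin d → ℕ) → ℝ) (hk : ∀ r ∈ R, 0 < k r)
    (c : Fin d → ℝ) (hc : ∀ i, 0 < c i) :
    ∃ K : Set (Fin d → ℝ), K ⊆ positiveClass R c ∧ K.Nonempty ∧ IsCompact K ∧ Convex ℝ K ∧
      (∀ x : ℝ → (Fin d → ℝ), IsForwardSolution (field R k) x → x 0 ∈ K →
        ∀ t : ℝ, 0 ≤ t → x t ∈ K) ∧
      (∀ x₀ ∈ positiveClass R c,
        (∃ x : ℝ → (Fin d → ℝ), IsForwardSolution (field R k) x ∧ x 0 = x₀) ∧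
        (∀ x x' : ℝ → (Fin d → ℝ), IsForwardSolution (field R k) x →
          IsForwardSolution (field R k) x' → x 0 = x₀ → x' 0 = x₀ →
          ∀ t : ℝ, 0 ≤ t → x t = x' t) ∧
        (∀ x : ℝ → (Fin d → ℝ), IsForwardSolution (field R k) x → x 0 = x₀ →
          (∀ t : ℝ, 0 ≤ t → ∀ i, 0 < x t i) ∧
          ∃ T : ℝ, 0 ≤ T ∧ ∀ t : ℝ, T ≤ t → x t ∈ K)) := by
  obtain ⟨K, hK, hKc⟩ := Crest.Agent.R92.exists_good_compact hd R hR k hk hc
  refine ⟨K, hK.sub, ⟨c, hK.mem⟩, hKc, hK.convex, ?_, ?_⟩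
  · intro x hx hx0 t ht
    exact Crest.Agent.R92.forward_inv hK hKc.isClosed hx le_rfl hx0 ht
  · intro x₀ hx₀
    obtain ⟨K', hK', hKc'⟩ := Crest.Agent.R92.exists_good_compact hd R hR k hk hx₀.1
    refine ⟨Crest.Agent.R92.exists_forward (Crest.Agent.R92.contDiff_field R k) hK' hKc', ?_, ?_⟩
    · intro x x' hx hx' h0 h0' t ht
      exact Crest.Agent.R92.forward_unique (Crest.Agent.R92.contDiff_field R k) hx hx'
        (h0.trans h0'.symm) ht
    · intro x hx h0
      have h1 : ∀ t, 0 ≤ t → x t ∈ K' := fun t ht =>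
        Crest.Agent.R92.forward_inv hK' hKc'.isClosed hx le_rfl (h0 ▸ hK'.mem) ht
      refine ⟨fun t ht => (hK'.sub (h1 t ht)).1, ?_⟩
      obtain ⟨η, B, hη, hb⟩ := Crest.Agent.R92.exists_box hKc' (fun y hy => (hK'.sub hy).1)
      obtain ⟨T, hT, hxT⟩ := hK.abs x η B hη (Crest.Agent.R92.sol_of_forward hx)
        (fun t ht => hb _ (h1 t ht)) (h0 ▸ hx₀)
      exact ⟨T, hT, fun t ht => Crest.Agent.R92.forward_inv hK hKc.isClosed hx hT hxT ht⟩

end Crest.Agent.S0122
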