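import Crest.Statements.S0125
import Crest.Agent.R95.Conc

set_option autoImplicit false
open Crest Crest.AnalysisR Crest.AnalysisR.OperatorAlgebra

namespace Crest.Agent.S0125

/-- Let H be a separable complex Hilbert space and M a von Neumann algebra on H that is a factor of type II₁: every element of M commuting with all of M is a scalar, M is infinite-dimensional, and M admits a faithful normal tracial state (presented in vector form). Then M is generated as a von Neumann algebra by one of its elements: some x in M is such that every von Neumann algebra on H containing x contains M. Separability of the predual is modelled by separability of H. -/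
theorem result
    (H : Type*) [NormedAddCommGroup H] [InnerProductSpace ℂ H] [CompleteSpace H]
    [TopologicalSpace.SeparableSpace H] (M : VonNeumannAlgebra H) (hM : Crest.OpAlg.IsTypeIIOneFactor M) :
    ∃ x ∈ M, ∀ N : VonNeumannAlgebra H, x ∈ N → M ≤ N := by
  obtain ⟨hf, hinf, ξ, hξ⟩ := hM
  obtain ⟨_, -, hvn, -⟩ := R95.exists_tw M ξ hξ
  obtain ⟨x, hx⟩ := R95.single_gen (A := M.toStarSubalgebra) (fun x h =>
    (hf x x.2 fun y hy => congr(($(h ⟨y, hy⟩ StarSubalgebra.mem_top) : H →L[ℂ] H))).imp
      fun c hc => Subtype.ext hc) hinf
  refine ⟨x, x.2, fun N hN y hy => ?_⟩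
  have : (⟨y, hy⟩ : M.toStarSubalgebra) ∈ N.toStarSubalgebra.comap M.toStarSubalgebra.subtype :=
    hx _ (hvn N) hN ▸ StarSubalgebra.mem_top
  exact this

end Crest.Agent.S0125
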