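import Crest.Statements.S0126
import Crest.Agent.R95.Conc

set_option autoImplicit false
open Crest Crest.AnalysisR Crest.AnalysisR.OperatorAlgebra

namespace Crest.Agent.S0126

/-- Let P ≤ M be von Neumann algebras on a separable complex Hilbert space H, both factors of type II₁, with P irreducible in M (an element of M commuting with all of P is a scalar), and let ξ present a faithful normal tracial state of M, with squared trace 2-norm x ↦ ∑ ‖x (ξ n)‖². Then the unitaries u of M such that every von Neumann algebra on H containing P and u contains M form a countable intersection of relatively 2-norm-open subsets of the unitaries of M, 2-norm-dense in the unitaries of M. -/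
theorem result
    (H : Type*) [NormedAddCommGroup H] [InnerProductSpace ℂ H] [CompleteSpace H]
    [TopologicalSpace.SeparableSpace H] (P M : VonNeumannAlgebra H) (hPM : P ≤ M)
    (hP : Crest.OpAlg.IsTypeIIOneFactor P) (hM : Crest.OpAlg.IsTypeIIOneFactor M)
    (hPM' : ∀ x ∈ M, (∀ y ∈ P, x * y = y * x) → ∃ c : ℂ, x = c • (1 : H →L[ℂ] H))
    (ξ : ℕ → H) (hξ : Crest.OpAlg.IsFaithfulTracialVectorState M ξ) :
    (∃ O : ℕ → Set (H →L[ℂ] H),
      (∀ k : ℕ, ∀ u ∈ M, u ∈ unitary (H →L[ℂ] H) → u ∈ O k → ∃ δ : ℝ, 0 < δ ∧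
        ∀ v ∈ M, v ∈ unitary (H →L[ℂ] H) → Crest.OpAlg.traceNormSq ξ (v - u) < δ → v ∈ O k) ∧
      (∀ u ∈ M, u ∈ unitary (H →L[ℂ] H) →
        ((∀ N : VonNeumannAlgebra H, P ≤ N → u ∈ N → M ≤ N) ↔ ∀ k : ℕ, u ∈ O k))) ∧
    (∀ u ∈ M, u ∈ unitary (H →L[ℂ] H) → ∀ ε : ℝ, 0 < ε →
      ∃ v ∈ M, v ∈ unitary (H →L[ℂ] H) ∧ (∀ N : VonNeumannAlgebra H, P ≤ N → v ∈ N → M ≤ N) ∧
        Crest.OpAlg.traceNormSq ξ (v - u) < ε) := by
  obtain ⟨_, hn, hvn, hd⟩ := R95.exists_tw M ξ hξ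
  let P' := P.toStarSubalgebra.comap M.toStarSubalgebra.subtype
  have hun : ∀ u : M.toStarSubalgebra, u ∈ unitary M.toStarSubalgebra ↔
      (u : H →L[ℂ] H) ∈ unitary (H →L[ℂ] H) := fun u => by
    simp only [Unitary.mem_iff, Subtype.ext_iff]
    rfl
  have htop : ∀ N : VonNeumannAlgebra H,
      N.toStarSubalgebra.comap M.toStarSubalgebra.subtype = ⊤ → M ≤ N := fun N hN y hy => by
    have : (⟨y, hy⟩ : M.toStarSubalgebra) ∈ N.toStarSubalgebra.comap M.toStarSubalgebra.subtype :=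
      hN ▸ StarSubalgebra.mem_top
    exact this
  obtain ⟨d, hdd⟩ := TopologicalSpace.exists_dense_seq (R95.L2 M.toStarSubalgebra)
  refine ⟨⟨fun k => {u | ∃ hu : u ∈ M, ∃ y ∈ StarAlgebra.adjoin ℂ
      (insert (⟨u, hu⟩ : M.toStarSubalgebra) (P' : Set M.toStarSubalgebra)),
      R95.n2 (R95.toL2.symm (d k.unpair.1) - y) < 1 / ((k.unpair.2 : ℝ) + 1)}, ?_,
      fun u hu huu => ⟨fun h k => ⟨hu, hd _ (fun N hN => ?_) _ _ (by positivity)⟩,
        fun h N hPN huN => htop N (R95.eq_top_of_dense (hvn N) fun x ε hε => ?_)⟩⟩,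
    fun u hu huu ε hε => ?_⟩
  · rintro k u - huu ⟨hu, y, hy, h⟩
    obtain ⟨K, hK, hc⟩ := R95.adjoin_cont _ ((hun ⟨u, hu⟩).mpr huu) hy
    have h0 := div_pos (sub_pos.mpr h) hK
    refine ⟨_, pow_pos h0 2, fun v hv hvu hlt => ⟨hv, ?_⟩⟩
    obtain ⟨y', hy', -, h1⟩ := hc ⟨v, hv⟩ ((hun ⟨v, hv⟩).mpr hvu)
    have h2 := lt_of_pow_lt_pow_left₀ 2 h0.le ((hn (⟨v, hv⟩ - ⟨u, hu⟩)).trans_lt hlt)
    rw [lt_div_iff₀' hK] at h2
    rw [R95.n2_sub_comm] at h1
    exact ⟨y', hy', (R95.n2_triangle _ y _).trans_lt (by linarith)⟩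
  · exact h N (fun y hy => hN ⟨y, hPM hy⟩ (Or.inr hy)) (hN _ (Or.inl rfl))
  · obtain ⟨j, hj⟩ := exists_nat_one_div_lt (half_pos hε)
    obtain ⟨n, hn'⟩ := hdd.exists_dist_lt (R95.toL2 x) (half_pos hε)
    obtain ⟨_, y, hy, h1⟩ := h (Nat.pair n j)
    rw [Nat.unpair_pair] at h1
    rw [← R95.toL2.apply_symm_apply (d n), R95.dist_toL2] at hn'
    refine ⟨y, StarAlgebra.adjoin_le (S := N.toStarSubalgebra.comap M.toStarSubalgebra.subtype)
      (Set.insert_subset huN fun z hz => hPN hz) hy,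
      (R95.n2_triangle _ (R95.toL2.symm (d n)) _).trans_lt (by linarith)⟩
  · obtain ⟨v, hv, h1, h2⟩ := R95.generic (P := P') (hvn P)
      (fun x h => (hPM' x x.2 fun y hy => congr(($(h ⟨y, hPM hy⟩ hy) : H →L[ℂ] H))).imp
        fun c hc => Subtype.ext hc)
      (fun _ => hP.2.1 (Module.Finite.of_surjective
        ({ toFun := fun y => ⟨y.1.1, y.2⟩, map_add' := fun _ _ => rfl,
            map_smul' := fun _ _ => rfl } : P' →ₗ[ℂ] P.toStarSubalgebra)
        fun y => ⟨⟨⟨y.1, hPM y.2⟩, y.2⟩, rfl⟩))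
      ((hun ⟨u, hu⟩).mpr huu) (Real.sqrt_pos.mpr hε)
    refine ⟨v, v.2, (hun v).mp hv, fun N hPN hvN => htop N (h2 _ (hvn N) (fun z hz => hPN hz) hvN),
      (hn (v - ⟨u, hu⟩)).symm.trans_lt ?_⟩
    exact (Real.lt_sqrt (R95.n2_nonneg _)).mp h1

end Crest.Agent.S0126
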