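import Crest.Statements.S0137
import Crest.Agent.R104.Final

set_option autoImplicit false
open MeasureTheory Crest.AnalysisR
open Crest Crest.AnalysisR

namespace Crest.Agent.S0137

/-- Let β be a Salem number of degree four with 1 < β < 2: an algebraic integer whose minimal polynomial over ℚ has degree 4, has β⁻¹ as a root, and has its remaining complex roots on the unit circle. Then the unbiased Bernoulli convolution with parameter β⁻¹ — the distribution of ∑ₙ ±β⁻ⁿ with independent fair signs, built as the push-forward of the infinite product of fair coins — is singular with respect to Lebesgue measure on the line. -/
theorem result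
    (β : ℝ) (hβ : IsQuarticSalem β) (hβ₂ : β < 2) :
    (bernoulliConvolution β⁻¹).MutuallySingular (volume : Measure ℝ) := by
  exact Crest.Agent.R104.salem_singular hβ

end Crest.Agent.S0137
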