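import Crest.Statements.S0144
import Crest.Agent.R109.Final

set_option autoImplicit false
universe u
open Crest Crest.AnalysisR Crest.AnalysisR.OperatorAlgebra

namespace Crest.Agent.S0144

/-- For some constant C > 0 and every 0 < ε < 1, some natural number R ≤ C/ε⁶ has this property: for every von Neumann algebra M on a complex Hilbert space, every maximal abelian unital ⋆-subalgebra A of M, every self-adjoint x in M, every finite set F of vectors and δ > 0, there are a self-adjoint y in M with ‖y‖ ≤ 3‖x‖ and ‖(y − x)ξ‖ < δ for ξ in F, R pairwise orthogonal projections p_i in A with sum 1 (some may be 0), and a self-adjoint a in A with ‖a‖ ≤ ‖y‖ and ‖∑ p_i y p_i − a‖ ≤ ε‖y‖. -/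
theorem result :
    ∃ C : ℝ, 0 < C ∧ ∀ ε : ℝ, 0 < ε → ε < 1 → ∃ R : ℕ, (R : ℝ) ≤ C / ε ^ 6 ∧
      ∀ (H : Type u) [NormedAddCommGroup H] [InnerProductSpace ℂ H] [CompleteSpace H]
        (M : VonNeumannAlgebra H) (A : StarSubalgebra ℂ (H →L[ℂ] H)),
        A ≤ M.toStarSubalgebra → (∀ a ∈ A, ∀ b ∈ A, a * b = b * a) →
        (∀ y ∈ M, (∀ a ∈ A, a * y = y * a) → y ∈ A) →
        ∀ x ∈ M, IsSelfAdjoint x → ∀ (F : Finset H) (δ : ℝ), 0 < δ →
          ∃ y ∈ M, IsSelfAdjoint y ∧ ‖y‖ ≤ 3 * ‖x‖ ∧ (∀ ξ ∈ F, ‖(y - x) ξ‖ < δ) ∧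
            ∃ p : Fin R → (H →L[ℂ] H),
              (∀ i, p i ∈ A ∧ IsStarProjection (p i)) ∧ (∀ i j, i ≠ j → p i * p j = 0) ∧
              ∑ i, p i = 1 ∧
              ∃ a ∈ A, IsSelfAdjoint a ∧ ‖a‖ ≤ ‖y‖ ∧ ‖∑ i, p i * y * p i - a‖ ≤ ε * ‖y‖ := by
  refine ⟨25600000013, by norm_num, fun ε hε hε1 =>
    ⟨Nat.ceil (25600000000 / ε ^ 2) + Nat.ceil (10 / ε) + 1, ?_, ?_⟩⟩
  · have h1 := (Nat.ceil_lt_add_one (show (0 : ℝ) ≤ 25600000000 / ε ^ 2 by positivity)).le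
    have h2 := (Nat.ceil_lt_add_one (show (0 : ℝ) ≤ 10 / ε by positivity)).le
    have k : ∀ n : ℕ, n ≤ 6 → 1 / ε ^ n ≤ 1 / ε ^ 6 := fun n hn =>
      one_div_le_one_div_of_le (by positivity) (pow_le_pow_of_le_one hε.le hε1.le hn)
    have k0 := k 0 (by norm_num)
    have k1 := k 1 (by norm_num)
    have k2 := k 2 (by norm_num)
    simp only [pow_zero, pow_one, div_one] at k0 k1
    push_cast
    have e1 := div_eq_mul_one_div (25600000000 : ℝ) (ε ^ 2)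
    have e2 := div_eq_mul_one_div (10 : ℝ) ε
    have e3 := div_eq_mul_one_div (25600000013 : ℝ) (ε ^ 6)
    linarith
  · intro H _ _ _ M A hAM hA hAmax x hxM hx F δ hδ
    obtain ⟨X, _, _, _, _, S, rfl, hS⟩ := R109.bridge M A hAM hA hAmax
    obtain ⟨y, hy, hy', h1, h2, f, hf, a, ha, ha', h3⟩ := S.ap_final hε hε1 hxM hx F hδ
    exact ⟨y, hy, hy', h1, h2, fun i => S.pr (f ⁻¹' {i}),
      fun i => ⟨(hS _).mpr ⟨_, rfl⟩, S.pr_proj (hf.isClopen_fiber i)⟩,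
      fun i j h => by simpa [h] using S.pr_fibre_mul hf i j, S.sum_pr hf, S.ι a, (hS _).mpr ⟨_, rfl⟩,
      ha, ha', h3⟩

end Crest.Agent.S0144
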