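import Crest.Statements.S0150
import Crest.Agent.R113b.Fib

set_option autoImplicit false
open Crest.AnalysisR.TwoAdic MeasureTheory
attribute [local instance] Crest.AnalysisR.TwoAdic.borelTwoAdic Crest.AnalysisR.TwoAdic.borelSpace_twoAdic
open Crest Crest.AnalysisR Crest.AnalysisR.TwoAdic

namespace Crest.Agent.S0150

open Crest.Agent.R113b

/-- On L²(ℤ₂; ℓ²(ℤ)) (2-adic integers, Haar probability) measurable weights β_j > 0, b_j ∈ [0,1] give fibre shifts S_x δ_j = β_j(x) δ_{j+1} forming a bounded S and a contraction V commuting with S, acting along x ↦ x + 1 by V_x δ_j = b_j(x) δ_{j−1}, with: each S_x has exactly the tails, 0, ℓ²(ℤ) as closed invariant subspaces; ‖S‖ = e^{−10}, ‖Sⁿ‖ ≤ exp(−10⌊(n+1)²/4⌋); off a null set b_j > 0 and V_x maps each tail densely into the next lower one; S, V and bounded multipliers act transitively. -/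
theorem result :
    ∃ (β b : ℤ → ℤ_[2] → ℝ) (Sfib Vfib : ℤ_[2] → (seqHilbert →L[ℂ] seqHilbert))
      (S V : fibreSpace →L[ℂ] fibreSpace),
      (∀ j, Measurable (β j)) ∧ (∀ j x, 0 < β j x) ∧
      (∀ x j, Sfib x (basisVec j) = (β j x : ℂ) • basisVec (j + 1)) ∧
      (∀ f : fibreSpace, ∀ᵐ x ∂haarTwoAdic, (S f : ℤ_[2] → seqHilbert) x = Sfib x ((f : ℤ_[2] → seqHilbert) x)) ∧
      (∀ x, ∀ W : Submodule ℂ seqHilbert, IsClosed (W : Set seqHilbert) →
        ((∀ v ∈ W, Sfib x v ∈ W) ↔ (W = ⊥ ∨ W = ⊤ ∨ ∃ h : ℤ, W = tailSpace h))) ∧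
      S ≠ 0 ∧ ‖S‖ = Real.exp (-10) ∧
      (∀ n : ℕ, 1 ≤ n → ‖S ^ n‖ ≤ Real.exp (-10 * (((n + 1) ^ 2 / 4 : ℕ) : ℝ))) ∧
      ‖V‖ ≤ 1 ∧ V * S = S * V ∧
      (∀ j, Measurable (b j)) ∧ (∀ j x, 0 ≤ b j x ∧ b j x ≤ 1) ∧
      (∀ x j, Vfib x (basisVec j) = (b j x : ℂ) • basisVec (j - 1)) ∧
      (∀ f : fibreSpace, ∀ᵐ x ∂haarTwoAdic,
        (V f : ℤ_[2] → seqHilbert) (x + 1) = Vfib x ((f : ℤ_[2] → seqHilbert) x)) ∧
      (∃ N : Set ℤ_[2], haarTwoAdic N = 0 ∧ ∀ x, x ∉ N →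
        (∀ j, 0 < b j x) ∧
        (∀ h : ℤ, closure (Vfib x '' (tailSpace h : Set seqHilbert)) = (tailSpace (h - 1) : Set seqHilbert)) ∧
        closure (Set.range (Vfib x)) = Set.univ) ∧
      (∀ W : Submodule ℂ fibreSpace, IsClosed (W : Set fibreSpace) →
        (∀ f ∈ W, S f ∈ W) → (∀ f ∈ W, V f ∈ W) →
        (∀ g : ℤ_[2] → ℂ, Measurable g → (∃ C : ℝ, ∀ x, ‖g x‖ ≤ C) →
          ∀ f ∈ W, ∀ f' : fibreSpace,
            (∀ᵐ x ∂haarTwoAdic, (f' : ℤ_[2] → seqHilbert) x = g x • (f : ℤ_[2] → seqHilbert) x) → f' ∈ W) →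
        W = ⊥ ∨ W = ⊤) := by
  have hbe : ∀ x j, |be j x| ≤ Real.exp (-10) := fun x j => by
    rw [be, abs_of_pos (Real.exp_pos _), Real.exp_le_exp]
    have := (cost_ph x).window j 1
    norm_num at this
    linarith
  have hbb : ∀ x j, |bb j x| ≤ 1 := fun x j => by
    rw [abs_of_nonneg (bb_nonneg j x)]; exact bb_le_one j x
  choose Sf hSf using fun x => exists_isW (fun j => be j x) 1 (Real.exp_pos _).le (hbe x)
  choose Vf hVf using fun x => exists_isW (fun j => bb j x) (-1) zero_le_one (hbb x)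
  have hSn : ∀ x, ‖Sf x‖ ≤ Real.exp (-10) := fun x => (hSf x).norm_le (Real.exp_pos _).le (hbe x)
  have hVn : ∀ x, ‖Vf x‖ ≤ 1 := fun x => (hVf x).norm_le zero_le_one (hbb x)
  obtain ⟨S, hS⟩ := exists_isFib_of_isW hSf measurable_be hSn
  obtain ⟨V₀, hV₀⟩ := exists_isFib_of_isW hVf measurable_bb hVn
  obtain ⟨V, hVle, hV⟩ := exists_shift hV₀
  have hnorm : ‖S‖ = Real.exp (-10) := by
    refine le_antisymm (hS.norm_le (Real.exp_pos _).le hSn) ?_
    have h1 : S (Lp.const 2 haarTwoAdic (basisVec 0)) =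
        Lp.const 2 haarTwoAdic ((Real.exp (-10) : ℂ) • basisVec 1) := by
      refine Lp.ext ?_
      filter_upwards [hS (Lp.const 2 haarTwoAdic (basisVec 0)),
        Lp.coeFn_const 2 haarTwoAdic (basisVec 0),
        Lp.coeFn_const 2 haarTwoAdic ((Real.exp (-10) : ℂ) • basisVec 1)] with x h1 h2 h3
      rw [h1, h2, h3, Function.const_apply, Function.const_apply, (hSf x).basis, be_zero, zero_add]
    have h2 := S.le_opNorm (Lp.const 2 haarTwoAdic (basisVec 0))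
    rw [h1, Lp.norm_const _ _ _ (by norm_num), Lp.norm_const _ _ _ (by norm_num), norm_smul,
      norm_basisVec, norm_basisVec, Complex.norm_real, Real.norm_of_nonneg (Real.exp_pos _).le] at h2
    simpa using h2
  refine ⟨be, bb, Sf, Vf, S, V, measurable_be, fun j x => Real.exp_pos _, fun x j => (hSf x).basis j, hS,
    fun x => (cost_ph x).unicell (hSf x), ?_, hnorm, fun n _ => ?_,
    hVle.trans (hV₀.norm_le zero_le_one hVn), ?_, measurable_bb,
    fun j x => ⟨bb_nonneg j x, bb_le_one j x⟩, fun x j => (hVf x).basis j, hV,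
    ⟨{-1}, haar_singleton _, fun x hx => ⟨bb_pos hx, (hVf x).closure_tail (bb_pos hx),
      (hVf x).closure_range (bb_pos hx)⟩⟩, fun W => transitive hSf hS hVf hV⟩
  · rintro rfl
    rw [norm_zero] at hnorm
    exact (Real.exp_pos _).ne hnorm
  · refine (hS.pow n).norm_le (Real.exp_pos _).le fun x =>
      (IsW.pow (φ := ph x) (hSf x) n).norm_le (Real.exp_pos _).le fun j => ?_
    rw [abs_of_pos (Real.exp_pos _), Real.exp_le_exp]
    linarith [(cost_ph x).window j n]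
  · refine ContinuousLinearMap.ext fun f => Lp.ext (ae_of_add 1 ?_)
    filter_upwards [hV (S f), hS f, ae_add 1 (hS (V f)), hV f] with x h1 h2 h3 h4
    have h5 : Vf x * Sf x = Sf (x + 1) * Vf x := by
      refine ((hVf x).mul (hSf x)).unique ?_
      simpa only [bb_be, add_comm (1 : ℤ) (-1)] using (hSf (x + 1)).mul (hVf x)
    rw [mul_apply_eq_comp, mul_apply_eq_comp, h1, h2, h3, h4, ← mul_apply_eq_comp, h5,
      mul_apply_eq_comp]

end Crest.Agent.S0150
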