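import Crest.Statements.S0148
import Crest.Agent.S0150
import Crest.Agent.R113b.Iso

set_option autoImplicit false
open Filter Topology
open Crest Crest.AnalysisR Crest.AnalysisR.OperatorAlgebra

namespace Crest.Agent.S0148

open Crest.Agent.R113b Crest.AnalysisR.TwoAdic MeasureTheory

/-- On every infinite-dimensional separable complex Hilbert space there is a nonzero bounded operator T with ‖Tⁿ‖^(1/n) → 0 as n → ∞ such that the only closed subspaces mapped into themselves by every bounded operator commuting with T are the zero subspace and the whole space. -/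
theorem result
    (H : Type*) [NormedAddCommGroup H] [InnerProductSpace ℂ H] [CompleteSpace H]
    [TopologicalSpace.SeparableSpace H] (hH : ¬ FiniteDimensional ℂ H) :
    ∃ T : H →L[ℂ] H, T ≠ 0 ∧
      Tendsto (fun n : ℕ => ‖T ^ n‖ ^ (1 / (n : ℝ))) atTop (𝓝 0) ∧
      ∀ V : Submodule ℂ H, IsClosed (V : Set H) →
        (∀ A : H →L[ℂ] H, A * T = T * A → ∀ v ∈ V, A v ∈ V) → V = ⊥ ∨ V = ⊤ := by
  obtain ⟨e⟩ := exists_iso H hH
  obtain ⟨β, b, Sf, Vf, S, V, -, -, -, hS, -, hS0, -, hSn, -, hVS, -, -, -, -, -, htr⟩ :=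
    Crest.Agent.S0150.result
  let Φ := e.symm.conjStarAlgEquiv
  have hΦ : ∀ (A : fibreSpace →L[ℂ] fibreSpace) (v : H), Φ A v = e.symm (A (e v)) := fun A v => by
    simp [Φ]
  refine ⟨Φ S, by simpa using hS0, tendsto_root (fun n => norm_nonneg _) fun n hn => ?_,
    fun W hW hA => ?_⟩
  · refine le_trans (ContinuousLinearMap.opNorm_le_bound _ (norm_nonneg _) fun v => ?_) (hSn n hn)
    rw [← map_pow, hΦ, LinearIsometryEquiv.norm_map, ← e.norm_map v]
    exact (S ^ n).le_opNorm _
  let W' : Submodule ℂ fibreSpace := W.comap (e.symm.toLinearEquiv : fibreSpace →ₗ[ℂ] H)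
  have hW' : ∀ f, f ∈ W' ↔ e.symm f ∈ W := fun f => Iff.rfl
  have key : ∀ A : fibreSpace →L[ℂ] fibreSpace, A * S = S * A → ∀ f ∈ W', A f ∈ W' := by
    intro A h f hf
    have := hA (Φ A) (by rw [← map_mul, h, map_mul]) _ ((hW' f).1 hf)
    rwa [hΦ, e.apply_symm_apply] at this
  have h := htr W' (hW.preimage e.symm.continuous) (key S rfl) (key V hVS) ?_
  · refine h.imp (fun h => (Submodule.eq_bot_iff _).2 fun v hv => ?_)
      fun h => eq_top_iff.2 fun v _ => ?_
    · have : e v ∈ W' := by rwa [hW', e.symm_apply_apply]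
      rw [h, Submodule.mem_bot] at this
      exact e.injective (this.trans (map_zero e).symm)
    · have : e v ∈ W' := h ▸ Submodule.mem_top
      rwa [hW', e.symm_apply_apply] at this
  · rintro g hg ⟨C, hC⟩ f hf f' hf'
    obtain ⟨T, hT⟩ := exists_mul hg hC
    have h1 : f' = T f := Lp.ext (by
      filter_upwards [hf', hT f] with x h1 h2
      rw [h1, h2]; rfl)
    rw [h1]
    refine key T (ContinuousLinearMap.ext fun u => Lp.ext ?_) f hf
    filter_upwards [hT (S u), hS u, hS (T u), hT u] with x h1 h2 h3 h4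
    rw [mul_apply_eq_comp, mul_apply_eq_comp, h1, h2, h3, h4]
    simp

end Crest.Agent.S0148
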