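import Crest.Statements.S0151
import Crest.Agent.R113.DetShift

set_option autoImplicit false
open Crest.AnalysisR.ProductShift MeasureTheory
open Crest Crest.AnalysisR Crest.AnalysisR.ProductShift

namespace Crest.Agent.S0151

/-- For angles θ_i in (0,1) and costs c_i ≥ 0 (i ∈ ℕ) let f(x) = exp(−Σ_i c_i ⌊x_i + θ_i⌋) for x in [0,1)^ℕ with product Lebesgue measure, and suppose f > 0 almost everywhere and ∫ (−log f) = ∞. If T is the bounded operator on L²([0,1)^ℕ × ℤ) with (T g)(x, k) = f(σ^(k−1) x) g(x, k−1), σ the coordinatewise rotation by θ, then for every complex z the determinant of T − z relative to the unit vector supported on k = 0 is ‖z‖: the Brown measure of T for that tracial vector is the point mass at 0. -/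
theorem result
    (θ c : ℕ → ℝ) (hθ : ∀ i, 0 < θ i ∧ θ i < 1) (hc : ∀ i, 0 ≤ c i)
    (hpos : ∀ᵐ x ∂cubeMeasure, 0 < weight θ c x)
    (hlog : ∫⁻ x, ENNReal.ofReal (- Real.log (weight θ c x)) ∂cubeMeasure = ⊤)
    (T : pairSpace →L[ℂ] pairSpace) (hT : IsWeightedShift θ c T) (z : ℂ) :
    vectorDet vacuumVector (T - z • (1 : pairSpace →L[ℂ] pairSpace)) = ‖z‖ := by
  have h1 : T - z • (1 : pairSpace →L[ℂ] pairSpace) =
      (R113.UN (R113.cubeAct θ) 1 * R113.LR (R113.cubeAct θ) (weight θ c) - z • 1).1 := by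
    rw [R113.eq_shift hT]; rfl
  rw [h1, R113.vectorDet_eq]
  exact R113.det_shift _ (R113.measurable_weight θ c) hpos (fun x => abs_le.2
    ⟨by linarith [(R113.weight_mem θ c x).1], (R113.weight_mem θ c x).2⟩) hlog
    (R113.qn_shift hθ hc hlog) z

end Crest.Agent.S0151
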