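import Crest.Statements.S0152
import Crest.Agent.R114.Fin2

set_option autoImplicit false
open Crest Crest.AnalysisR

namespace Crest.Agent.S0152

/-- Assume the continuum hypothesis, in the form: the cardinality of the real line equals ℵ₁. Then, over the real or the complex field, there is an infinite-dimensional Banach space all of whose separable quotients by closed linear subspaces are finite-dimensional; that is, a Banach space with no separable infinite-dimensional quotient. -/
theorem result
    (𝕜 : Type) [RCLike 𝕜] (hCH : Cardinal.mk ℝ = Cardinal.aleph 1) :
    ∃ (X : Type) (_ : NormedAddCommGroup X) (_ : NormedSpace 𝕜 X),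
      CompleteSpace X ∧ ¬ FiniteDimensional 𝕜 X ∧
      ∀ M : Submodule 𝕜 X, IsClosed (M : Set X) →
        TopologicalSpace.SeparableSpace (X ⧸ M) → FiniteDimensional 𝕜 (X ⧸ M) := by
  exact Crest.Agent.R114.exists_example 𝕜 hCH

end Crest.Agent.S0152
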