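import Crest.Statements.S0166
import Crest.Agent.R125.Height
import Crest.Agent.R125.Bundled

set_option autoImplicit false
open Crest Crest.AnalysisR

namespace Crest.Agent.S0166

/-- There is a real Banach space (RealBanach record) that is separable, infinite-dimensional and reflexive, whose given norm has at every t > 0 averaged midpoint asymptotic modulus at least √(1 + t²/12) - 1 and at least (√(1 + t²/4) - 1)/2 and maximum-based midpoint modulus at least √(1 + t²/4) - 1, on which no equivalent norm is asymptotically uniformly convex, and in which for every k every map of the depth-k countably branching diamond graph of distortion at most D has 1 + k/4 ≤ D². -/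
theorem result :
    ∃ E : Crest.AnalysisR.RealBanach, E.IsSeparableInfiniteDim ∧ E.IsReflexive ∧
      (∀ t : ℝ, 0 < t → E.MidpointModulusGE E.norm t (Real.sqrt (1 + t ^ 2 / 12) - 1) ∧
        E.MidpointModulusGE E.norm t ((Real.sqrt (1 + t ^ 2 / 4) - 1) / 2) ∧
        E.MaxMidpointModulusGE E.norm t (Real.sqrt (1 + t ^ 2 / 4) - 1)) ∧
      (∀ N : E.X → ℝ, E.IsEquivNorm N → ¬ E.IsAUC N) ∧
      ∀ (k : ℕ) (f : Crest.AnalysisR.DiamondVertex k → E.X) (D : ℝ),
        E.HasDistortionLE k f D → 1 + (k : ℝ) / 4 ≤ D ^ 2 := by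
  refine ⟨⟨Crest.Agent.R125.XX, inferInstance, inferInstance, inferInstance⟩,
    ⟨Crest.Agent.R125.XX_separable, Crest.Agent.R125.not_finiteDimensional_of_not_auc
      (X := Crest.Agent.R125.XX)
      (Crest.Agent.R125.XX_not_auc _ Crest.Agent.R125.eqNorm_norm)⟩,
    Crest.Agent.R125.XX_refl.surjective, fun t ht => ⟨?_, ?_, ?_⟩,
    fun N hN hA => Crest.Agent.R125.XX_not_auc N hN (Crest.Agent.R125.auc_of_isAUC hA), ?_⟩
  · refine Crest.Agent.R125.midpointGE_of (X := Crest.Agent.R125.XX) fun x hx η hη => ?_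
    obtain ⟨F, hF, h⟩ := Crest.Agent.R125.XX_qp.moduli ht x hx hη
    exact ⟨F, hF, fun y hy hy1 => by linarith [(h y hy hy1).2.2]⟩
  · refine Crest.Agent.R125.midpointGE_of (X := Crest.Agent.R125.XX) fun x hx η hη => ?_
    obtain ⟨F, hF, h⟩ := Crest.Agent.R125.XX_qp.moduli ht x hx hη
    exact ⟨F, hF, fun y hy hy1 => by linarith [(h y hy hy1).2.1]⟩
  · refine Crest.Agent.R125.maxMidpointGE_of (X := Crest.Agent.R125.XX) fun x hx η hη => ?_
    obtain ⟨F, hF, h⟩ := Crest.Agent.R125.XX_qp.moduli ht x hx hη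
    exact ⟨F, hF, fun y hy hy1 => by linarith [(h y hy hy1).1]⟩
  · rintro k f D ⟨s, hs, h⟩
    exact Crest.Agent.R125.XX_qp.diamond k f D s hs h

end Crest.Agent.S0166
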