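import Crest.Statements.S0167
import Crest.Agent.R125.Daugavet
import Crest.Agent.R125.L1Lower
import Crest.Agent.R125.Bundled

set_option autoImplicit false
open Crest Crest.AnalysisR

namespace Crest.Agent.S0167

/-- Let E be an infinite-dimensional closed subspace of the real L¹ of a probability space whose closed unit ball is totally bounded for convergence in measure and whose norm has the Daugavet property. Then at every unit x ∈ E and every t > 0 the averaged midpoint quantity sup_F inf_y ((‖x+ty‖+‖x-ty‖)/2 - 1) equals max(t/2, t-1) and the one-sided one sup_F inf_y (‖x+ty‖ - 1) equals max(0, t-2), as matching lower and upper bounds, and E admits no equivalent asymptotically uniformly convex norm. -/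
theorem result (Ω : Type) [MeasurableSpace Ω] (P : MeasureTheory.Measure Ω) [MeasureTheory.IsProbabilityMeasure P]
    (E : Submodule ℝ (MeasureTheory.Lp ℝ 1 P)) (hcl : IsClosed (E : Set (MeasureTheory.Lp ℝ 1 P)))
    (hinf : ¬ FiniteDimensional ℝ E)
    (htb : Crest.AnalysisR.L1Subspace.UnitBallTotallyBoundedInMeasure P E)
    (hD : Crest.AnalysisR.L1Subspace.HasDaugavetProperty E) :
    (∀ t : ℝ, 0 < t →
      (Crest.AnalysisR.L1Subspace.toRealBanach P E hcl).MidpointModulusGE
          (Crest.AnalysisR.L1Subspace.toRealBanach P E hcl).norm t (max (t / 2) (t - 1)) ∧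
        (Crest.AnalysisR.L1Subspace.toRealBanach P E hcl).MidpointModulusLE
          (Crest.AnalysisR.L1Subspace.toRealBanach P E hcl).norm t (max (t / 2) (t - 1)) ∧
        (Crest.AnalysisR.L1Subspace.toRealBanach P E hcl).OneSidedModulusGE
          (Crest.AnalysisR.L1Subspace.toRealBanach P E hcl).norm t (max 0 (t - 2)) ∧
        (Crest.AnalysisR.L1Subspace.toRealBanach P E hcl).OneSidedModulusLE
          (Crest.AnalysisR.L1Subspace.toRealBanach P E hcl).norm t (max 0 (t - 2))) ∧
      ∀ N : E → ℝ, (Crest.AnalysisR.L1Subspace.toRealBanach P E hcl).IsEquivNorm N →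
        ¬ (Crest.AnalysisR.L1Subspace.toRealBanach P E hcl).IsAUC N := by
  have hnt : Nontrivial E := by
    by_contra h
    rw [not_nontrivial_iff_subsingleton] at h
    exact hinf inferInstance
  refine ⟨fun t ht => ⟨?_, ?_, ?_, ?_⟩, fun N hN hA =>
    Crest.Agent.R125.daug_not_auc hD N hN (Crest.Agent.R125.auc_of_isAUC hA)⟩
  · refine Crest.Agent.R125.midpointGE_of (X := E) fun x hx η hη => ?_
    obtain ⟨F, hF, h⟩ := Crest.Agent.R125.l1_lower E htb ht x hx hη
    refine ⟨F, hF, fun y hy hy1 => ?_⟩
    have h1 := h y hy hy1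
    have h2 := norm_sub_le (x + t • y) (x - t • y)
    rw [show x + t • y - (x - t • y) = (2 * t) • y by rw [mul_smul, two_smul]; abel, norm_smul,
      hy1, Real.norm_eq_abs, abs_of_pos (by positivity)] at h2
    rcases le_total (t / 2) (t - 1) with h3 | h3
    · rw [max_eq_right h3]; linarith
    · rw [max_eq_left h3]; linarith
  · refine Crest.Agent.R125.midpointLE_of (X := E) fun x hx F hF η hη => ?_
    obtain ⟨y, hy, hy1, h⟩ := Crest.Agent.R125.daug_upper hD ht x hx hF hη
    refine ⟨y, hy, hy1, ?_⟩
    have h2 := norm_sub_le x (t • y)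
    rw [norm_smul, hx, hy1, Real.norm_eq_abs, abs_of_pos ht] at h2
    have h3 := le_max_left (t / 2) (t - 1)
    have h4 := le_max_right (t / 2) (t - 1)
    rcases le_total 0 (t - 2) with h5 | h5
    · rw [max_eq_right h5] at h; linarith
    · rw [max_eq_left h5] at h; linarith
  · refine Crest.Agent.R125.oneSidedGE_of (X := E) fun x hx η hη => ?_
    obtain ⟨φ, hφ, hφx⟩ := exists_dual_vector'' ℝ x
    refine ⟨_, Crest.Agent.R125.cof_ker φ, fun y hy hy1 => ?_⟩
    have h1 : φ y = 0 := hy
    have h2 := (le_abs_self _).trans (φ.le_opNorm (x + t • y))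
    rw [map_add, map_smul, h1, hφx, hx] at h2
    have h3 : 1 ≤ ‖x + t • y‖ := by
      have := mul_le_of_le_one_left (norm_nonneg (x + t • y)) hφ
      simp only [smul_eq_mul, mul_zero, add_zero, RCLike.ofReal_real_eq_id, id] at h2
      linarith
    have h4 := norm_sub_le (x + t • y) x
    rw [add_sub_cancel_left, norm_smul, hx, hy1, Real.norm_eq_abs, abs_of_pos ht] at h4
    rcases le_total 0 (t - 2) with h5 | h5
    · rw [max_eq_right h5]; linarith
    · rw [max_eq_left h5]; linarith
  · exact Crest.Agent.R125.oneSidedLE_of (X := E) fun x hx F hF η hη =>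
      Crest.Agent.R125.daug_upper hD ht x hx hF hη

end Crest.Agent.S0167
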