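import Crest.Statements.S0175
import Crest.Agent.R130.Monge
import Crest.Agent.R130.Blobs

set_option autoImplicit false
open MeasureTheory
open scoped ENNReal ContDiff
open Crest.AnalysisR.OT
open Crest Crest.AnalysisR Crest.AnalysisR.OT

namespace Crest.Agent.S0175

/-- For every d ≥ 2 and s > 0 there is a smooth, compactly supported, nonnegative ρ on ℝᵈ with integral 1 and smooth square root such that, for μ = ρ dx and the cost summing ‖xᵢ - xⱼ‖^(-s) over the three pairs of a triple: some coupling with all three marginals μ has finite cost, minimal among all such couplings; every pair of Borel maps T₂, T₃ pushing μ to itself gives the plan x ↦ (x, T₂ x, T₃ x) strictly larger cost; and such pairs have costs arbitrarily close to that minimum. -/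
theorem result
    (d : ℕ) (hd : 2 ≤ d) (s : ℝ) (hs : 0 < s) :
    ∃ ρ : EuclideanSpace ℝ (Fin d) → ℝ, (∀ x, 0 ≤ ρ x) ∧ ContDiff ℝ ∞ ρ ∧ HasCompactSupport ρ ∧
      ContDiff ℝ ∞ (fun x => Real.sqrt (ρ x)) ∧ ∫ x, ρ x = 1 ∧
      ∃ π₀ : Measure (EuclideanSpace ℝ (Fin d) × EuclideanSpace ℝ (Fin d) × EuclideanSpace ℝ (Fin d)),
        IsCoupling₃ (measOfDensity ρ) π₀ ∧ ∫⁻ p, tripleCost s p ∂π₀ < ⊤ ∧
        (∀ π : Measure (EuclideanSpace ℝ (Fin d) × EuclideanSpace ℝ (Fin d) × EuclideanSpace ℝ (Fin d)), IsCoupling₃ (measOfDensity ρ) π →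
          ∫⁻ p, tripleCost s p ∂π₀ ≤ ∫⁻ p, tripleCost s p ∂π) ∧
        (∀ T₂ T₃ : EuclideanSpace ℝ (Fin d) → EuclideanSpace ℝ (Fin d), Measurable T₂ → Measurable T₃ →
          (measOfDensity ρ).map T₂ = measOfDensity ρ → (measOfDensity ρ).map T₃ = measOfDensity ρ →
          ∫⁻ p, tripleCost s p ∂π₀ < ∫⁻ x, tripleCost s (x, T₂ x, T₃ x) ∂(measOfDensity ρ)) ∧
        (∀ ε : ℝ≥0∞, 0 < ε → ∃ T₂ T₃ : EuclideanSpace ℝ (Fin d) → EuclideanSpace ℝ (Fin d), Measurable T₂ ∧ Measurable T₃ ∧
          (measOfDensity ρ).map T₂ = measOfDensity ρ ∧ (measOfDensity ρ).map T₃ = measOfDensity ρ ∧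
          ∫⁻ x, tripleCost s (x, T₂ x, T₃ x) ∂(measOfDensity ρ) < ∫⁻ p, tripleCost s p ∂π₀ + ε) := by
  classical
  open Crest.Agent.R130 Set Metric in
  let b1 : EuclideanSpace ℝ (Fin d) := EuclideanSpace.single ⟨0, by omega⟩ 1
  let b2 : EuclideanSpace ℝ (Fin d) := EuclideanSpace.single ⟨1, by omega⟩ 1
  obtain ⟨e, w, r, hr, hsrc, he, he', he0, hw, hdisj, hineq, hdiag⟩ :=
    Crest.Agent.R130.exists_blobs hs b1 b2 (by simp [b1]) (by simp [b2])
      (by simp [b1, b2, EuclideanSpace.inner_single_left])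
  set A : Set (EuclideanSpace ℝ (Fin d)) := Metric.closedBall 0 r with hA
  have hAc : IsCompact A := isCompact_closedBall _ _
  have hAm : MeasurableSet A := hAc.measurableSet
  -- the bump
  let bump : ContDiffBump (0 : EuclideanSpace ℝ (Fin d)) := ⟨r / 2, r, by linarith, by linarith⟩
  have hb0 : ∀ x, x ∉ A → bump x = 0 := fun x hx => by
    have : x ∉ Function.support bump := by
      rw [bump.support_eq]
      exact fun h => hx (Metric.ball_subset_closedBall h)
    exact Function.notMem_support.1 this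
  have hbc : Continuous fun x => bump x ^ 2 := bump.continuous.pow 2
  have hbs : HasCompactSupport fun x => bump x ^ 2 :=
    HasCompactSupport.intro hAc fun x hx => by simp [hb0 x hx]
  have hI : 0 < ∫ x, bump x ^ 2 :=
    hbc.integral_pos_of_hasCompactSupport_nonneg_nonzero hbs (fun x => sq_nonneg _) (x := 0)
      (by rw [bump.one_of_mem_closedBall (Metric.mem_closedBall_self bump.rIn_pos.le)]; norm_num)
  set I := ∫ x, bump x ^ 2 with hIdef
  let h : EuclideanSpace ℝ (Fin d) → ℝ := fun x => Real.sqrt (1 / (6 * I)) * bump x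
  have hh : ContDiff ℝ ∞ h := contDiff_const.mul bump.contDiff
  have hh0 : ∀ x, 0 ≤ h x := fun x => mul_nonneg (Real.sqrt_nonneg _) bump.nonneg
  have hhA : ∀ x, x ∉ A → h x = 0 := fun x hx => by simp [h, hb0 x hx]
  have hh2 : ∀ x, h x ^ 2 = 1 / (6 * I) * bump x ^ 2 := fun x => by
    simp only [h]
    rw [mul_pow, Real.sq_sqrt (by positivity)]
  let α : Measure (EuclideanSpace ℝ (Fin d)) :=
    volume.withDensity fun x => ENNReal.ofReal (h x ^ 2)
  have hαu : α Set.univ = ENNReal.ofReal (1 / 6) := by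
    rw [withDensity_apply _ MeasurableSet.univ, Measure.restrict_univ,
      ← ofReal_integral_eq_lintegral_ofReal]
    · simp_rw [hh2]
      rw [integral_const_mul, ← hIdef]
      congr 1
      field_simp
    · simp_rw [hh2]
      exact (hbc.integrable_of_hasCompactSupport hbs).const_mul _
    · exact Filter.Eventually.of_forall fun x => sq_nonneg _
  have hαA : ∀ᵐ a ∂α, a ∈ A := by
    rw [ae_iff]
    change α Aᶜ = 0
    rw [withDensity_apply _ hAm.compl, setLIntegral_congr_fun hAm.compl (g := fun _ => 0)]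
    · simp
    · intro x hx
      simp [hhA x hx]
  -- measurable versions of the maps
  let f : Fin 5 → EuclideanSpace ℝ (Fin d) → EuclideanSpace ℝ (Fin d) :=
    fun i => A.piecewise (e i) (fun _ => 0)
  have hec : ∀ i, ContinuousOn (e i) A := fun i => (e i).continuousOn.mono (hsrc i)
  have hf : ∀ i, Measurable (f i) := fun i =>
    (hec i).measurable_piecewise continuousOn_const hAm
  have hfe : ∀ i, Set.EqOn (f i) (e i) A := fun i x hx => Set.piecewise_eq_of_mem _ _ _ hx
  have hg := fun i => Crest.Agent.R130.exists_push_density volume (e i) (he i) (he' i) A hAc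
    (hsrc i) h hh hh0 hhA (f i) (hf i) (hfe i)
  choose g hgs hg0 hgz hgm using hg
  have hSc : ∀ i, IsCompact (e i '' A) := fun i => hAc.image_of_continuousOn (hec i)
  have hgg : ∀ i j, i ≠ j → ∀ x, g i x * g j x = 0 := by
    intro i j hij x
    by_cases hx : x ∈ e i '' A
    · obtain ⟨a, ha, rfl⟩ := hx
      rw [hgz j _ (by rintro ⟨a', ha', h'⟩; exact hdisj i j hij a ha a' ha' h'.symm), mul_zero]
    · rw [hgz i x hx, zero_mul]
  let G : EuclideanSpace ℝ (Fin d) → ℝ := fun x =>
    Real.sqrt 2 * g 0 x + g 1 x + g 2 x + g 3 x + g 4 x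
  have hG0 : ∀ x, 0 ≤ G x := fun x => by
    have := hg0 0 x; have := hg0 1 x; have := hg0 2 x; have := hg0 3 x; have := hg0 4 x
    positivity
  have hGs : ContDiff ℝ ∞ G :=
    ((((contDiff_const.mul (hgs 0)).add (hgs 1)).add (hgs 2)).add (hgs 3)).add (hgs 4)
  have hG2 : ∀ x, G x ^ 2 =
      g 0 x ^ 2 + g 0 x ^ 2 + g 1 x ^ 2 + g 2 x ^ 2 + g 3 x ^ 2 + g 4 x ^ 2 := fun x => by
    have h2 : Real.sqrt 2 ^ 2 = 2 := Real.sq_sqrt (by norm_num)
    simp only [G]
    linear_combination (g 0 x ^ 2) * h2 + 2 * Real.sqrt 2 * (hgg 0 1 (by decide) x +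
      hgg 0 2 (by decide) x + hgg 0 3 (by decide) x + hgg 0 4 (by decide) x) +
      2 * (hgg 1 2 (by decide) x + hgg 1 3 (by decide) x + hgg 1 4 (by decide) x +
      hgg 2 3 (by decide) x + hgg 2 4 (by decide) x + hgg 3 4 (by decide) x)
  have hμ : measOfDensity (fun x => G x ^ 2) = Crest.Agent.R130.bigMu α f := by
    have hm : ∀ i, Measurable fun x => ENNReal.ofReal (g i x ^ 2) := fun i =>
      ((hgs i).continuous.pow 2).measurable.ennreal_ofReal
    unfold measOfDensity Crest.Agent.R130.bigMu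
    simp only [α, hgm]
    rw [← withDensity_add_right _ (hm 0), ← withDensity_add_right _ (hm 1),
      ← withDensity_add_right _ (hm 2), ← withDensity_add_right _ (hm 3),
      ← withDensity_add_right _ (hm 4)]
    congr 1
    funext x
    simp only [Pi.add_apply]
    rw [hG2, ENNReal.ofReal_add (by positivity) (by positivity),
      ENNReal.ofReal_add (by positivity) (by positivity),
      ENNReal.ofReal_add (by positivity) (by positivity),
      ENNReal.ofReal_add (by positivity) (by positivity),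
      ENNReal.ofReal_add (by positivity) (by positivity)]
  have hμu : Crest.Agent.R130.bigMu α f Set.univ = 1 := by
    simp only [Crest.Agent.R130.bigMu, Measure.add_apply,
      Measure.map_apply (hf _) MeasurableSet.univ, Set.preimage_univ, hαu]
    rw [← ENNReal.ofReal_add (by norm_num) (by norm_num),
      ← ENNReal.ofReal_add (by norm_num) (by norm_num),
      ← ENNReal.ofReal_add (by norm_num) (by norm_num),
      ← ENNReal.ofReal_add (by norm_num) (by norm_num),
      ← ENNReal.ofReal_add (by norm_num) (by norm_num)]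
    norm_num
  -- the potential
  let U : EuclideanSpace ℝ (Fin d) → ℝ≥0∞ := fun x =>
    ∑ i, (e i '' A).piecewise (fun y => ENNReal.ofReal (w i ((e i).symm y))) (fun _ => 0) x
  have hUm : Measurable U := by
    refine Finset.measurable_sum _ fun i _ => ?_
    refine ContinuousOn.measurable_piecewise ?_ continuousOn_const (hSc i).measurableSet
    refine ENNReal.continuous_ofReal.comp_continuousOn ((hw i).comp
      ((e i).continuousOn_symm.mono ?_) ?_)
    · rintro _ ⟨a, ha, rfl⟩; exact (e i).map_source (hsrc i ha)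
    · rintro _ ⟨a, ha, rfl⟩; rw [(e i).left_inv (hsrc i ha)]; exact ha
  have hUe : ∀ i, ∀ a ∈ A, U (f i a) = ENNReal.ofReal (w i a) := by
    intro i a ha
    rw [hfe i ha]
    simp only [U]
    rw [Finset.sum_eq_single i]
    · rw [Set.piecewise_eq_of_mem _ _ _ (Set.mem_image_of_mem _ ha), (e i).left_inv (hsrc i ha)]
    · intro j _ hji
      rw [Set.piecewise_eq_of_notMem]
      rintro ⟨a', ha', h'⟩
      exact hdisj j i hji a' ha' a ha h'
    · simp
  have hUfin : ∫⁻ x, U x ∂(Crest.Agent.R130.bigMu α f) ≠ ⊤ := by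
    have hi : ∀ i, ∫⁻ x, U x ∂(α.map (f i)) ≠ ⊤ := by
      intro i
      obtain ⟨M, hM⟩ := hAc.exists_bound_of_continuousOn (hw i)
      rw [lintegral_map hUm (hf i)]
      refine ne_top_of_le_ne_top (b := ∫⁻ _, ENNReal.ofReal M ∂α) ?_ (lintegral_mono_ae ?_)
      · rw [lintegral_const, hαu]
        exact ENNReal.mul_ne_top ENNReal.ofReal_ne_top ENNReal.ofReal_ne_top
      · filter_upwards [hαA] with a ha
        rw [hUe i a ha]
        exact ENNReal.ofReal_le_ofReal ((le_abs_self _).trans (hM a ha))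
    simp only [Crest.Agent.R130.bigMu, lintegral_add_measure, ne_eq, ENNReal.add_eq_top, not_or]
    exact ⟨⟨⟨⟨⟨hi 0, hi 0⟩, hi 1⟩, hi 2⟩, hi 3⟩, hi 4⟩
  let S : Crest.Agent.R130.Setup (EuclideanSpace ℝ (Fin d)) :=
    { A := A, f := f, α := α, c := tripleCost s, U := U, hA := hAm, hf := hf
      hmem := by
        intro i j a ha a' ha' hh'
        rw [hfe i ha, hfe j ha'] at hh'
        by_cases hij : i = j
        · subst hij
          exact ⟨rfl, (e i).injOn (hsrc i ha) (hsrc i ha') hh'⟩
        · exact absurd hh' (hdisj i j hij a ha a' ha')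
      hf0 := fun a ha => by rw [hfe 0 ha, he0]
      himg := fun i D hD hDA => by
        rw [Set.image_congr (fun x hx => hfe i (hDA hx))]
        exact hD.image_of_continuousOn_injOn ((hec i).mono hDA)
          ((e i).injOn.mono (hDA.trans (hsrc i)))
      hαA := hαA
      hαfin := by rw [hαu]; exact ENNReal.ofReal_ne_top
      hα0 := by rw [hαu]; simp
      hc := (Crest.Agent.R130.continuous_tripleCost s).measurable
      hU := hUm
      hUfin := hUfin
      hle := fun i j k a ha a' ha' a'' ha'' => by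
        rw [hUe i a ha, hUe j a' ha', hUe k a'' ha'', hfe i ha, hfe j ha', hfe k ha'']
        exact (hineq i j k a ha a' ha' a'' ha'').1
      heq := fun i j k a ha a' ha' a'' ha'' => by
        rw [hUe i a ha, hUe j a' ha', hUe k a'' ha'', hfe i ha, hfe j ha', hfe k ha'']
        exact (hineq i j k a ha a' ha' a'' ha'').2
      hdiag := fun i j k hg a ha => by
        rw [hUe i a ha, hUe j a ha, hUe k a ha, hfe i ha, hfe j ha, hfe k ha]
        exact hdiag i j k hg a ha }
  have hcost : ∫⁻ p, tripleCost s p ∂(Crest.Agent.R130.bigPi α f) ≠ ⊤ := by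
    have := S.cost_bigPi
    change ∫⁻ p, tripleCost s p ∂(Crest.Agent.R130.bigPi α f) = _ at this
    rw [this]
    exact ENNReal.add_ne_top.2 ⟨ENNReal.add_ne_top.2 ⟨hUfin, hUfin⟩, hUfin⟩
  have hmarg := Crest.Agent.R130.bigPi_marginals (α := α) hf
  refine ⟨fun x => G x ^ 2, fun x => sq_nonneg _, hGs.pow 2, ?_, ?_, ?_,
    Crest.Agent.R130.bigPi α f, ?_, lt_top_iff_ne_top.2 hcost, ?_, ?_, ?_⟩
  · refine HasCompactSupport.intro (isCompact_iUnion hSc) fun x hx => ?_
    simp only [Set.mem_iUnion, not_exists] at hx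
    simp [G, hgz _ x (hx _)]
  · have : (fun x => Real.sqrt (G x ^ 2)) = G := funext fun x => Real.sqrt_sq (hG0 x)
    rw [this]
    exact hGs
  · rw [integral_eq_lintegral_of_nonneg_ae (Filter.Eventually.of_forall fun x => sq_nonneg _)
      (hGs.continuous.pow 2).aestronglyMeasurable]
    have := hμu
    rw [← hμ, measOfDensity, withDensity_apply _ MeasurableSet.univ,
      Measure.restrict_univ] at this
    rw [this]
    rfl
  · rw [hμ]; exact hmarg
  · rw [hμ]
    intro π hπ
    have h1 := S.cost_bigPi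
    have h2 := S.lower_bound hπ.1 hπ.2.1 hπ.2.2
    rw [← h1] at h2
    exact h2
  · rw [hμ]
    exact S.no_monge
  · intro ε hε
    have hns : NullSingletonClass (measOfDensity fun x => G x ^ 2) := by
      have : Nontrivial (EuclideanSpace ℝ (Fin d)) := by
        refine ⟨b1, 0, fun h0 => ?_⟩
        have := congrArg norm h0
        simp [b1] at this
      unfold measOfDensity
      infer_instance
    rw [hμ] at hns ⊢
    have : IsProbabilityMeasure (Crest.Agent.R130.bigMu α f) := ⟨hμu⟩
    let Gs : Set (EuclideanSpace ℝ (Fin d) × EuclideanSpace ℝ (Fin d) ×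
        EuclideanSpace ℝ (Fin d)) :=
      ⋃ i, ⋃ j, ⋃ k, ⋃ (_ : Crest.Agent.R130.good i j k), (fun a => (e i a, e j a, e k a)) '' A
    have hGc : IsCompact Gs :=
      isCompact_iUnion fun i => isCompact_iUnion fun j => isCompact_iUnion fun k =>
        isCompact_iUnion fun _ =>
          hAc.image_of_continuousOn ((hec i).prodMk ((hec j).prodMk (hec k)))
    refine Crest.Agent.R130.monge_approx (tripleCost s)
      (Crest.Agent.R130.continuous_tripleCost s) _ _ hmarg.1 hmarg.2.1 hmarg.2.2 Gs hGc ?_ ?_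
      hcost ε hε
    · refine S.ae_bigPi (fun p => p ∈ Gs) hGc.measurableSet fun i j k hg a ha => ?_
      simp only [Gs, Set.mem_iUnion]
      refine ⟨i, j, k, hg, a, ha, ?_⟩
      change _ = (f i a, f j a, f k a)
      rw [hfe i ha, hfe j ha, hfe k ha]
    · intro p hp
      simp only [Gs, Set.mem_iUnion] at hp
      obtain ⟨i, j, k, hg, a, ha, rfl⟩ := hp
      rw [← hdiag i j k hg a ha]
      finiteness

end Crest.Agent.S0175
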