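import Crest.Statements.S0210
import Crest.Agent.R149.Main

set_option autoImplicit false
open Crest Crest.ProbabilityR

namespace Crest.Agent.S0210

/-- There is a measurable radial pair potential in three-space, finite and locally bounded at positive distances, tending to `+∞` at `0`, below `-a < 0` on an interval, with `r² φ(r)` integrable at large `r`, `r³ φ(r) → 0`, and stable on configurations of distinct points, whose canonical free energy per volume `-lim_L log Z_{[0,L]^3, ⌊ρL^3⌋}(β)/(β L^3)` exists for all `β, ρ > 0` and has, on some open density interval, at one `β_c ∈ (1/2, 3/2)` a left `β`-derivative strictly above the right. -/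
theorem result :
    ∃ φ : ℝ → ℝ, Measurable φ ∧
      (∀ a b : ℝ, 0 < a → a ≤ b → ∃ M : ℝ, ∀ r : ℝ, a ≤ r → r ≤ b → |φ r| ≤ M) ∧
      Filter.Tendsto φ (nhdsWithin 0 (Set.Ioi 0)) Filter.atTop ∧
      (∃ r₁ r₂ a : ℝ, 0 < r₁ ∧ r₁ < r₂ ∧ 0 < a ∧ ∀ r : ℝ, r₁ ≤ r → r ≤ r₂ → φ r ≤ -a) ∧
      (∃ R : ℝ, 0 < R ∧ MeasureTheory.IntegrableOn (fun r : ℝ => r ^ 2 * |φ r|) (Set.Ioi R)) ∧
      Filter.Tendsto (fun r : ℝ => r ^ 3 * φ r) Filter.atTop (nhds 0) ∧
      (∃ B : ℝ, ∀ (N : ℕ) (x : Fin N → Crest.ProbabilityR.Continuum.Pt), Function.Injective x →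
        -B * N ≤ Crest.ProbabilityR.Continuum.energy φ x) ∧
      ∃ f : ℝ → ℝ → ℝ,
        (∀ ρ : ℝ, 0 < ρ → ∀ β : ℝ, 0 < β →
          Filter.Tendsto (fun L : ℝ => -(1 / (β * L ^ 3)) *
              Real.log (Crest.ProbabilityR.Continuum.partitionFn φ L ⌊ρ * L ^ 3⌋₊ β))
            Filter.atTop (nhds (f β ρ))) ∧
        ∃ ρ₁ ρ₂ βc : ℝ, 0 ≤ ρ₁ ∧ ρ₁ < ρ₂ ∧ 1 / 2 < βc ∧ βc < 3 / 2 ∧
          ∀ ρ : ℝ, ρ₁ < ρ → ρ < ρ₂ → ∃ Dl Dr : ℝ,
            HasDerivWithinAt (fun β => f β ρ) Dl (Set.Iio βc) βc ∧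
            HasDerivWithinAt (fun β => f β ρ) Dr (Set.Ioi βc) βc ∧ Dr < Dl := by
  have hψ0 : ∀ t : ℝ, 1 / 10 ≤ t → max 0 (t⁻¹ - 10) = 0 := fun t ht => by
    refine max_eq_left ?_
    have : t⁻¹ ≤ 10 := inv_le_of_inv_le₀ (by norm_num) (by linarith)
    linarith
  obtain ⟨φc, δ, p, βc, hc, ⟨M, hb⟩, ⟨C, hd⟩, ⟨a, ha, hneg⟩, hδ, hδ1, hadm, hp, -, h1, h2, hk⟩ :=
    R149.main (ψ := fun t => max 0 (t⁻¹ - 10)) (by fun_prop) (fun _ => le_max_left _ _) hψ0
  have hz : ∀ r : ℝ, 1 ≤ r → max 0 ((r / δ)⁻¹ - 10) = 0 := fun r hr => by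
    refine hψ0 _ ?_
    rw [le_div_iff₀ hδ]; linarith
  refine ⟨fun r => φc r + max 0 ((r / δ)⁻¹ - 10), hadm.meas, ?_, ?_,
    ⟨2, 3, a, by norm_num, by norm_num, ha, fun r h2 h3 => ?_⟩, ⟨1, one_pos, ?_⟩, ?_, ?_,
    fun β ρ => R149.g (fun r => φc r + max 0 ((r / δ)⁻¹ - 10)) β ρ / β,
    fun ρ hρ β hβ => hadm.tendsto_partitionFn hβ hρ.le,
    5 * p / 3 - p / 100, 5 * p / 3 + p / 100, βc, by linarith, by linarith, by linarith,
    by linarith, hk⟩
  · intro a b ha _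
    refine ⟨M + δ / a, fun r h1 _ => (abs_add_le _ _).trans (add_le_add (hb r) ?_)⟩
    have hr : 0 < r := by linarith
    rw [abs_of_nonneg (le_max_left _ _), inv_div]
    have : δ / r ≤ δ / a := by gcongr
    exact max_le (by positivity) (by linarith)
  · have h3 : Filter.Tendsto (fun r : ℝ => δ * r⁻¹ + (-M - 10)) (nhdsWithin 0 (Set.Ioi 0))
        Filter.atTop :=
      Filter.tendsto_atTop_add_const_right _ _
        (Filter.Tendsto.const_mul_atTop hδ tendsto_inv_nhdsGT_zero)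
    refine Filter.tendsto_atTop_mono (fun r => ?_) h3
    have h4 := (abs_le.1 (hb r)).1
    have h5 := le_max_right 0 ((r / δ)⁻¹ - 10)
    rw [inv_div, div_eq_mul_inv] at h5 ⊢
    linarith
  · beta_reduce
    rw [hz r (by linarith), add_zero]; exact hneg r h2 h3
  · have h3 : MeasureTheory.IntegrableOn (fun r : ℝ => C * r ^ (-(1 + 1 / 32 : ℝ))) (Set.Ioi 1) :=
      (integrableOn_Ioi_rpow_of_lt (by norm_num) one_pos).const_mul C
    refine MeasureTheory.Integrable.mono' h3 ?_ ?_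
    · have := hadm.meas
      exact (Measurable.aestronglyMeasurable (by fun_prop))
    · refine (MeasureTheory.ae_restrict_iff' measurableSet_Ioi).2
        (Filter.Eventually.of_forall fun r hr => ?_)
      have hr1 : 1 < r := hr
      have hr0 : 0 < r := by linarith
      beta_reduce
      rw [hz r hr1.le, add_zero, Real.norm_of_nonneg (by positivity)]
      calc r ^ 2 * |φc r| ≤ r ^ 2 * (C * r ^ (-(3 + 1 / 32 : ℝ))) := by
            gcongr; exact hd r hr1.le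
        _ = C * (r ^ (2 : ℝ) * r ^ (-(3 + 1 / 32 : ℝ))) := by rw [Real.rpow_two]; ring
        _ = _ := by rw [← Real.rpow_add hr0]; norm_num
  · have h3 : Filter.Tendsto (fun r : ℝ => C * r ^ (-(1 / 32 : ℝ))) Filter.atTop (nhds 0) := by
      simpa using (tendsto_rpow_neg_atTop (y := 1 / 32) (by norm_num)).const_mul C
    refine squeeze_zero_norm' ?_ h3
    filter_upwards [Filter.eventually_ge_atTop (1 : ℝ)] with r hr1
    have hr0 : 0 < r := by linarith
    rw [hz r hr1, add_zero, Real.norm_eq_abs, abs_mul, abs_of_pos (by positivity)]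
    calc r ^ 3 * |φc r| ≤ r ^ 3 * (C * r ^ (-(3 + 1 / 32 : ℝ))) := by
          gcongr; exact hd r hr1
      _ = C * (r ^ ((3 : ℕ) : ℝ) * r ^ (-(3 + 1 / 32 : ℝ))) := by rw [Real.rpow_natCast]; ring
      _ = _ := by rw [← Real.rpow_add hr0]; norm_num
  · obtain ⟨B, -, hB⟩ := hadm.stable
    exact ⟨B, fun N x _ => by rw [R149.energy_eq_En]; exact hB N x⟩

end Crest.Agent.S0210
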