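import Crest.Statements.S0217
import Crest.Agent.R153.Var

set_option autoImplicit false
open Crest Crest.ProbabilityR

namespace Crest.Agent.S0217

/-- Fix a clause length `k ≥ 3`. Add independent uniformly random clauses, each with `k` literals of independent fair sign on `k` distinct variables among `n` (repetitions allowed); let `H` be the number of clauses present when the formula first becomes unsatisfiable. Then the variance of `H` is at most a constant multiple of `n`, for all `n ≥ k`, the constant depending only on `k`. Mean and second moment of `H` enter as tail sums of the probabilities that `m` random clauses are satisfiable. -/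
theorem result (k : ℕ) (hk : 3 ≤ k) :
    ∃ C : ℝ, ∀ n : ℕ, k ≤ n →
      Summable (fun m : ℕ => Crest.ProbabilityR.RandomSAT.satProb k n m) ∧
      Summable (fun m : ℕ => (2 * (m : ℝ) + 1) * Crest.ProbabilityR.RandomSAT.satProb k n m) ∧
      (∑' m : ℕ, (2 * (m : ℝ) + 1) * Crest.ProbabilityR.RandomSAT.satProb k n m)
          - (∑' m : ℕ, Crest.ProbabilityR.RandomSAT.satProb k n m) ^ 2 ≤ C * n :=
  Crest.Agent.R153.variance_le k hk

end Crest.Agent.S0217
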