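import Crest.Statements.S0222
import Crest.Agent.R155.Main

set_option autoImplicit false
open Crest Crest.ProbabilityR

namespace Crest.Agent.S0222

/-- Shuffle a deck of `n = 2 * 2 ^ d` cards `1600 * (d + 1)` times, that is `1600 * log₂ n` times. The total variation distance between the law of the resulting arrangement of the whole deck and the uniform law on all arrangements tends to `0` as `d → ∞`. -/
theorem result :
    Filter.Tendsto (fun d : ℕ => Crest.ProbabilityR.Shuffle.tvFromUniform (2 ^ d) (1600 * (d + 1)))
      Filter.atTop (nhds 0) := by
  exact Crest.Agent.R155.tv_tendsto

end Crest.Agent.S0222
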