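import Crest.Statements.S0241
import Crest.Agent.R160.Final

set_option autoImplicit false
universe u
open Crest Crest.ProbabilityR

namespace Crest.Agent.S0241

/-- Let `d ≥ 3`, `β ≥ 0`, `tanh β ≤ (d-1)^(-1/2)`. On every connected acyclic graph with all degrees `d` (the infinite `d`-regular tree) some measurable map from `[0,1]^V` to spin configurations commutes with every automorphism on every input and, fed independent uniform labels, outputs the free zero-field Ising state: each spin pattern on a finite connected vertex set `S` has probability `1/2` times the product over edges inside `S` of `(1 ± tanh β)/2`, with `+` for agreeing endpoints. -/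
theorem result (d : ℕ) (hd : 3 ≤ d) (β : ℝ)
    (hβ : 0 ≤ β) (hθ : Real.tanh β ≤ ((d : ℝ) - 1) ^ (-(1 / 2 : ℝ))) (V : Type u)
    (G : SimpleGraph V) [G.LocallyFinite] (hT : G.IsTree) (hreg : G.IsRegularOfDegree d) :
    ∃ Φ : (V → unitInterval) → (V → Bool),
      Measurable Φ ∧
      (∀ (g : G ≃g G) (x : V → unitInterval), Φ (x ∘ ⇑g) = Φ x ∘ ⇑g) ∧
      ∀ (S : Finset V) (η : V → Bool), (G.induce (S : Set V)).Connected →
        (Crest.ProbabilityR.Labels.labelMeasure V).map Φ {σ | ∀ v ∈ S, σ v = η v} =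
          ENNReal.ofReal (Crest.ProbabilityR.TreeIsing.isingWeight G (Real.tanh β) S η) := by
  have hT' : R160.Tr G d := ⟨hT, hreg, hd⟩
  have h0 : 0 ≤ Real.tanh β := by
    rw [Real.tanh_eq_sinh_div_cosh]
    exact div_nonneg (Real.sinh_nonneg_iff.2 hβ) (Real.cosh_pos β).le
  have h2 := hT'.two_le
  have h1 : ((d : ℝ) - 1) * Real.tanh β ^ 2 ≤ 1 := by
    have h3 : Real.tanh β ^ 2 ≤ (((d : ℝ) - 1) ^ (-(1 / 2 : ℝ))) ^ 2 :=
      pow_le_pow_left₀ h0 hθ 2
    have h4 : (((d : ℝ) - 1) ^ (-(1 / 2 : ℝ))) ^ 2 = ((d : ℝ) - 1)⁻¹ := by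
      rw [← Real.rpow_natCast, ← Real.rpow_mul (by linarith), ← Real.rpow_neg_one]
      norm_num
    rw [h4] at h3
    calc ((d : ℝ) - 1) * Real.tanh β ^ 2 ≤ ((d : ℝ) - 1) * ((d : ℝ) - 1)⁻¹ :=
          mul_le_mul_of_nonneg_left h3 (by linarith)
      _ = 1 := mul_inv_cancel₀ (by linarith)
  obtain ⟨ν, hW⟩ := R160.exists_wd hT' h0 h1
  obtain ⟨Φ, hm, he, hl⟩ := R160.main hW
  exact ⟨Φ, hm, he, fun S η hS => by rw [hl]; exact hW.ising S η hS⟩

end Crest.Agent.S0241
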