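import Crest.Statements.S0244
import Crest.Agent.R163.RunP0
import Crest.Agent.R163.RunP1
import Crest.Agent.R163.RunP2
import Crest.Agent.R163.RunP3
import Crest.Agent.R163.RunP4
import Crest.Agent.R163.RunP5
import Crest.Agent.R163.RunP6
import Crest.Agent.R163.RunP7
import Crest.Agent.R163.RunP8
import Crest.Agent.R163.RunP9
import Crest.Agent.R163.RunP10
import Crest.Agent.R163.RunP11
import Crest.Agent.R163.RunP12
import Crest.Agent.R163.RunP13
import Crest.Agent.R163.RunP14
import Crest.Agent.R163.RunP15
import Crest.Agent.R163.RunP16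
import Crest.Agent.R163.RunP17
import Crest.Agent.R163.RunP18
import Crest.Agent.R163.RunP19
import Crest.Agent.R163.RunP20
import Crest.Agent.R163.RunP21
import Crest.Agent.R163.RunP22
import Crest.Agent.R163.RunP23
import Crest.Agent.R163.RunP24
import Crest.Agent.R163.RunP25
import Crest.Agent.R163.RunP26
import Crest.Agent.R163.RunP27
import Crest.Agent.R163.RunP28
import Crest.Agent.R163.RunP29
import Crest.Agent.R163.RunP30
import Crest.Agent.R163.RunP31
import Crest.Agent.R163.RunP32
import Crest.Agent.R163.RunR4
import Crest.Agent.R163.RunR5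
import Crest.Agent.R163.RunR6
import Crest.Agent.R163.RunR7
import Crest.Agent.R163.RunR8
import Crest.Agent.R163.RunR9
import Crest.Agent.R163.RunR10
import Crest.Agent.R163.RunR11
import Crest.Agent.R163.RunR12
import Crest.Agent.R163.RunR13
import Crest.Agent.R163.RunR14
import Crest.Agent.R163.RunR15
import Crest.Agent.R163.RunR17
import Crest.Agent.R163.RunR19
import Crest.Agent.R163.RunR21
import Crest.Agent.R163.RunR23
import Crest.Agent.R163.RunR26
import Crest.Agent.R163.RunR29

set_option autoImplicit false
open Crest Crest.ProbabilityR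

namespace Crest.Agent.S0244

/-- Three-valued spins spread from a uniform root down a tree, each child keeping its parent's spin with probability `λ` (-1/2 ≤ λ ≤ 1), else drawing a fresh uniform spin. If `d λ² ≤ 1`, the expected total variation distance between the conditional law of the root given the depth-`ℓ` spins and the uniform law tends to `0` as `ℓ → ∞`: on the `d`-ary tree for integer `d ≥ 2`, and on a Poisson(`d`) Galton–Watson tree seen to depth `ℓ`, averaged without conditioning on survival, for real `d > 1`. -/
theorem result :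
    (∀ b : ℕ, 2 ≤ b → ∀ lam : ℝ, -(1 / 2 : ℝ) ≤ lam → lam ≤ 1 → (b : ℝ) * lam ^ 2 ≤ 1 →
      Filter.Tendsto (Crest.ProbabilityR.Broadcast.advantage 3 b lam) Filter.atTop (nhds 0)) ∧
    (∀ d : ℝ, 1 < d → ∀ lam : ℝ, -(1 / 2 : ℝ) ≤ lam → lam ≤ 1 → d * lam ^ 2 ≤ 1 →
      Filter.Tendsto (Crest.ProbabilityR.Broadcast.gwAdvantage 3 lam d) Filter.atTop (nhds 0)) := by
  open Crest.Agent.R163 in
  refine final3 (fun η d h1 h2 hd hc => ?_) (fun b η h1 h2 h0 hc => ?_)
  · have g0 := h2
    rcases le_total (99 / 200) η with g | g1
    · exact R163.RunP0.nr g g0 hd hc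
    rcases le_total (49 / 100) η with g | g2
    · exact R163.RunP1.nr g g1 hd hc
    rcases le_total (97 / 200) η with g | g3
    · exact R163.RunP2.nr g g2 hd hc
    rcases le_total (479 / 1000) η with g | g4
    · exact R163.RunP3.nr g g3 hd hc
    rcases le_total (473 / 1000) η with g | g5
    · exact R163.RunP4.nr g g4 hd hc
    rcases le_total (467 / 1000) η with g | g6
    · exact R163.RunP5.nr g g5 hd hc
    rcases le_total (23 / 50) η with g | g7
    · exact R163.RunP6.nr g g6 hd hc
    rcases le_total (453 / 1000) η with g | g8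
    · exact R163.RunP7.nr g g7 hd hc
    rcases le_total (223 / 500) η with g | g9
    · exact R163.RunP8.nr g g8 hd hc
    rcases le_total (7 / 16) η with g | g10
    · exact R163.RunP9.nr g g9 hd hc
    rcases le_total (429 / 1000) η with g | g11
    · exact R163.RunP10.nr g g10 hd hc
    rcases le_total (839 / 2000) η with g | g12
    · exact R163.RunP11.nr g g11 hd hc
    rcases le_total (821 / 2000) η with g | g13
    · exact R163.RunP12.nr g g12 hd hc
    rcases le_total (803 / 2000) η with g | g14
    · exact R163.RunP13.nr g g13 hd hc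
    rcases le_total (157 / 400) η with g | g15
    · exact R163.RunP14.nr g g14 hd hc
    rcases le_total (153 / 400) η with g | g16
    · exact R163.RunP15.nr g g15 hd hc
    rcases le_total (149 / 400) η with g | g17
    · exact R163.RunP16.nr g g16 hd hc
    rcases le_total (363 / 1000) η with g | g18
    · exact R163.RunP17.nr g g17 hd hc
    rcases le_total (707 / 2000) η with g | g19
    · exact R163.RunP18.nr g g18 hd hc
    rcases le_total (343 / 1000) η with g | g20
    · exact R163.RunP19.nr g g19 hd hc
    rcases le_total (333 / 1000) η with g | g21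
    · exact R163.RunP20.nr g g20 hd hc
    rcases le_total (323 / 1000) η with g | g22
    · exact R163.RunP21.nr g g21 hd hc
    rcases le_total (39 / 125) η with g | g23
    · exact R163.RunP22.nr g g22 hd hc
    rcases le_total (603 / 2000) η with g | g24
    · exact R163.RunP23.nr g g23 hd hc
    rcases le_total (583 / 2000) η with g | g25
    · exact R163.RunP24.nr g g24 hd hc
    rcases le_total (559 / 2000) η with g | g26
    · exact R163.RunP25.nr g g25 hd hc
    rcases le_total (67 / 250) η with g | g27
    · exact R163.RunP26.nr g g26 hd hc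
    rcases le_total (51 / 200) η with g | g28
    · exact R163.RunP27.nr g g27 hd hc
    rcases le_total (97 / 400) η with g | g29
    · exact R163.RunP28.nr g g28 hd hc
    rcases le_total (461 / 2000) η with g | g30
    · exact R163.RunP29.nr g g29 hd hc
    rcases le_total (433 / 2000) η with g | g31
    · exact R163.RunP30.nr g g30 hd hc
    rcases le_total (407 / 2000) η with g | g32
    · exact R163.RunP31.nr g g31 hd hc
    exact R163.RunP32.nr h1 g32 hd hc
  · have g0 := h1
    rcases Nat.lt_or_ge 4 b with g1 | g
    swap
    · exact R163.RunR4.nr g0 g h0 hc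
    rcases Nat.lt_or_ge 5 b with g2 | g
    swap
    · exact R163.RunR5.nr g1 g h0 hc
    rcases Nat.lt_or_ge 6 b with g3 | g
    swap
    · exact R163.RunR6.nr g2 g h0 hc
    rcases Nat.lt_or_ge 7 b with g4 | g
    swap
    · exact R163.RunR7.nr g3 g h0 hc
    rcases Nat.lt_or_ge 8 b with g5 | g
    swap
    · exact R163.RunR8.nr g4 g h0 hc
    rcases Nat.lt_or_ge 9 b with g6 | g
    swap
    · exact R163.RunR9.nr g5 g h0 hc
    rcases Nat.lt_or_ge 10 b with g7 | g
    swap
    · exact R163.RunR10.nr g6 g h0 hc
    rcases Nat.lt_or_ge 11 b with g8 | g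
    swap
    · exact R163.RunR11.nr g7 g h0 hc
    rcases Nat.lt_or_ge 12 b with g9 | g
    swap
    · exact R163.RunR12.nr g8 g h0 hc
    rcases Nat.lt_or_ge 13 b with g10 | g
    swap
    · exact R163.RunR13.nr g9 g h0 hc
    rcases Nat.lt_or_ge 14 b with g11 | g
    swap
    · exact R163.RunR14.nr g10 g h0 hc
    rcases Nat.lt_or_ge 15 b with g12 | g
    swap
    · exact R163.RunR15.nr g11 g h0 hc
    rcases Nat.lt_or_ge 17 b with g13 | g
    swap
    · exact R163.RunR17.nr g12 g h0 hc
    rcases Nat.lt_or_ge 19 b with g14 | g
    swap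
    · exact R163.RunR19.nr g13 g h0 hc
    rcases Nat.lt_or_ge 21 b with g15 | g
    swap
    · exact R163.RunR21.nr g14 g h0 hc
    rcases Nat.lt_or_ge 23 b with g16 | g
    swap
    · exact R163.RunR23.nr g15 g h0 hc
    rcases Nat.lt_or_ge 26 b with g17 | g
    swap
    · exact R163.RunR26.nr g16 g h0 hc
    exact R163.RunR29.nr g17 h2 h0 hc

end Crest.Agent.S0244
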