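import Crest.Statements.S0245
import Crest.Agent.R163.Cone4
import Crest.Agent.R163.Link

set_option autoImplicit false
open Crest Crest.ProbabilityR

namespace Crest.Agent.S0245

/-- Four-valued spins spread from a uniform root down a tree, each child keeping its parent's spin with probability `λ` (0 ≤ λ ≤ 1), else drawing a fresh uniform spin. If `d λ² ≤ 1`, the expected total variation distance between the conditional law of the root given the depth-`ℓ` spins and the uniform law tends to `0` as `ℓ → ∞`: on the `d`-ary tree for integer `d ≥ 2`, and on a Poisson(`d`) Galton–Watson tree seen to depth `ℓ`, averaged without conditioning on survival, for real `d > 0`. -/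
theorem result :
    (∀ b : ℕ, 2 ≤ b → ∀ lam : ℝ, 0 ≤ lam → lam ≤ 1 → (b : ℝ) * lam ^ 2 ≤ 1 →
      Filter.Tendsto (Crest.ProbabilityR.Broadcast.advantage 4 b lam) Filter.atTop (nhds 0)) ∧
    (∀ d : ℝ, 0 < d → ∀ lam : ℝ, 0 ≤ lam → lam ≤ 1 → d * lam ^ 2 ≤ 1 →
      Filter.Tendsto (Crest.ProbabilityR.Broadcast.gwAdvantage 4 lam d) Filter.atTop (nhds 0)) := by
  open Crest.Agent.R163 in
  obtain ⟨c, hK, hv, hc⟩ := cone4
  refine ⟨fun b hb lam h0 h1 hd => ?_, fun d hd0 lam h0 h1 hd => ?_⟩
  · have hl : LamOK 4 lam := lamOK_of_mem h0 h1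
    have h := adv_tendsto (by norm_num) (fun n => (good_mu hl (Off.reg b) n).norm)
      (hK.nonrec (by norm_num) hl _ (mean_reg b) hd (two_reg hb) (hK.mu_mem _ hv (hc lam h0 h1)))
    exact h.congr fun n => (link_reg b hl n).symm
  · have hl : LamOK 4 lam := lamOK_of_mem h0 h1
    have h := adv_tendsto (by norm_num) (fun n => (good_mu hl (Off.poi d) n).norm)
      (hK.nonrec (by norm_num) hl _ (mean_poi hd0.le) hd (two_poi hd0) (hK.mu_mem _ hv (hc lam h0 h1)))
    exact h.congr fun n => (link_poi hl hd0.le n).symm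

end Crest.Agent.S0245
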