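import Crest.Statements.S0246
import Crest.Agent.R163.CapUp
import Crest.Agent.R163.CapLo
import Crest.Agent.R163.Lev

set_option autoImplicit false
open Crest Crest.ProbabilityR

namespace Crest.Agent.S0246

/-- Four-valued spins spread from a uniform root down an infinite rooted tree with finite levels and at most `B` children per vertex, each child keeping its parent's spin with probability `λ ∈ (0,1)`, else drawing a fresh uniform spin. The root-reconstruction advantage from the depth-`n` spins stays bounded away from `0` if and only if some nonnegative flow to infinity of positive mass has, along every ray, sum over its edges of `(flow / λ^(2·depth))²` at most `1` (positive cubic capacity). -/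
theorem result (V : Type*) [DecidableEq V]
    (T : Crest.ProbabilityR.TreeBroadcast.LocFinTree V) [Infinite V] (B : ℕ)
    (hB : ∀ v, (T.children v).card ≤ B) (lam : ℝ) (h0 : 0 < lam) (h1 : lam < 1) :
    (∃ ε : ℝ, 0 < ε ∧ ∀ n, ε ≤ Crest.ProbabilityR.TreeBroadcast.treeAdvantage 4 T lam n) ↔
    (∃ θ : V → ℝ, Crest.ProbabilityR.TreeBroadcast.IsFlow T θ ∧ 0 < Crest.ProbabilityR.TreeBroadcast.flowMass T θ ∧
      ∀ ξ : ℕ → V, T.IsRay ξ → Crest.ProbabilityR.TreeBroadcast.rayPotential lam θ ξ ≤ 1) := by
  open Crest.Agent.R163 in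
  obtain ⟨c, hK, hv, hc⟩ := cone4
  have hl : LamOK 4 lam := lamOK_of_mem h0.le h1.le
  have hg : ∀ n, Good (sub T lam (fun _ => (Ex.vert : Ex 4)) n T.root) :=
    fun n => good_sub T hl (fun _ => good_vert) n _
  constructor
  · rintro ⟨ε, hε, h⟩
    refine cap_up (by norm_num) hK T h0 h1 hv (hc lam h0.le h1.le) (ε := ε ^ 2) (by positivity) fun n => ?_
    have h2 := h n
    rw [link_tree T hl n] at h2
    have h3 := adv_le (by norm_num) (hg n).norm hε
    have h4 : ε ≤ hh (sub T lam (fun _ => (Ex.vert : Ex 4)) n T.root) / (4 * ε) := by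
      push_cast at h2 h3
      linarith
    rw [le_div_iff₀ (by positivity)] at h4
    nlinarith [sq_nonneg ε]
  · rintro ⟨θ, hθ, hm, h⟩
    obtain ⟨ε, hε, h2⟩ := cap_lo T h0 h1 hθ hm h
    refine ⟨ε / 8, by positivity, fun n => ?_⟩
    rw [link_tree T hl n]
    have h3 := le_adv (by norm_num) (sub T lam (fun _ => (Ex.vert : Ex 4)) n T.root)
    have h4 := h2 n
    push_cast
    linarith

end Crest.Agent.S0246
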