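import Crest.Statements.S0254
import Crest.Agent.R168.EdgeLab

set_option autoImplicit false
open Crest Crest.ProbabilityR

namespace Crest.Agent.S0254

open MeasureTheory Filter Crest.Agent.R168 in
/-- One rule from (graph on `ℕ`, labels in `[0,1]^ℕ`) to edge sets, jointly measurable in (adjacency table, labels) and commuting on every input with every permutation of `ℕ` acting on graph, labels and pairs, gives i.i.d. uniform labels the free uniform spanning forest's law on every connected locally finite graph: along every exhaustion by finite connected induced pieces, for finite edge sets `F` the chance that the piece's uniform spanning tree contains `F` tends to that for the output. -/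
theorem result :
    ∃ Φ : SimpleGraph ℕ → (ℕ → unitInterval) → (Sym2 ℕ → Bool),
      Measurable (fun p : (ℕ → ℕ → Bool) × (ℕ → unitInterval) =>
          Φ (Crest.ProbabilityR.GraphTables.graphOfTable p.1) p.2) ∧
      (∀ (σ : Equiv.Perm ℕ) (G : SimpleGraph ℕ) (x : ℕ → unitInterval),
          Φ (G.comap ⇑σ) (x ∘ ⇑σ) = Φ G x ∘ Sym2.map ⇑σ) ∧
      ∀ G : SimpleGraph ℕ, G.Connected → (∀ v : ℕ, (G.neighborSet v).Finite) →
        ∀ S : ℕ → Finset ℕ, Monotone S → (∀ v : ℕ, ∃ n, v ∈ S n) →
          (∀ n, (G.induce (S n : Set ℕ)).Connected) →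
          ∀ F : Finset (Sym2 ℕ), (↑F : Set (Sym2 ℕ)) ⊆ G.edgeSet →
            Filter.Tendsto (fun n => Crest.ProbabilityR.SpanningTrees.ustContains G (S n) F) Filter.atTop
              (nhds (((Crest.ProbabilityR.Labels.labelMeasure ℕ).map (Φ G) {ω | ∀ e ∈ F, ω e = true}).toReal)) := by
  classical
  obtain ⟨f, hf, hf'⟩ := exists_split (ℕ × ℕ)
  refine ⟨fun G x => PhiG G (fun v => f (x v) (true, (0, 0))) (fun p => f (x p.1) (false, p.2)),
    ?_, fun σ G x => ?_, fun G hc hG S hS1 hS2 hS3 F hF => ?_⟩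
  · refine measurable_PhiG (fun u v => ?_) (by fun_prop) (by fun_prop)
    simp only [Crest.ProbabilityR.GraphTables.graphOfTable, SimpleGraph.fromRel_adj]
    refine (MeasurableSet.const _).inter (MeasurableSet.union ?_ ?_)
    · exact measurableSet_eq_fun (by fun_prop) measurable_const
    · exact measurableSet_eq_fun (by fun_prop) measurable_const
  · exact PhiG_comap σ G (fun v => f (x v) (true, (0, 0))) (fun p => f (x p.1) (false, p.2))
  have hex : Exh G S := ⟨hS1, hS2, hS3⟩
  obtain ⟨ν, hν0, hν⟩ := exists_fusf G S hex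
  have hpost := isPost_ME hc hG hν
  let Ψ : (ℕ × (ℕ × ℕ) → ℝ) × (ℕ × (ℕ × ℕ) → ℝ) → Sym2 ℕ → Bool := fun q =>
    PhiG G (fun v => q.1 (v, (0, 0))) q.2
  have hΨ : Measurable Ψ :=
    measurable_PhiG (G := fun _ => G) (fun _ _ => MeasurableSet.const _) (by fun_prop)
      measurable_snd
  let ρ : (Sym2 ℕ → Bool) → (G.edgeSet → Bool) := fun ω => ω ∘ Subtype.val
  have hρ : Measurable ρ := measurable_pi_lambda _ fun e => measurable_pi_apply _
  have hS : Measurable (fun x : ℕ → unitInterval =>
      (fun p : ℕ × (ℕ × ℕ) => f (x p.1) (true, p.2),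
        fun p : ℕ × (ℕ × ℕ) => f (x p.1) (false, p.2))) := by fun_prop
  have hlaw : ((Crest.ProbabilityR.Labels.labelMeasure ℕ).map (fun x =>
      PhiG G (fun v => f (x v) (true, (0, 0))) (fun p => f (x p.1) (false, p.2)))).map ρ = ν := by
    have e1 : (fun x : ℕ → unitInterval =>
        PhiG G (fun v => f (x v) (true, (0, 0))) (fun p => f (x p.1) (false, p.2))) =
        Ψ ∘ (fun x : ℕ → unitInterval => (fun p : ℕ × (ℕ × ℕ) => f (x p.1) (true, p.2),
          fun p : ℕ × (ℕ × ℕ) => f (x p.1) (false, p.2))) := rfl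
    rw [e1, ← Measure.map_map hΨ hS, hf' ℕ, Measure.map_map hρ hΨ]
    refine map_prod_eq_of_ae (hρ.comp hΨ) ?_
    filter_upwards [ae_injective (ℕ × (ℕ × ℕ))] with T hT
    exact map_PhiG hG hpost (t := fun v => T (v, (0, 0))) fun a b h => (Prod.ext_iff.1 (hT h)).1
  set F' : Finset G.edgeSet := F.subtype (· ∈ G.edgeSet) with hF'
  have hset : {ω : Sym2 ℕ → Bool | ∀ e ∈ F, ω e = true} =
      ρ ⁻¹' {ω | ∀ e ∈ F', ω e = true} := by
    ext ω
    simp only [Set.mem_ofPred_eq, Set.mem_preimage, hF', Finset.mem_subtype, ρ, Function.comp]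
    exact ⟨fun h e he => h e he, fun h e he => h ⟨e, hF he⟩ he⟩
  have hms : MeasurableSet {ω : G.edgeSet → Bool | ∀ e ∈ F', ω e = true} := by
    simp only [Set.ofPred_forall]
    exact MeasurableSet.iInter fun e => MeasurableSet.iInter fun _ =>
      measurableSet_eq_fun (measurable_pi_apply e) measurable_const
  rw [hset, ← Measure.map_apply hρ hms, hlaw]
  have h1 := hν S hex F' (fun _ => 0) (fun _ => 1)
  have h2 : ∫ ω, ∏ e ∈ F', ((0 : ℝ) + 1 * sg (ω e)) ∂ν =
      (ν {ω : G.edgeSet → Bool | ∀ e ∈ F', ω e = true}).toReal := by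
    rw [← Measure.real, ← integral_indicator_one hms]
    refine integral_congr_ae (ae_of_all _ fun ω => ?_)
    by_cases hω : ∀ e ∈ F', ω e = true
    · rw [Set.indicator_of_mem (show ω ∈ {ω : G.edgeSet → Bool | ∀ e ∈ F', ω e = true} from hω)]
      exact Finset.prod_eq_one fun e he => by simp [sg, hω e he]
    · rw [Set.indicator_of_notMem (show ω ∉ {ω : G.edgeSet → Bool | ∀ e ∈ F', ω e = true} from hω)]
      push Not at hω
      obtain ⟨e, he, he'⟩ := hω
      exact Finset.prod_eq_zero he (by simp [sg, he'])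
  rw [h2] at h1
  refine h1.congr fun n => ?_
  have hne : (S n).Nonempty := by
    obtain ⟨v⟩ := (hS3 n).nonempty
    exact ⟨v.1, v.2⟩
  rw [ustContains_eq hne]
  congr 1
  funext T
  by_cases hT : F ⊆ T
  · rw [if_pos hT]
    exact Finset.prod_eq_one fun e he => by simp [hT (Finset.mem_subtype.1 he)]
  · rw [if_neg hT]
    obtain ⟨e, he, he'⟩ := Finset.not_subset.1 hT
    exact Finset.prod_eq_zero (i := ⟨e, hF he⟩) (Finset.mem_subtype.2 he) (by simp [he'])

end Crest.Agent.S0254
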