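import Crest.Statements.S0255
import Crest.Agent.R168.SR
import Crest.Agent.R168.Labels

set_option autoImplicit false
open Crest Crest.ProbabilityR

namespace Crest.Agent.S0255

open MeasureTheory Filter Crest.Agent.R168 Crest.ProbabilityR.StronglyRayleigh in
/-- For a countable group `Γ` and a strongly Rayleigh probability law `ν` on binary configurations `Γ → Bool` that is invariant under every left shift `a ↦ (h ↦ a (g⁻¹ h))`, there is a measurable map from independent uniform labels indexed by `Γ` to configurations that commutes with every left shift and pushes the label law forward to `ν`. -/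
theorem result (Γ : Type*) [Group Γ]
    [Countable Γ] (ν : MeasureTheory.Measure (Γ → Bool)) [MeasureTheory.IsProbabilityMeasure ν]
    (hsr : Crest.ProbabilityR.StronglyRayleigh.IsStronglyRayleigh ν)
    (hinv : Crest.ProbabilityR.StronglyRayleigh.IsShiftInvariant ν) :
    ∃ Φ : (Γ → unitInterval) → (Γ → Bool), Measurable Φ ∧
      (∀ (g : Γ) (u : Γ → unitInterval),
        Φ (Crest.ProbabilityR.StronglyRayleigh.leftShift g u) =
          Crest.ProbabilityR.StronglyRayleigh.leftShift g (Φ u)) ∧
      (Crest.ProbabilityR.Labels.labelMeasure Γ).map Φ = ν := by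
  classical
  obtain ⟨e, he⟩ := exists_surjective_nat Γ
  let F₀ : ℕ → Finset Γ := fun n => insert 1 ((Finset.range n).image e)
  let F : Γ → ℕ → Finset Γ := fun v n => (F₀ n).image (v * ·)
  let M : Γ → (Γ → ℝ) → ℝ := fun v y => limsup (fun n => tilt ν v (F v n) y) atTop
  have hpost : IsPost ν M := by
    intro v
    refine ⟨F v, fun n m hnm => ?_, fun u => ?_, fun y => rfl⟩
    · exact Finset.image_subset_image (Finset.insert_subset_insert _
        (Finset.image_subset_image (Finset.range_mono hnm)))
    · obtain ⟨n, hn⟩ := he (v⁻¹ * u)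
      refine ⟨n + 1, Finset.mem_image.2 ⟨v⁻¹ * u, ?_, by simp⟩⟩
      exact Finset.mem_insert_of_mem (Finset.mem_image.2 ⟨n, by simp, hn⟩)
  have hlip : IsLip M := by
    intro v y y' D hD
    refine abs_limsup_sub_le (fun n => tilt_nonneg ν v _ y) (fun n => tilt_le_one ν v _ y)
      (fun n => tilt_nonneg ν v _ y') (fun n => tilt_le_one ν v _ y') fun n => ?_
    exact tilt_lip hsr (Finset.mem_image.2 ⟨1, Finset.mem_insert_self _ _, by simp⟩) y y' hD
  have hshift : ∀ g : Γ, Measurable (leftShift g : (Γ → Bool) → (Γ → Bool)) := fun g =>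
    measurable_pi_lambda _ fun h => measurable_pi_apply _
  have hmap : ∀ g : Γ, ν.map (leftShift g) = ν := fun g => by
    ext A hA
    rw [Measure.map_apply (hshift g) hA, hinv g A hA]
  have hM : ∀ (g v : Γ) (y : Γ → ℝ), M (g⁻¹ * v) y = M v (y ∘ (g⁻¹ * ·)) := by
    intro g v y
    simp only [M]
    congr 1
    funext n
    have hw : ∀ σ : Γ → Bool, wt (F (g⁻¹ * v) n) y σ =
        wt (F v n) (y ∘ (g⁻¹ * ·)) (leftShift g σ) := by
      intro σ
      simp only [wt, F]
      rw [Finset.sum_image (fun a _ b _ h => mul_left_cancel h),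
        Finset.sum_image (fun a _ b _ h => mul_left_cancel h)]
      simp only [Function.comp, leftShift, mul_assoc]
    simp only [tilt]
    congr 1
    · conv_rhs => rw [← hmap g]
      have hm : Measurable (fun σ : Γ → Bool => sg (σ v) * wt (F v n) (y ∘ (g⁻¹ * ·)) σ) :=
        (measurable_sg_apply v).mul (measurable_wt_right _ _)
      rw [integral_map (hshift g).aemeasurable hm.aestronglyMeasurable]
      simp only [hw]
      rfl
    · conv_rhs => rw [← hmap g]
      rw [integral_map (hshift g).aemeasurable (measurable_wt_right _ _).aestronglyMeasurable]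
      simp only [hw]
  obtain ⟨f, hf, hf'⟩ := exists_split ℕ
  let Ψ : (Γ × ℕ → ℝ) × (Γ × ℕ → ℝ) → Γ → Bool := fun q =>
    Phi M (fun u v => q.1 (u, 0) < q.1 (v, 0)) (fun a => q.2 (a.2, a.1))
  have hΨ : Measurable Ψ :=
    measurable_Phi (M := fun _ => M) (fun v => (hpost.measurable v).comp measurable_snd)
      (fun u v => measurableSet_lt (by fun_prop) (by fun_prop)) (by fun_prop)
  have hS : Measurable (fun x : Γ → unitInterval => (fun p : Γ × ℕ => f (x p.1) (true, p.2),
      fun p : Γ × ℕ => f (x p.1) (false, p.2))) := by fun_prop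
  refine ⟨Ψ ∘ (fun x : Γ → unitInterval => (fun p : Γ × ℕ => f (x p.1) (true, p.2),
      fun p : Γ × ℕ => f (x p.1) (false, p.2))), hΨ.comp hS, fun g u => ?_, ?_⟩
  · exact Phi_nat (g⁻¹ * ·) (M := M) (M' := M) (hM g)
      (r := fun a b => f (u a) (true, 0) < f (u b) (true, 0)) (fun _ _ => Iff.rfl)
      (fun a => f (u a.2) (false, a.1))
  · rw [← Measure.map_map hΨ hS, hf' Γ]
    refine map_prod_eq_of_ae hΨ ?_
    filter_upwards [ae_injective (Γ × ℕ)] with T hT
    have hT' : Function.Injective (fun u : Γ => T (u, 0)) := fun a b h =>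
      (Prod.ext_iff.1 (hT h)).1
    have := isSTO_of_injective hT'
    have h1 := map_Phi hpost hlip (fun u v => T (u, 0) < T (v, 0))
    have h2 := Measure.map_infinitePi_infinitePi_of_inj (P := fun _ : Γ × ℕ => lam0)
      (f := fun a : ℕ × Γ => (a.2, a.1)) Prod.swap_injective
    rw [← h1, ← h2, Measure.map_map (hpost.measurable_Phi _) (by fun_prop)]
    rfl

end Crest.Agent.S0255
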