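import Crest.Statements.S0267
import Crest.Agent.R177.Main
import Crest.Agent.R177.Tors
import Crest.Agent.R177.Contr
import Crest.Agent.R177.Real

set_option autoImplicit false
open Crest.Topology
open Crest Crest.AlgebraR

namespace Crest.Agent.S0267

/-- There is a finitely presented group in which only the identity has finite order, having a finite classifying complex of dimension at most two (a finite Hausdorff CW complex with no cells above dimension two, with a contractible cover and with fundamental group isomorphic to the group), together with two nonzero elements of its group algebra over the field with two elements whose product is zero. -/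
theorem result :
    ∃ (G : Type) (_ : Group G), Group.IsFinitelyPresented G ∧ (∀ g : G, IsOfFinOrder g → g = 1) ∧
      HasFiniteClassifyingComplex G 2 ∧
      ∃ a b : MonoidAlgebra (ZMod 2) G, a ≠ 0 ∧ b ≠ 0 ∧ a * b = 0 := by
  obtain ⟨Gen, Tr, _, _, _, l, C, hC, ⟨deg, hdeg⟩, a, b, c, hab, hac, hc⟩ := R177.exists_groupI
  have hrel := R177.rel_pgen l
  have hgen := R177.closure_pgen l
  have hLS := R177.ls_pgen l
  have hH2 := R177.h2_of_dehn l C hC
  refine ⟨R177.PG l, inferInstance, inferInstance, R177.torsionFree hrel hgen hLS hH2,
    R177.classifying_of hrel deg hdeg
      (fun Y _ c hc => R177.contractible hrel hgen hLS hH2 c hc), a, c, ?_, hc, hac⟩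
  rintro rfl
  rw [zero_mul] at hab
  exact zero_ne_one hab

end Crest.Agent.S0267
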