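import Crest.Statements.S0280
import Crest.Agent.R186.Final

set_option autoImplicit false
open Crest.AlgebraR
open Crest Crest.AlgebraR

namespace Crest.Agent.S0280

/-- Let k be the field of rational functions in three variables over the field with two elements. There are a finite-dimensional symmetric k-algebra A (A is isomorphic to its k-dual as an A-bimodule) and a finitely generated left A-module M that is not projective although Ext^i(M, M) = 0 in the category of left A-modules for every i > 0. -/
theorem result :
    ∃ (A : Type) (_ : Ring A) (_ : Algebra (FractionRing (MvPolynomial (Fin 3) (ZMod 2))) A),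
      FiniteDimensional (FractionRing (MvPolynomial (Fin 3) (ZMod 2))) A ∧
      IsSymmetricAlgebra (FractionRing (MvPolynomial (Fin 3) (ZMod 2))) A ∧
      ∃ M : ModuleCat.{0} A, Module.Finite A M ∧ ¬ Module.Projective A M ∧
        ∀ i : ℕ, 0 < i → Subsingleton (CategoryTheory.Abelian.Ext M M i) := by
  obtain ⟨A, _, _, _, ⟨T⟩, -⟩ := R186.exists_data₀
  refine ⟨A, inferInstance, inferInstance, inferInstance, T.sym.isSymmetricAlgebra,
    ModuleCat.of A (T.Z 0), Module.Finite.of_restrictScalars_finite R186.k₀ A (T.Z 0),
    fun h => T.nproj ?_, fun i hi => ?_⟩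
  · have : Module.Finite A (T.Z 0) := Module.Finite.of_restrictScalars_finite R186.k₀ A (T.Z 0)
    exact R186.PJ.of_projective
  · obtain ⟨j, rfl⟩ : ∃ j, i = j + 1 := ⟨i - 1, by omega⟩
    exact R186.subsingleton_of_rk (T.rk_eq j 0)

end Crest.Agent.S0280
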