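import Crest.Statements.S0281
import Crest.Agent.R186.Final

set_option autoImplicit false
open CategoryTheory Crest.AlgebraR
open scoped TensorProduct
universe u
open Crest Crest.AlgebraR

namespace Crest.Agent.S0281

/-- Let k be the rational function field in three variables over the two-element field. There are a finite-dimensional k-algebra Λ with Λ modulo its Jacobson radical ≅ k^8 and radical of nonzero fourth power, and a finitely generated Λ-module Z, not projective, Gorenstein-projective, with Ext^i(Z, Z) = 0 = Ext^i(Z, Λ) for i > 0; and for every field extension E of k the base-changed pair (E ⊗ Λ, E ⊗ Z), with module structure (a ⊗ r)(b ⊗ z) = ab ⊗ rz on pure tensors, has the same properties over E. -/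
theorem result :
    ∃ (Λ : Type) (_ : Ring Λ) (_ : Algebra (FractionRing (MvPolynomial (Fin 3) (ZMod 2))) Λ) (Z : Type) (_ : AddCommGroup Z)
      (_ : Module Λ Z) (_ : Module (FractionRing (MvPolynomial (Fin 3) (ZMod 2))) Z) (_ : IsScalarTower (FractionRing (MvPolynomial (Fin 3) (ZMod 2))) Λ Z),
      GorProjVanishingData (FractionRing (MvPolynomial (Fin 3) (ZMod 2))) Λ Z ∧
      ∀ (E : Type u) [Field E] [Algebra (FractionRing (MvPolynomial (Fin 3) (ZMod 2))) E],
        ∃ (_ : Module (E ⊗[FractionRing (MvPolynomial (Fin 3) (ZMod 2))] Λ) (E ⊗[FractionRing (MvPolynomial (Fin 3) (ZMod 2))] Z)),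
          (∀ (a b : E) (r : Λ) (z : Z),
            (a ⊗ₜ[FractionRing (MvPolynomial (Fin 3) (ZMod 2))] r) • (b ⊗ₜ[FractionRing (MvPolynomial (Fin 3) (ZMod 2))] z) = (a * b) ⊗ₜ[FractionRing (MvPolynomial (Fin 3) (ZMod 2))] (r • z)) ∧
          GorProjVanishingData E (E ⊗[FractionRing (MvPolynomial (Fin 3) (ZMod 2))] Λ) (E ⊗[FractionRing (MvPolynomial (Fin 3) (ZMod 2))] Z) := by
  obtain ⟨A, _, _, _, ⟨T⟩, ⟨ρ⟩⟩ := R186.exists_data₀
  exact R186.final81 T ρ

end Crest.Agent.S0281
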