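import Crest.Statements.S0282
import Crest.Agent.R186.Final

set_option autoImplicit false
open CategoryTheory
universe u
open Crest Crest.AlgebraR

namespace Crest.Agent.S0282

/-- Over every field extension K of the rational function field in three variables over the field with two elements there are a finite-dimensional K-algebra Γ and a simple left Γ-module S with Ext^i(S, Γ) = 0 for every i ≥ 0; in particular there is no nonzero homomorphism from S to Γ. -/
theorem result
    (K : Type u) [Field K] [Algebra (FractionRing (MvPolynomial (Fin 3) (ZMod 2))) K] :
    ∃ (Γ : Type u) (_ : Ring Γ) (_ : Algebra K Γ), FiniteDimensional K Γ ∧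
      ∃ S : ModuleCat.{u} Γ, IsSimpleModule Γ S ∧
        ∀ i : ℕ, Subsingleton (Abelian.Ext S (ModuleCat.of Γ Γ) i) := by
  obtain ⟨A, _, _, _, ⟨T⟩⟩ := R186.exists_tdata K
  exact T.s0282

end Crest.Agent.S0282
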