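import Crest.Statements.S0303
import Crest.Agent.R177.Main
import Crest.Agent.R177.Tors
import Crest.Agent.R177.Hyp

set_option autoImplicit false
open Crest Crest.AlgebraR

namespace Crest.Agent.S0303

/-- There is a group in which only the identity has finite order, which is word-hyperbolic (it has a finite generating set whose word metric satisfies the four-point condition for some constant), and which is not residually finite (some non-identity element lies in every normal subgroup of finite index). -/
theorem result :
    ∃ (G : Type) (_ : Group G),
      (∀ g : G, IsOfFinOrder g → g = 1) ∧ Crest.GroupTheory.IsHyperbolicGroup G ∧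
        ¬ Group.ResiduallyFinite G := by
  obtain ⟨Gen, Tr, _, _, _, l, C, hC, ⟨deg, hdeg⟩, a, b, c, hab, hac, hc⟩ := R177.exists_groupI
  have hrel := R177.rel_pgen l
  have hgen := R177.closure_pgen l
  have hLS := R177.ls_pgen l
  have hH2 := R177.h2_of_dehn l C hC
  refine ⟨R177.PG l, inferInstance, R177.torsionFree hrel hgen hLS hH2,
    R177.hyperbolic hrel hgen (R177.fill_of_dehn l C hC), fun hrf => hc ?_⟩
  have hba := R177.directlyFinite_of_residuallyFinite a b hab
  rw [← one_mul c, ← hba, mul_assoc, hac, mul_zero]

end Crest.Agent.S0303
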