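import Crest.Statements.S0327
import Crest.Agent.R211.Par

set_option autoImplicit false
open MeasureTheory
open scoped ENNReal
open Crest Crest.GeometryTopology Crest.GeometryTopology.Convex

namespace Crest.Agent.S0327

/-- Let K ⊂ ℝ³ be a regular tetrahedron (convex hull of four points with equal pairwise distances ℓ > 0); areas are Lebesgue-normalised 2-dimensional Hausdorff measure, π_v y = y − ⟪y, v⟫ v. (1) Finitely many cylinders Bᵢ + ℝ uᵢ, ‖uᵢ‖ = 1, with parallelogram bases Bᵢ = cᵢ + [0,1]aᵢ + [0,1]bᵢ in uᵢ^⊥ cover K, ∑ᵢ area(Bᵢ) being below half of area(π_v K) by a positive margin for all unit v, and ∑ᵢ area(Bᵢ)/area(π_{uᵢ} K) < 1/2. (2) The same with bounded relatively open subsets of the uᵢ^⊥ as bases. -/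
theorem result
    (w : Fin 4 → EuclideanSpace ℝ (Fin 3)) (ℓ : ℝ) (hℓ : 0 < ℓ)
    (hw : ∀ i j, i ≠ j → dist (w i) (w j) = ℓ) :
    (∃ (k : ℕ) (u c a b : Fin k → EuclideanSpace ℝ (Fin 3)),
      (∀ i, ‖u i‖ = 1) ∧
      (∀ i, inner ℝ (c i) (u i) = 0 ∧ inner ℝ (a i) (u i) = 0 ∧ inner ℝ (b i) (u i) = 0) ∧
      convexHull ℝ (Set.range w) ⊆ ⋃ i, {x : EuclideanSpace ℝ (Fin 3) |
        ∃ s ∈ Set.Icc (0 : ℝ) 1, ∃ t ∈ Set.Icc (0 : ℝ) 1, ∃ τ : ℝ, x = c i + s • a i + t • b i + τ • u i} ∧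
      (∃ δ : ℝ, 0 < δ ∧ ∀ v : EuclideanSpace ℝ (Fin 3), ‖v‖ = 1 →
        (∑ i, (μHE[2] {x : EuclideanSpace ℝ (Fin 3) |
            ∃ s ∈ Set.Icc (0 : ℝ) 1, ∃ t ∈ Set.Icc (0 : ℝ) 1, x = c i + s • a i + t • b i}).toReal) + δ ≤
          (μHE[2] ((fun y => y - inner ℝ y v • v) '' convexHull ℝ (Set.range w))).toReal / 2) ∧
      ∑ i, (μHE[2] {x : EuclideanSpace ℝ (Fin 3) |
            ∃ s ∈ Set.Icc (0 : ℝ) 1, ∃ t ∈ Set.Icc (0 : ℝ) 1, x = c i + s • a i + t • b i}).toReal /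
          (μHE[2] ((fun y => y - inner ℝ y (u i) • u i) '' convexHull ℝ (Set.range w))).toReal < 1 / 2) ∧
    (∃ (k : ℕ) (u : Fin k → EuclideanSpace ℝ (Fin 3)) (B : Fin k → Set (EuclideanSpace ℝ (Fin 3))),
      (∀ i, ‖u i‖ = 1) ∧
      (∀ i, Bornology.IsBounded (B i) ∧ ∃ O : Set (EuclideanSpace ℝ (Fin 3)), IsOpen O ∧
        B i = O ∩ {x | inner ℝ x (u i) = 0}) ∧
      convexHull ℝ (Set.range w) ⊆
        ⋃ i, {x : EuclideanSpace ℝ (Fin 3) | ∃ y ∈ B i, ∃ τ : ℝ, x = y + τ • u i} ∧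
      (∃ δ : ℝ, 0 < δ ∧ ∀ v : EuclideanSpace ℝ (Fin 3), ‖v‖ = 1 →
        (∑ i, (μHE[2] (B i)).toReal) + δ ≤
          (μHE[2] ((fun y => y - inner ℝ y v • v) '' convexHull ℝ (Set.range w))).toReal / 2) ∧
      ∑ i, (μHE[2] (B i)).toReal /
          (μHE[2] ((fun y => y - inner ℝ y (u i) • u i) '' convexHull ℝ (Set.range w))).toReal < 1 / 2) := by
  obtain ⟨o, E, B, A, m, F, hK⟩ := R211.exists_frame_of_regular w ℓ hℓ hw
  rw [hK]
  have hm := F.pos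
  have hs : 0 < Real.sqrt 2 * m := by positivity
  have hmin := fun v hv => R211.min_proj_toReal o E B A m F v hv
  obtain ⟨ι, fin, u, c, a, b, h1, h2, h3, h4⟩ := R211.tet_par_cover o E B A m F
  let e := (Fintype.equivFin ι).symm
  have key : ∀ (μ : ι → ℝ), (∀ i, 0 ≤ μ i) → ∑ i, μ i < Real.sqrt 2 * m / 2 →
      (∃ δ : ℝ, 0 < δ ∧ ∀ v : R211.E3, ‖v‖ = 1 → ∑ j, μ (e j) + δ ≤
        (μHE[2] ((fun y => y - inner ℝ y v • v) '' convexHull ℝ
          ({o + E, o - E, o + A + B, o + A - B} : Set R211.E3))).toReal / 2) ∧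
      ∑ j, μ (e j) / (μHE[2] ((fun y => y - inner ℝ y (u (e j)) • u (e j)) '' convexHull ℝ
          ({o + E, o - E, o + A + B, o + A - B} : Set R211.E3))).toReal < 1 / 2 := by
    intro μ hμ0 hμ
    rw [← e.sum_comp] at hμ
    refine ⟨⟨Real.sqrt 2 * m / 2 - ∑ j, μ (e j), by linarith, fun v hv => ?_⟩, ?_⟩
    · rw [R211.prj_unit v hv]
      linarith [hmin v hv]
    · calc _ ≤ ∑ j, μ (e j) / (Real.sqrt 2 * m) := Finset.sum_le_sum fun j _ => by
            rw [R211.prj_unit _ (h1 _)]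
            exact div_le_div_of_nonneg_left (hμ0 _) hs (hmin _ (h1 _))
        _ < 1 / 2 := by
            rw [← Finset.sum_div, div_lt_iff₀ hs]; linarith
  constructor
  · refine ⟨Fintype.card ι, u ∘ e, c ∘ e, a ∘ e, b ∘ e, fun j => h1 _, fun j => h2 _, ?_, ?_⟩
    · intro z hz
      obtain ⟨i, hi⟩ := h3 z hz
      refine Set.mem_iUnion.2 ⟨e.symm i, ?_⟩
      simp only [Function.comp, Equiv.apply_symm_apply]
      exact hi
    · simp only [R211.measure_par_toReal]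
      exact key (fun i => R211.gram (a i) (b i)) (fun i => R211.gram_nonneg _ _) h4
  · obtain ⟨B', k1, k2, k3⟩ := R211.open_cover u h1
      (fun i => {x | ∃ s ∈ Set.Icc (0 : ℝ) 1, ∃ t ∈ Set.Icc (0 : ℝ) 1,
        x = c i + s • a i + t • b i}) (fun i => R211.isCompact_par _ _ _)
      (fun i x ⟨s, _, t, _, hx⟩ => hx ▸ R211.inner_aff (h2 i).1 (h2 i).2.1 (h2 i).2.2 s t)
      ((Real.sqrt 2 * m / 2 - ∑ i, R211.gram (a i) (b i)) / 2) (by linarith)
    simp only [R211.measure_par_toReal] at k3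
    refine ⟨Fintype.card ι, u ∘ e, B' ∘ e, fun j => h1 _, fun j => k2 _, ?_, ?_⟩
    · intro z hz
      obtain ⟨i, s, hs, t, ht, τ, hi⟩ := h3 z hz
      refine Set.mem_iUnion.2 ⟨e.symm i, ?_⟩
      simp only [Function.comp, Equiv.apply_symm_apply]
      exact ⟨_, k1 i ⟨s, hs, t, ht, rfl⟩, τ, hi⟩
    · exact key (fun i => (μHE[2] (B' i)).toReal) (fun i => ENNReal.toReal_nonneg) (by linarith)

end Crest.Agent.S0327
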