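import Crest.Statements.S0328
import Crest.Agent.R211.Sweep

set_option autoImplicit false
open MeasureTheory
open scoped ENNReal
open Crest Crest.GeometryTopology Crest.GeometryTopology.Convex

namespace Crest.Agent.S0328

/-- Unit e; a, b, p₀ ∈ e^⊥, a, b independent; α < β; L > 0; R ≥ 0, λ both continuous on [α, β]; w(t) ∈ e^⊥, w′ = λ(t)(a + tb). S = {p₀ + ρ(a + t b) + s(e + w t) : α ≤ t ≤ β, 0 ≤ ρ ≤ R t, ‖s‖ ≤ L}; A = κ ∫_α^β R²/(2√(1 + ‖w‖²)), κ = area spanned by a, b. For η > 0 a δ > 0 makes each partition t₀ < … < t_N of [α, β] of mesh ≤ δ, tags cᵢ, admit N cylinders (axes e + w(cᵢ), nondegenerate triangle bases) covering S, total area within η of A; same for S's pieces tᵢ ≤ t ≤ tᵢ₊₁ projected along these axes. -/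
theorem result
    (e a b p₀ : EuclideanSpace ℝ (Fin 3)) (he : ‖e‖ = 1)
    (ha : inner ℝ a e = 0) (hb : inner ℝ b e = 0) (hp₀ : inner ℝ p₀ e = 0)
    (hab : LinearIndependent ℝ ![a, b]) (L : ℝ) (hL : 0 < L) (α β : ℝ) (hαβ : α < β)
    (R : ℝ → ℝ) (hR : ContinuousOn R (Set.Icc α β)) (hR0 : ∀ t ∈ Set.Icc α β, 0 ≤ R t)
    (w : ℝ → EuclideanSpace ℝ (Fin 3)) (hw : ∀ t ∈ Set.Icc α β, inner ℝ (w t) e = 0)
    (lam : ℝ → ℝ) (hlam : ContinuousOn lam (Set.Icc α β))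
    (hw' : ∀ t ∈ Set.Icc α β, HasDerivWithinAt w (lam t • (a + t • b)) (Set.Icc α β) t)
    (η : ℝ) (hη : 0 < η) :
    ∃ δ : ℝ, 0 < δ ∧ ∀ (N : ℕ) (t : Fin (N + 1) → ℝ) (c : Fin N → ℝ),
      StrictMono t → t 0 = α → t (Fin.last N) = β →
      (∀ i : Fin N, t i.succ - t i.castSucc ≤ δ) →
      (∀ i : Fin N, t i.castSucc ≤ c i ∧ c i ≤ t i.succ) →
      (∃ (p q r : Fin N → EuclideanSpace ℝ (Fin 3)),
        (∀ i, inner ℝ (p i) (e + w (c i)) = 0 ∧ inner ℝ (q i) (e + w (c i)) = 0 ∧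
          inner ℝ (r i) (e + w (c i)) = 0) ∧
        (∀ i, AffineIndependent ℝ ![p i, q i, r i]) ∧
        {x : EuclideanSpace ℝ (Fin 3) | ∃ τ ∈ Set.Icc α β, ∃ ρ ∈ Set.Icc 0 (R τ), ∃ s : ℝ, abs s ≤ L ∧
            x = p₀ + ρ • (a + τ • b) + s • (e + w τ)} ⊆
          ⋃ i, {x : EuclideanSpace ℝ (Fin 3) | ∃ y ∈ convexHull ℝ {p i, q i, r i}, ∃ σ : ℝ,
            x = y + σ • (e + w (c i))} ∧
        abs ((∑ i, (μHE[2] (convexHull ℝ ({p i, q i, r i} : Set (EuclideanSpace ℝ (Fin 3))))).toReal) -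
            Real.sqrt (‖a‖ ^ 2 * ‖b‖ ^ 2 - inner ℝ a b ^ 2) *
              ∫ τ in α..β, R τ ^ 2 / (2 * Real.sqrt (1 + ‖w τ‖ ^ 2))) ≤ η) ∧
      abs ((∑ i : Fin N, (μHE[2] ((fun y => y - (inner ℝ y (e + w (c i)) / ‖e + w (c i)‖ ^ 2) • (e + w (c i))) ''
            {x : EuclideanSpace ℝ (Fin 3) | ∃ τ ∈ Set.Icc (t i.castSucc) (t i.succ), ∃ ρ ∈ Set.Icc 0 (R τ),
              ∃ s : ℝ, abs s ≤ L ∧ x = p₀ + ρ • (a + τ • b) + s • (e + w τ)})).toReal) -
          Real.sqrt (‖a‖ ^ 2 * ‖b‖ ^ 2 - inner ℝ a b ^ 2) *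
            ∫ τ in α..β, R τ ^ 2 / (2 * Real.sqrt (1 + ‖w τ‖ ^ 2))) ≤ η := by
  open Crest.Agent.R211 Set in
  have hκ : 0 < gram a b := gram_pos_of_linearIndependent a b hab
  change ∃ δ : ℝ, 0 < δ ∧ ∀ (N : ℕ) (t : Fin (N + 1) → ℝ) (c : Fin N → ℝ),
      StrictMono t → t 0 = α → t (Fin.last N) = β →
      (∀ i : Fin N, t i.succ - t i.castSucc ≤ δ) →
      (∀ i : Fin N, t i.castSucc ≤ c i ∧ c i ≤ t i.succ) →
      (∃ (p q r : Fin N → EuclideanSpace ℝ (Fin 3)),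
        (∀ i, inner ℝ (p i) (e + w (c i)) = 0 ∧ inner ℝ (q i) (e + w (c i)) = 0 ∧
          inner ℝ (r i) (e + w (c i)) = 0) ∧
        (∀ i, AffineIndependent ℝ ![p i, q i, r i]) ∧
        {x : EuclideanSpace ℝ (Fin 3) | ∃ τ ∈ Set.Icc α β, ∃ ρ ∈ Set.Icc 0 (R τ), ∃ s : ℝ, abs s ≤ L ∧
            x = p₀ + ρ • (a + τ • b) + s • (e + w τ)} ⊆
          ⋃ i, {x : EuclideanSpace ℝ (Fin 3) | ∃ y ∈ convexHull ℝ {p i, q i, r i}, ∃ σ : ℝ,
            x = y + σ • (e + w (c i))} ∧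
        abs ((∑ i, (μHE[2] (convexHull ℝ ({p i, q i, r i} : Set (EuclideanSpace ℝ (Fin 3))))).toReal) -
            R211.gram a b *
              ∫ τ in α..β, R τ ^ 2 / (2 * Real.sqrt (1 + ‖w τ‖ ^ 2))) ≤ η) ∧
      abs ((∑ i : Fin N, (μHE[2] (R211.prj (e + w (c i)) ''
            {x : EuclideanSpace ℝ (Fin 3) | ∃ τ ∈ Set.Icc (t i.castSucc) (t i.succ), ∃ ρ ∈ Set.Icc 0 (R τ),
              ∃ s : ℝ, abs s ≤ L ∧ x = p₀ + ρ • (a + τ • b) + s • (e + w τ)})).toReal) -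
          R211.gram a b *
            ∫ τ in α..β, R τ ^ 2 / (2 * Real.sqrt (1 + ‖w τ‖ ^ 2))) ≤ η
  set κ := R211.gram a b with hκdef
  set f : ℝ → ℝ := fun τ => R τ ^ 2 / (2 * Real.sqrt (1 + ‖w τ‖ ^ 2)) with hf
  have hwc : ContinuousOn w (Set.Icc α β) := fun t ht => (hw' t ht).continuousWithinAt
  have hsq : ∀ τ, 1 ≤ Real.sqrt (1 + ‖w τ‖ ^ 2) := fun τ =>
    Real.one_le_sqrt.2 (by nlinarith [sq_nonneg ‖w τ‖])
  have hfc : ContinuousOn f (Set.Icc α β) := by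
    refine (hR.pow 2).div (continuousOn_const.mul ((continuousOn_const.add
      (hwc.norm.pow 2)).sqrt)) fun τ _ => ?_
    have := hsq τ
    positivity
  obtain ⟨M, hM⟩ := isCompact_Icc.exists_bound_of_continuousOn hlam
  obtain ⟨Rm, hRm⟩ := isCompact_Icc.exists_bound_of_continuousOn hR
  have hαm : α ∈ Set.Icc α β := ⟨le_rfl, hαβ.le⟩
  have hM0 : 0 ≤ M := (norm_nonneg _).trans (hM α hαm)
  have hRm0 : 0 ≤ Rm := (norm_nonneg _).trans (hRm α hαm)
  have hT : 0 < β - α := sub_pos.2 hαβ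
  set ω : ℝ := min 1 (η / (κ * (3 + 2 * Rm) * (β - α))) with hω
  have hω0 : 0 < ω := lt_min one_pos (by positivity)
  have hω1 : ω ≤ 1 := min_le_left _ _
  have hωη : κ * (3 + 2 * Rm) * ω * (β - α) ≤ η := by
    have : ω ≤ η / (κ * (3 + 2 * Rm) * (β - α)) := min_le_right _ _
    rw [le_div_iff₀ (by positivity)] at this
    linarith
  obtain ⟨δ₁, hδ₁, hδ₁'⟩ := Metric.uniformContinuousOn_iff_le.1
    (isCompact_Icc.uniformContinuousOn_of_continuous hR) ω hω0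
  obtain ⟨δ₂, hδ₂, hδ₂'⟩ := Metric.uniformContinuousOn_iff_le.1
    (isCompact_Icc.uniformContinuousOn_of_continuous hfc) ω hω0
  set k : ℝ := L * M with hk
  have hk0 : 0 ≤ k := by positivity
  refine ⟨min (min δ₁ δ₂) (ω / (5 * k + 1)), lt_min (lt_min hδ₁ hδ₂) (by positivity), ?_⟩
  intro N t c ht h0 hN hmesh hc
  have htm : ∀ j, t j ∈ Set.Icc α β := fun j =>
    ⟨h0 ▸ ht.monotone (Fin.zero_le j), hN ▸ ht.monotone (Fin.le_last j)⟩
  have hsub : ∀ i : Fin N, Set.Icc (t i.castSucc) (t i.succ) ⊆ Set.Icc α β := fun i =>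
    Set.Icc_subset_Icc (htm _).1 (htm _).2
  have hcm : ∀ i, c i ∈ Set.Icc α β := fun i => hsub i (hc i)
  have hΔ : ∀ i : Fin N, 0 < t i.succ - t i.castSucc := fun i =>
    sub_pos.2 (ht Fin.castSucc_lt_succ)
  have hdist : ∀ (i : Fin N) τ, τ ∈ Set.Icc (t i.castSucc) (t i.succ) →
      |τ - c i| ≤ t i.succ - t i.castSucc := fun i τ hτ => by
    rw [abs_le]; constructor <;> linarith [hτ.1, hτ.2, (hc i).1, (hc i).2]
  have hRω : ∀ (i : Fin N) τ, τ ∈ Set.Icc (t i.castSucc) (t i.succ) → |R τ - R (c i)| ≤ ω :=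
    fun i τ hτ => hδ₁' τ (hsub i hτ) (c i) (hcm i)
      ((hdist i τ hτ).trans ((hmesh i).trans ((min_le_left _ _).trans (min_le_left _ _))))
  have hfω : ∀ (i : Fin N) τ, τ ∈ Set.Icc (t i.castSucc) (t i.succ) → |f τ - f (c i)| ≤ ω :=
    fun i τ hτ => hδ₂' τ (hsub i hτ) (c i) (hcm i)
      ((hdist i τ hτ).trans ((hmesh i).trans ((min_le_left _ _).trans (min_le_right _ _))))
  have hkΔ : ∀ i : Fin N, 5 * k * (t i.succ - t i.castSucc) ≤ ω := fun i => by
    have h1 : t i.succ - t i.castSucc ≤ ω / (5 * k + 1) := (hmesh i).trans (min_le_right _ _)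
    rw [le_div_iff₀ (by positivity)] at h1
    nlinarith [hΔ i]
  have hWn : ∀ i, ‖e + w (c i)‖ = Real.sqrt (1 + ‖w (c i)‖ ^ 2) := fun i =>
    R211.norm_add_orth e _ he (hw _ (hcm i))
  have hW : ∀ i, e + w (c i) ≠ 0 := fun i h => by
    have h1 := hWn i
    have h2 := hsq (c i)
    rw [h, norm_zero] at h1
    linarith
  have hdet : ∀ i, |R211.det3 (a + c i • b) b (e + w (c i))| = κ := fun i =>
    R211.det3_sweep e a b _ he ha hb (hw _ (hcm i)) _
  -- increments of w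
  have hinc : ∀ (i : Fin N) τ, τ ∈ Set.Icc (t i.castSucc) (t i.succ) → ∃ x z : ℝ,
      w τ = w (c i) + x • (a + c i • b) + z • b ∧ |x| ≤ M * (t i.succ - t i.castSucc) ∧
        |z| ≤ M * (t i.succ - t i.castSucc) ^ 2 := by
    intro i τ hτ
    have hu : Set.uIcc (c i) τ ⊆ Set.Icc (t i.castSucc) (t i.succ) :=
      Set.uIcc_subset_Icc (hc i) hτ
    have hu' : Set.uIcc (c i) τ ⊆ Set.Icc α β := hu.trans (hsub i)
    have hl1 : ContinuousOn lam (Set.uIcc (c i) τ) := hlam.mono hu'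
    have hl2 : ContinuousOn (fun s => lam s * (s - c i)) (Set.uIcc (c i) τ) :=
      hl1.mul (by fun_prop)
    have hftc : ∫ s in (c i)..τ, lam s • (a + s • b) = w τ - w (c i) := by
      refine intervalIntegral.integral_eq_sub_of_hasDeriv_right (hwc.mono hu') (fun x hx => ?_)
        ((hl1.smul (by fun_prop)).intervalIntegrable)
      have hx1 : α < x := lt_of_le_of_lt (le_min (hcm i).1 (hsub i hτ).1) hx.1
      have hx2 : x < β := lt_of_lt_of_le hx.2 (max_le (hcm i).2 (hsub i hτ).2)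
      exact ((hw' x ⟨hx1.le, hx2.le⟩).hasDerivAt (Icc_mem_nhds hx1 hx2)).hasDerivWithinAt
    refine ⟨∫ s in (c i)..τ, lam s, ∫ s in (c i)..τ, lam s * (s - c i), ?_, ?_, ?_⟩
    · rw [← intervalIntegral.integral_smul_const, ← intervalIntegral.integral_smul_const,
        add_assoc, ← intervalIntegral.integral_add
          ((hl1.fun_smul continuousOn_const).intervalIntegrable)
          ((hl2.fun_smul continuousOn_const).intervalIntegrable), ← sub_eq_iff_eq_add', ← hftc]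
      congr 1
      ext1 s
      module
    · have := intervalIntegral.norm_integral_le_of_norm_le_const (a := c i) (b := τ) (f := lam)
        (C := M) (fun x hx => hM x (hu' (Set.uIoc_subset_uIcc hx)))
      refine this.trans ?_
      gcongr
      exact hdist i τ hτ
    · have := intervalIntegral.norm_integral_le_of_norm_le_const (a := c i) (b := τ)
        (f := fun s => lam s * (s - c i)) (C := M * (t i.succ - t i.castSucc)) (fun x hx => by
          rw [norm_mul]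
          exact mul_le_mul (hM x (hu' (Set.uIoc_subset_uIcc hx)))
            (hdist i x (hu (Set.uIoc_subset_uIcc hx))) (norm_nonneg _) hM0)
      refine this.trans ?_
      rw [sq, ← mul_assoc]
      have := hΔ i
      gcongr
      exact hdist i τ hτ
  have hH : ∀ i, 0 < R (c i) + 2 * ω := fun i => by linarith [hR0 _ (hcm i)]
  have hsum : ∀ i : Fin N, c i - t i.castSucc + (t i.succ - c i) = t i.succ - t i.castSucc :=
    fun i => by ring
  choose p q r hp hq hr hgram hmem using fun i : Fin N => R211.piece p₀ (a + c i • b) b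
    (e + w (c i)) (hW i) (c i - t i.castSucc) (t i.succ - c i) k (R (c i) + 2 * ω)
    (sub_nonneg.2 (hc i).1) (sub_nonneg.2 (hc i).2) (by rw [hsum]; exact hΔ i) hk0 (hH i)
  simp only [hsum, hdet, hWn] at hgram hmem
  have hin : ∀ (i : Fin N) τ, τ ∈ Set.Icc (t i.castSucc) (t i.succ) → ∀ ρ ∈ Set.Icc 0 (R τ),
      ∀ s : ℝ, |s| ≤ L → R211.prj (e + w (c i)) (p₀ + ρ • (a + τ • b) + s • (e + w τ)) ∈
        convexHull ℝ ({p i, q i, r i} : Set (EuclideanSpace ℝ (Fin 3))) := by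
    intro i τ hτ ρ hρ s hs
    obtain ⟨x, z, hwτ, hx, hz⟩ := hinc i τ hτ
    have e1 : p₀ + ρ • (a + τ • b) + s • (e + w τ) =
        p₀ + (ρ + s * x) • (a + c i • b) + (ρ * (τ - c i) + s * z) • b + s • (e + w (c i)) := by
      rw [hwτ]; module
    rw [e1, R211.prj_add_smul _ _ (hW i)]
    refine hmem i _ _ ρ (τ - c i) hρ.1 ?_ (by linarith [hτ.1]) (by linarith [hτ.2]) ?_ ?_
    · linarith [hρ.2, (abs_le.1 (hRω i τ hτ)).2, hkΔ i]
    · rw [add_sub_cancel_left, abs_mul, hk, mul_assoc]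
      exact mul_le_mul hs hx (abs_nonneg _) hL.le
    · rw [add_sub_cancel_left, abs_mul, hk, mul_assoc]
      exact mul_le_mul hs hz (abs_nonneg _) hL.le
  -- numerical comparison
  set G : ℝ → ℝ := fun x => κ * ∫ τ in α..x, f τ with hG
  have hint : ∀ x ∈ Set.Icc α β, ∀ y ∈ Set.Icc α β, IntervalIntegrable f volume x y :=
    fun x hx y hy => (hfc.mono (Set.uIcc_subset_Icc hx hy)).intervalIntegrable
  have hnum : ∀ (i : Fin N) (μ : ℝ),
      (max (R (c i) - ω) 0) ^ 2 * (t i.succ - t i.castSucc) * κ /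
        Real.sqrt (1 + ‖w (c i)‖ ^ 2) / 2 ≤ μ →
      μ ≤ (R (c i) + 2 * ω) ^ 2 * (t i.succ - t i.castSucc) * κ /
        Real.sqrt (1 + ‖w (c i)‖ ^ 2) / 2 →
      |μ - (G (t i.succ) - G (t i.castSucc))| ≤
        κ * (3 + 2 * Rm) * ω * (t i.succ - t i.castSucc) := by
    intro i μ h1 h2
    have e1 : G (t i.succ) - G (t i.castSucc) = κ * ∫ τ in (t i.castSucc)..(t i.succ), f τ := by
      simp only [hG]
      rw [← mul_sub, intervalIntegral.integral_interval_sub_left (hint _ hαm _ (htm _))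
        (hint _ hαm _ (htm _))]
    have e2 : |(∫ τ in (t i.castSucc)..(t i.succ), f τ) - (t i.succ - t i.castSucc) * f (c i)| ≤
        ω * (t i.succ - t i.castSucc) := by
      have := intervalIntegral.norm_integral_le_of_norm_le_const (a := t i.castSucc)
        (b := t i.succ) (f := fun τ => f τ - f (c i)) (C := ω) (fun x hx => by
          rw [Set.uIoc_of_le (by linarith [hΔ i])] at hx
          exact hfω i x (Set.Ioc_subset_Icc_self hx))
      rw [intervalIntegral.integral_sub (hint _ (htm _) _ (htm _)) (by simp),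
        intervalIntegral.integral_const, abs_of_pos (hΔ i)] at this
      exact this
    set Δ := t i.succ - t i.castSucc with hΔi
    have hΔ0 : 0 < Δ := hΔ i
    set n := Real.sqrt (1 + ‖w (c i)‖ ^ 2) with hn
    have hn1 : 1 ≤ n := hsq _
    set ρ := R (c i) with hρ
    have hρ0 : 0 ≤ ρ := hR0 _ (hcm i)
    have hρm : ρ ≤ Rm := (le_abs_self _).trans (hRm _ (hcm i))
    have hfc' : f (c i) = ρ ^ 2 / (2 * n) := rfl
    have hn0 : 0 < n := by linarith
    have b1 : (ρ + 2 * ω) ^ 2 * Δ * κ / n / 2 ≤ κ * (Δ * f (c i)) + κ * (2 + 2 * Rm) * ω * Δ := by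
      have : (ρ + 2 * ω) ^ 2 * Δ * κ / n / 2 =
          κ * (Δ * f (c i)) + κ * Δ * ((2 * ρ * ω + 2 * ω ^ 2) / n) := by
        rw [hfc']; field_simp; ring
      rw [this]
      have h3 : (2 * ρ * ω + 2 * ω ^ 2) / n ≤ (2 + 2 * Rm) * ω := by
        refine (div_le_self (by positivity) hn1).trans ?_
        nlinarith
      have h4 := mul_le_mul_of_nonneg_left h3 (by positivity : 0 ≤ κ * Δ)
      linarith
    have b2 : κ * (Δ * f (c i)) - κ * (2 + 2 * Rm) * ω * Δ ≤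
        (max (ρ - ω) 0) ^ 2 * Δ * κ / n / 2 := by
      have : (max (ρ - ω) 0) ^ 2 * Δ * κ / n / 2 =
          κ * (Δ * f (c i)) - κ * Δ * (((ρ ^ 2 - (max (ρ - ω) 0) ^ 2) / 2) / n) := by
        rw [hfc']; field_simp; ring
      rw [this]
      have h5 : 0 ≤ ρ ^ 2 - (max (ρ - ω) 0) ^ 2 ∧ ρ ^ 2 - (max (ρ - ω) 0) ^ 2 ≤ 2 * ρ * ω := by
        rcases le_total (ρ - ω) 0 with h | h
        · rw [max_eq_right h]; constructor <;> nlinarith
        · rw [max_eq_left h]; constructor <;> nlinarith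
      have h3 : ((ρ ^ 2 - (max (ρ - ω) 0) ^ 2) / 2) / n ≤ (2 + 2 * Rm) * ω := by
        refine (div_le_self (by linarith [h5.1]) hn1).trans ?_
        nlinarith [h5.2]
      have h4 := mul_le_mul_of_nonneg_left h3 (by positivity : 0 ≤ κ * Δ)
      linarith
    rw [e1]
    obtain ⟨e3, e4⟩ := abs_le.1 e2
    have e5 := mul_le_mul_of_nonneg_left e3 hκ.le
    have e6 := mul_le_mul_of_nonneg_left e4 hκ.le
    rw [abs_le]
    constructor <;> nlinarith
  have hfinal : ∀ μ : Fin N → ℝ, (∀ i, |μ i - (G (t i.succ) - G (t i.castSucc))| ≤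
        κ * (3 + 2 * Rm) * ω * (t i.succ - t i.castSucc)) →
      |∑ i, μ i - κ * ∫ τ in α..β, f τ| ≤ η := by
    intro μ hμ
    have := R211.sum_approx t (fun j => G (t j)) μ _ hμ
    simp only [h0, hN, hG, intervalIntegral.integral_same, mul_zero, sub_zero] at this
    exact this.trans hωη
  have hlow : ∀ i : Fin N, (max (R (c i) - ω) 0) ^ 2 * (t i.succ - t i.castSucc) * κ /
        Real.sqrt (1 + ‖w (c i)‖ ^ 2) / 2 ≤ (R (c i) + 2 * ω) ^ 2 * (t i.succ - t i.castSucc) * κ /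
        Real.sqrt (1 + ‖w (c i)‖ ^ 2) / 2 := fun i => by
    have := hΔ i
    have := hsq (c i)
    have := hH i
    gcongr
    exact max_le (by linarith) this.le
  refine ⟨⟨p, q, r, fun i => ⟨hp i, hq i, hr i⟩, fun i => ?_, ?_, ?_⟩, ?_⟩
  · refine R211.affineIndependent_of_gram _ _ _ ?_
    rw [hgram]
    have := hΔ i
    have := hsq (c i)
    have := hH i
    positivity
  · rintro x ⟨τ, hτ, ρ, hρ, s, hs, rfl⟩
    obtain ⟨i, hi⟩ := R211.exists_piece t τ (h0 ▸ hτ.1) (hN ▸ hτ.2) (by rw [h0, hN]; exact hαβ)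
    exact Set.mem_iUnion.2 ⟨i, R211.mem_cyl _ _ _ (hin i τ hi ρ hρ s hs)⟩
  · refine hfinal _ fun i => hnum i _ ?_ ?_
    · rw [R211.measure_triangle_toReal, hgram]; exact hlow i
    · rw [R211.measure_triangle_toReal, hgram]
  · refine hfinal _ fun i => ?_
    have hup : μHE[2] (R211.prj (e + w (c i)) ''
        {x : EuclideanSpace ℝ (Fin 3) | ∃ τ ∈ Set.Icc (t i.castSucc) (t i.succ),
          ∃ ρ ∈ Set.Icc 0 (R τ), ∃ s : ℝ, abs s ≤ L ∧
            x = p₀ + ρ • (a + τ • b) + s • (e + w τ)}) ≤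
        μHE[2] (convexHull ℝ ({p i, q i, r i} : Set (EuclideanSpace ℝ (Fin 3)))) := by
      refine measure_mono ?_
      rintro _ ⟨x, ⟨τ, hτ, ρ, hρ, s, hs, rfl⟩, rfl⟩
      exact hin i τ hτ ρ hρ s hs
    have hfin : μHE[2] (convexHull ℝ ({p i, q i, r i} : Set (EuclideanSpace ℝ (Fin 3)))) ≠ ⊤ := by
      rw [R211.measure_triangle]; exact ENNReal.ofReal_ne_top
    refine hnum i _ ?_ ?_
    · have := R211.low_piece p₀ (a + c i • b) b (e + w (c i)) (hW i) (c i - t i.castSucc)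
        (t i.succ - c i) (max (R (c i) - ω) 0) (sub_nonneg.2 (hc i).1) (sub_nonneg.2 (hc i).2)
        (le_max_right _ _)
        {x : EuclideanSpace ℝ (Fin 3) | ∃ τ ∈ Set.Icc (t i.castSucc) (t i.succ),
          ∃ ρ ∈ Set.Icc 0 (R τ), ∃ s : ℝ, abs s ≤ L ∧
            x = p₀ + ρ • (a + τ • b) + s • (e + w τ)}
        (fun ρ σ h1 h2 h3 h4 => by
          have hτ : c i + σ ∈ Set.Icc (t i.castSucc) (t i.succ) := ⟨by linarith, by linarith⟩
          refine ⟨c i + σ, hτ, ρ, ⟨h1, h2.trans (max_le ?_ (hR0 _ (hsub i hτ)))⟩, 0,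
            by simpa using hL.le, by module⟩
          linarith [(abs_le.1 (hRω i _ hτ)).1])
      rw [hsum, hdet, hWn] at this
      exact (ENNReal.ofReal_le_iff_le_toReal (ne_top_of_le_ne_top hfin hup)).1 this
    · have := ENNReal.toReal_mono hfin hup
      rw [R211.measure_triangle_toReal, hgram] at this
      exact this

end Crest.Agent.S0328
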