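import Crest.Statements.S0329
import Crest.Agent.R211.Ruled
import Crest.Agent.R211.Open

set_option autoImplicit false
open MeasureTheory
open scoped ENNReal
open Crest Crest.GeometryTopology Crest.GeometryTopology.Convex

namespace Crest.Agent.S0329

/-- Let h, M > 0, D ⊂ ℝ² be compact with Lebesgue-null boundary, and V : ℝ² → ℝ² be C¹ on an open set containing D with tr DV(p) = 0 and −1/M² < det DV(p) < 0 for p ∈ D. For every ε > 0 the set of points (x, p₁ + x V₁(p), h (p₂ + x V₂(p))) ∈ ℝ³ with p ∈ D, −M ≤ x ≤ M is covered by finitely many cylinders Bᵢ + ℝ uᵢ, ‖uᵢ‖ = 1, with bases Bᵢ bounded relatively open subsets of the planes uᵢ^⊥ and ∑ᵢ area(Bᵢ) ≤ h ∫_D (1 + V₁² + h² V₂²)^(−1/2) + ε (areas: normalised 2-dimensional Hausdorff measure). -/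
theorem result
    (h M : ℝ) (hh : 0 < h) (hM : 0 < M) (D : Set (EuclideanSpace ℝ (Fin 2))) (hD : IsCompact D)
    (hbd : volume (frontier D) = 0)
    (V : EuclideanSpace ℝ (Fin 2) → EuclideanSpace ℝ (Fin 2)) (U : Set (EuclideanSpace ℝ (Fin 2)))
    (hU : IsOpen U) (hDU : D ⊆ U) (hV : ContDiffOn ℝ 1 V U)
    (htr : ∀ p ∈ D, LinearMap.trace ℝ _ (fderiv ℝ V p).toLinearMap = 0)
    (hdet : ∀ p ∈ D, -(M ^ 2)⁻¹ < LinearMap.det (fderiv ℝ V p).toLinearMap ∧
      LinearMap.det (fderiv ℝ V p).toLinearMap < 0)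
    (ε : ℝ) (hε : 0 < ε) :
    ∃ (k : ℕ) (u : Fin k → EuclideanSpace ℝ (Fin 3)) (B : Fin k → Set (EuclideanSpace ℝ (Fin 3))),
      (∀ i, ‖u i‖ = 1) ∧
      (∀ i, Bornology.IsBounded (B i) ∧ ∃ O : Set (EuclideanSpace ℝ (Fin 3)), IsOpen O ∧
        B i = O ∩ {x | inner ℝ x (u i) = 0}) ∧
      {z : EuclideanSpace ℝ (Fin 3) | ∃ p ∈ D, ∃ x : ℝ, abs x ≤ M ∧
          z = !₂[x, p 0 + x * V p 0, h * (p 1 + x * V p 1)]} ⊆
        ⋃ i, {z : EuclideanSpace ℝ (Fin 3) | ∃ y ∈ B i, ∃ τ : ℝ, z = y + τ • u i} ∧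
      ∑ i, (μHE[2] (B i)).toReal ≤
        h * (∫ p in D, 1 / Real.sqrt (1 + (V p 0) ^ 2 + h ^ 2 * (V p 1) ^ 2)) + ε := by
  obtain ⟨ι, fin, c, a, b, g, h1, h2, h3⟩ :=
    R211.global_cov D hD V U hU hDU hV M h hM htr (fun p hp => ⟨(hdet p hp).1, (hdet p hp).2.le⟩)
      (ε / (2 * h)) (by positivity)
  let C : ι → R211.E3 := fun i => !₂[0, c i 0, h * c i 1]
  let A : ι → R211.E3 := fun i => !₂[0, a i 0, h * a i 1]
  let B : ι → R211.E3 := fun i => !₂[0, b i 0, h * b i 1]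
  let W : ι → R211.E3 := fun i => !₂[1, g i 0, h * g i 1]
  have hWn : ∀ i, ‖W i‖ = Real.sqrt (1 + g i 0 ^ 2 + h ^ 2 * g i 1 ^ 2) := fun i => by
    rw [← Real.sqrt_sq (norm_nonneg (W i)), R211.normsq3]
    congr 1
    simp [W]; ring
  have hW : ∀ i, W i ≠ 0 := fun i h0 => by
    have := hWn i
    have := R211.one_le_sqrtJ h (g i)
    rw [h0, norm_zero] at *
    linarith
  obtain ⟨B', k1, k2, k3⟩ := R211.open_cover (fun i => R211.unit (W i))
    (fun i => R211.norm_unit (hW i))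
    (fun i => {x | ∃ s ∈ Set.Icc (0 : ℝ) 1, ∃ t ∈ Set.Icc (0 : ℝ) 1,
      x = R211.prj (W i) (C i) + s • R211.prj (W i) (A i) + t • R211.prj (W i) (B i)})
    (fun i => R211.isCompact_par _ _ _)
    (fun i x ⟨s, _, t, _, hx⟩ => hx ▸ R211.inner_unit (R211.inner_aff
      (R211.inner_prj _ _ (hW i)) (R211.inner_prj _ _ (hW i)) (R211.inner_prj _ _ (hW i)) s t))
    (ε / 2) (by positivity)
  let e := (Fintype.equivFin ι).symm
  refine ⟨Fintype.card ι, fun j => R211.unit (W (e j)), B' ∘ e, fun j => R211.norm_unit (hW _),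
    fun j => k2 (e j), ?_, ?_⟩
  · rintro z ⟨p, hp, s, hs, rfl⟩
    obtain ⟨i, x, hx, y, hy, hi⟩ := h2 p hp s hs
    refine Set.mem_iUnion.2 ⟨e.symm i, ?_⟩
    simp only [Function.comp, Equiv.apply_symm_apply]
    have e1 : (!₂[s, p 0 + s * V p 0, h * (p 1 + s * V p 1)] : R211.E3) =
        R211.aff (C i) (A i) (B i) (x, y) + s • W i := by
      have q0 := congrArg (fun v : R211.E2 => v 0) hi
      have q1 := congrArg (fun v : R211.E2 => v 1) hi
      simp only [PiLp.add_apply, PiLp.smul_apply, smul_eq_mul] at q0 q1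
      ext j
      fin_cases j <;> simp [R211.aff, C, A, B, W]
      · exact q0
      · rw [q1]; ring
    obtain ⟨y', hy', σ, hσ⟩ := R211.mem_cyl (W i) (!₂[s, p 0 + s * V p 0, h * (p 1 + s * V p 1)])
      (B' i) (k1 i ⟨x, hx, y, hy, by rw [e1, R211.prj_add_smul _ _ (hW i), R211.prj_aff]; rfl⟩)
    exact ⟨y', hy', σ * ‖W i‖, by rw [hσ, R211.smul_unit (hW i)]⟩
  · have e2 : ∑ j, (μHE[2] ((B' ∘ e) j)).toReal = ∑ i, (μHE[2] (B' i)).toReal :=
      e.sum_comp (fun i => (μHE[2] (B' i)).toReal)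
    rw [e2]
    refine k3.trans ?_
    have e3 : ∀ i, R211.gram (R211.prj (W i) (A i)) (R211.prj (W i) (B i)) =
        h * (‖a i‖ ^ 2 * R211.Jc h (g i)) := fun i => by
      rw [R211.gram_prj _ _ _ (hW i), hWn, R211.Jc]
      have d1 : R211.det3 (A i) (B i) (W i) = h * (a i 0 * b i 1 - a i 1 * b i 0) := by
        simp [R211.det3, A, B, W]; ring
      have d2 : |a i 0 * b i 1 - a i 1 * b i 0| = ‖a i‖ ^ 2 := by
        obtain ⟨-, n1, n2⟩ := h1 i
        have n3 := R211.normsq2 (b i)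
        rw [n1] at n3
        have n4 := R211.normsq2 (a i)
        rw [R211.inner2] at n2
        rw [← Real.sqrt_sq_eq_abs, ← Real.sqrt_sq (sq_nonneg ‖a i‖)]
        congr 1
        linear_combination (-(a i 0 * b i 0 + a i 1 * b i 1)) * n2 - ‖a i‖ ^ 2 * n3 -
          (b i 0 ^ 2 + b i 1 ^ 2) * n4
      rw [d1, abs_mul, abs_of_pos hh, d2]
      ring
    simp only [R211.measure_par_toReal, e3]
    rw [← Finset.mul_sum]
    have h4 := mul_le_mul_of_nonneg_left h3 hh.le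
    have h5 : h * (ε / (2 * h)) = ε / 2 := by field_simp
    simp only [R211.Jc] at h4 ⊢
    linarith

end Crest.Agent.S0329
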