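import Crest.Statements.S0351
import Crest.Agent.R227.Main

set_option autoImplicit false
open Crest.LubinTate
open Crest Crest.GeometryTopology

namespace Crest.Agent.S0351

/-- Let p be prime, n ≥ 1, k the field with p^n elements, Γ a commutative formal group law over k with p-series X^(p^n), H a universal deformation of Γ over E₀ = W(k)[[u₁,…,u_{n-1}]], and M ≥ 1. Put I_0(H) = 0 and let I_{h+1}(H) be generated by I_h(H) and the coefficient of X^(p^h) in the p-series of H. An ideal of E₀ stable under all automorphisms of Γ congruent to X modulo X^M is prime exactly when it is one of I_0(H), …, I_n(H), and radical exactly when it is one of these or all of E₀. -/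
theorem result
    (p : ℕ) [Fact p.Prime] (n : ℕ) (hn : 1 ≤ n)
    (Γ : FormalGroup (GaloisField p n)) [Γ.IsComm]
    (hΓ : mulSeries Γ p = PowerSeries.X ^ (p ^ n))
    (H : FormalGroup (LTRing p n)) [H.IsComm] (hH : IsUniversalDeformation p n Γ H)
    (M : ℕ) (hM : 1 ≤ M) :
    (∀ P : Ideal (LTRing p n),
        (P.IsPrime ∧ IsStableIdeal p n Γ H M P) ↔ ∃ h : ℕ, h ≤ n ∧ P = heightIdeal p n H h) ∧
    (∀ J : Ideal (LTRing p n),
        (J.IsRadical ∧ IsStableIdeal p n Γ H M J) ↔
          (∃ h : ℕ, h ≤ n ∧ J = heightIdeal p n H h) ∨ J = ⊤) := by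
  obtain ⟨h1, h2⟩ := Crest.R227.classification hn Γ hΓ H hH M hM
  refine ⟨fun P => ⟨fun ⟨hP, hS⟩ => h2 P hP.isRadical hP.ne_top hS, ?_⟩,
    fun J => ⟨fun ⟨hJ, hS⟩ => ?_, ?_⟩⟩
  · rintro ⟨h, hh, rfl⟩
    exact h1 h hh
  · by_cases htop : J = ⊤
    · exact Or.inr htop
    · exact Or.inl (h2 J hJ htop hS)
  · rintro (⟨h, hh, rfl⟩ | rfl)
    · exact ⟨(h1 h hh).1.isRadical, (h1 h hh).2⟩
    · exact ⟨le_top, fun _ _ _ _ _ => Ideal.comap_top⟩

end Crest.Agent.S0351
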