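import Crest.Statements.S0378
import Crest.Agent.R245.Final

set_option autoImplicit false
open Crest Crest.GeometryTopology

namespace Crest.Agent.S0378

/-- There are an open connected contractible U ⊆ ℂ³ (as Fin 3 → ℂ), a smooth positive definite Hermitian metric on U (HermitianMetricOn) that is Kähler and complete for its induced distance, and constants 0 < A ≤ B with every sectional curvature of the underlying Riemannian metric, at each point of U and each real two-plane, in [-B, -A]; and every map ℂ³ → ℂ³ that is complex differentiable on U with bounded image of U has a point of U where the determinant of its complex derivative vanishes. -/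
theorem result :
    ∃ U : Set (Fin 3 → ℂ), IsOpen U ∧ IsConnected U ∧ ContractibleSpace U ∧
      ∃ g : Crest.GeometryTopology.HermitianMetricOn 3 U, g.IsKahler ∧ g.IsComplete ∧
        (∃ A B : ℝ, 0 < A ∧ A ≤ B ∧ ∀ p ∈ U, ∀ X Y : (Fin 3 → ℂ),
          g.riem p X X * g.riem p Y Y - g.riem p X Y ^ 2 ≠ 0 →
            -B ≤ g.sectional p X Y ∧ g.sectional p X Y ≤ -A) ∧
        ∀ F : (Fin 3 → ℂ) → (Fin 3 → ℂ), DifferentiableOn ℂ F U → Bornology.IsBounded (F '' U) →
          ∃ p ∈ U, (fderiv ℂ F p).det = 0 := by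
  obtain ⟨a₀, κ₀, ha, ha1, hκ, hκ1, h⟩ := R245.exists_mod
  obtain ⟨P₀, hP₀⟩ := h κ₀ hκ le_rfl
  have hP : ∀ _ : ℕ, R245.Mod a₀ κ₀ P₀ := fun _ => hP₀
  have hok : ∀ _ : ℕ, P₀.OK := fun _ => hP₀.ok
  obtain ⟨g, hK, hC, hs, -⟩ := R245.main_metric (P := fun _ => P₀) (κ := fun _ => κ₀) hP
  have hU := R245.isOpen_UU (P := fun _ => P₀) hok
  obtain ⟨Φ, Ψ, hΦ, hΨ, hr, hl⟩ := R245.exists_diffeo (P := fun _ => P₀) hok
  have hmem : ∀ x, Φ x ∈ R245.UU (fun _ => P₀) := fun x => hr ▸ ⟨x, rfl⟩
  refine ⟨_, hU, ?_, ?_, g, hK, hC, ⟨1, 3000 / (a₀ * κ₀) * 4000, one_pos, ?_, fun p hp X Y hXY => ?_⟩, ?_⟩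
  · rw [← hr]; exact isConnected_range hΦ.continuous
  · let e : (Fin 3 → ℂ) ≃ₜ R245.UU (fun _ => P₀) :=
      { toFun := fun x => ⟨Φ x, hmem x⟩
        invFun := fun y => Ψ y
        left_inv := hl
        right_inv := fun y => by
          obtain ⟨y, hy⟩ := y
          rw [← hr] at hy
          obtain ⟨x, rfl⟩ := hy
          exact Subtype.ext (by simp [hl])
        continuous_toFun := hΦ.continuous.subtype_mk _
        continuous_invFun := hΨ.continuousOn.restrict }
    exact e.symm.contractibleSpace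
  · have h1 : a₀ * κ₀ ≤ 1 := by nlinarith
    have h2 : 3000 ≤ 3000 / (a₀ * κ₀) := by
      rw [le_div_iff₀ (by positivity)]; nlinarith
    linarith
  · obtain ⟨_, hk⟩ := hs p hp
    exact hk X Y hXY
  · intro F hF hb
    refine ⟨Φ 0, hmem 0, ?_⟩
    have hc : F =ᶠ[nhds (Φ 0)] fun _ => F (Φ 0) := by
      filter_upwards [hU.mem_nhds (hmem 0)] with y hy
      funext i
      refine R245.liouville' hok (f := fun x => F x i) (differentiableOn_pi.1 hF i) ?_ y hy _ (hmem 0)
      obtain ⟨C, hC⟩ := hb.exists_norm_le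
      refine isBounded_iff_forall_norm_le.2 ⟨C, ?_⟩
      rintro _ ⟨x, hx, rfl⟩
      exact (norm_le_pi_norm (F x) i).trans (hC _ ⟨x, hx, rfl⟩)
    rw [hc.fderiv_eq]
    simp [ContinuousLinearMap.det]

end Crest.Agent.S0378
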