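import Crest.Statements.S0379
import Crest.Agent.R245.Final

set_option autoImplicit false
open scoped ContDiff
open Crest Crest.GeometryTopology

namespace Crest.Agent.S0379

/-- For some integer m ≥ 2 there are an open U ⊆ ℂ^m (as Fin m → ℂ) that is diffeomorphic to ℝ^{2m} (a smooth map of ℂ^m onto U with a smooth inverse on U), and a smooth Hermitian metric on U (HermitianMetricOn) that is Kähler and complete for its induced distance, whose sectional curvatures (each point of U, each non-degenerate real two-plane) are all at most -1 and are not bounded below, such that every function ℂ^m → ℂ that is complex differentiable on U and bounded on U is constant on U. -/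
theorem result :
    ∃ m : ℕ, 2 ≤ m ∧ ∃ U : Set (Fin m → ℂ), IsOpen U ∧
      (∃ Φ Ψ : (Fin m → ℂ) → (Fin m → ℂ), ContDiff ℝ ∞ Φ ∧ ContDiffOn ℝ ∞ Ψ U ∧
        Set.range Φ = U ∧ ∀ x, Ψ (Φ x) = x) ∧
      ∃ g : Crest.GeometryTopology.HermitianMetricOn m U, g.IsKahler ∧ g.IsComplete ∧
        (∀ p ∈ U, ∀ X Y : (Fin m → ℂ), g.riem p X X * g.riem p Y Y - g.riem p X Y ^ 2 ≠ 0 →
          g.sectional p X Y ≤ -1) ∧
        (∀ B : ℝ, ∃ p ∈ U, ∃ X Y : (Fin m → ℂ),
          g.riem p X X * g.riem p Y Y - g.riem p X Y ^ 2 ≠ 0 ∧ g.sectional p X Y < B) ∧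
        ∀ f : (Fin m → ℂ) → ℂ, DifferentiableOn ℂ f U → Bornology.IsBounded (f '' U) →
          ∀ p ∈ U, ∀ q ∈ U, f p = f q := by
  obtain ⟨a₀, κ₀, ha, ha1, hκ, hκ1, h⟩ := R245.exists_mod
  have hpos : ∀ k : ℕ, 0 < κ₀ / (k + 1) := fun k => by positivity
  have hle : ∀ k : ℕ, κ₀ / (k + 1) ≤ κ₀ := fun k =>
    div_le_self hκ.le (by have : (0 : ℝ) ≤ k := Nat.cast_nonneg k; linarith)
  choose P hP using fun k : ℕ => h _ (hpos k) (hle k)
  have hok : ∀ k, (P k).OK := fun k => (hP k).ok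
  obtain ⟨g, hK, hC, hs, hb⟩ := R245.main_metric (κ := fun k : ℕ => κ₀ / (k + 1)) hP
  refine ⟨3, by norm_num, _, R245.isOpen_UU hok, R245.exists_diffeo hok, g, hK, hC,
    fun p hp X Y hXY => ?_, fun B => ?_, fun f hf hfb => R245.liouville' hok hf hfb⟩
  · obtain ⟨_, hk⟩ := hs p hp
    exact (hk X Y hXY).2
  · obtain ⟨k, hk⟩ := exists_nat_gt (-B)
    obtain ⟨p, hp, X, Y, h0, h1⟩ := hb k
    refine ⟨p, hp, X, Y, h0, h1.trans_lt ?_⟩
    have h2 : (k : ℝ) + 1 ≤ 1 / (κ₀ / (k + 1)) := by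
      rw [one_div_div, le_div_iff₀ hκ]
      have : (0 : ℝ) ≤ k := Nat.cast_nonneg k
      nlinarith
    have : (0 : ℝ) ≤ k := Nat.cast_nonneg k
    nlinarith

end Crest.Agent.S0379
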