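import Crest.Statements.S0438
import Crest.Agent.R290.PLGame
import Crest.Agent.R290.PLCol

set_option autoImplicit false
open Crest.WLRefine Crest.WLRefine.ParityLift
open Crest Crest.LogicCS

namespace Crest.Agent.S0438

/-- Fix k ≥ 4; t = k+1 (joint updates) or k (separate). For every choice system on t domains the two parity lifts of its base graph (parities all even, versus odd at main type 0) are simple with equally many vertices — ≤ A·(t·2^(t−2+3·C(t−1,2)) + 12·C(t,3)) if domains and label sets have size ≤ A —, and are k-dimensionally equivalent, also by pure tuples in the disjoint union, exactly when no successful choice exists; a successful one shows at round 2 joint (1 separate) in both comparisons. -/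
theorem result (k : ℕ) (hk : 4 ≤ k) :
    (∀ C : ChoiceSystem (k + 1),
      IsSimple (asMatrix (liftAdj C (lift0Parity (k + 1)))) ∧ IsSimple (asMatrix (liftAdj C (liftStarParity (k + 1)))) ∧
      Fintype.card (LiftV C (lift0Parity (k + 1))) = Fintype.card (LiftV C (liftStarParity (k + 1))) ∧
      (∀ A : ℕ, 1 ≤ A → C.SizeAtMost A →
        Fintype.card (LiftV C (lift0Parity (k + 1))) ≤ A * orderFactor (k + 1)) ∧
      (JEquiv k (asMatrix (liftAdj C (lift0Parity (k + 1)))) (asMatrix (liftAdj C (liftStarParity (k + 1)))) ↔ ¬ C.Successful) ∧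
      (PureJEquiv k (asMatrix (liftAdj C (lift0Parity (k + 1)))) (asMatrix (liftAdj C (liftStarParity (k + 1)))) ↔ ¬ C.Successful) ∧
      (C.Successful → (Finset.univ.val.map (jcolor (asMatrix (liftAdj C (lift0Parity (k + 1)))) k 2)) ≠
          Finset.univ.val.map (jcolor (asMatrix (liftAdj C (liftStarParity (k + 1)))) k 2) ∧
        ¬ PureJHistEq k 2 (asMatrix (liftAdj C (lift0Parity (k + 1)))) (asMatrix (liftAdj C (liftStarParity (k + 1)))))) ∧
    (∀ C : ChoiceSystem k,
      IsSimple (asMatrix (liftAdj C (lift0Parity k))) ∧ IsSimple (asMatrix (liftAdj C (liftStarParity k))) ∧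
      Fintype.card (LiftV C (lift0Parity k)) = Fintype.card (LiftV C (liftStarParity k)) ∧
      (∀ A : ℕ, 1 ≤ A → C.SizeAtMost A →
        Fintype.card (LiftV C (lift0Parity k)) ≤ A * orderFactor k) ∧
      (SEquiv k (asMatrix (liftAdj C (lift0Parity k))) (asMatrix (liftAdj C (liftStarParity k))) ↔ ¬ C.Successful) ∧
      (PureSEquiv k (asMatrix (liftAdj C (lift0Parity k))) (asMatrix (liftAdj C (liftStarParity k))) ↔ ¬ C.Successful) ∧
      (C.Successful → (Finset.univ.val.map (scolor (asMatrix (liftAdj C (lift0Parity k))) k 1)) ≠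
          Finset.univ.val.map (scolor (asMatrix (liftAdj C (liftStarParity k))) k 1) ∧
        ¬ PureSHistEq k 1 (asMatrix (liftAdj C (lift0Parity k))) (asMatrix (liftAdj C (liftStarParity k))))) := by
  open Crest.Agent.R290 in
  refine ⟨fun C => ?_, fun C => ?_⟩
  · have s0 := pl_simple C (lift0Parity (k + 1))
    have s1 := pl_simple C (liftStarParity (k + 1))
    have hb : ¬ C.Successful → BP (k + 1) (asMatrix (liftAdj C (lift0Parity (k + 1))))
        (asMatrix (liftAdj C (liftStarParity (k + 1)))) := fun h =>
      (pl_bp (by omega) C h).map (Fintype.equivFin _).symm (Fintype.equivFin _).symm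
    have hs : C.Successful → (Finset.univ.val.map (jcolor (asMatrix (liftAdj C (lift0Parity (k + 1)))) k 2)) ≠
          Finset.univ.val.map (jcolor (asMatrix (liftAdj C (liftStarParity (k + 1)))) k 2) ∧
        ¬ PureJHistEq k 2 (asMatrix (liftAdj C (lift0Parity (k + 1)))) (asMatrix (liftAdj C (liftStarParity (k + 1)))) := by
      intro h
      have hl := homCount_lt (by omega) C h
      rw [← homCount_asMatrix, ← homCount_asMatrix (k + 1) (liftAdj C (lift0Parity (k + 1)))] at hl
      exact ⟨fun e => hl.ne' (homCount_eq_of_j hk s0 s1 e), fun e => hl.ne' (homCount_eq_of_pureJ hk s0 s1 e)⟩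
    exact ⟨s0, s1, pl_card_eq (by omega) C _ _, fun A _ hA => pl_card_le (by omega) C A hA,
      ⟨fun e h => (hs h).1 (e 2), fun h => (hb h).jEquiv⟩,
      ⟨fun e h => (hs h).2 (e 2), fun h => (hb h).pureJ⟩, hs⟩
  · have s0 := pl_simple C (lift0Parity k)
    have s1 := pl_simple C (liftStarParity k)
    have hb : ¬ C.Successful → BP k (asMatrix (liftAdj C (lift0Parity k)))
        (asMatrix (liftAdj C (liftStarParity k))) := fun h =>
      (pl_bp (by omega) C h).map (Fintype.equivFin _).symm (Fintype.equivFin _).symm
    have hs : C.Successful → (Finset.univ.val.map (scolor (asMatrix (liftAdj C (lift0Parity k))) k 1)) ≠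
          Finset.univ.val.map (scolor (asMatrix (liftAdj C (liftStarParity k))) k 1) ∧
        ¬ PureSHistEq k 1 (asMatrix (liftAdj C (lift0Parity k))) (asMatrix (liftAdj C (liftStarParity k))) := by
      intro h
      have hl := homCount_lt (by omega) C h
      rw [← homCount_asMatrix, ← homCount_asMatrix k (liftAdj C (lift0Parity k))] at hl
      exact ⟨fun e => hl.ne' (homCount_eq_of_s hk s0 s1 e), fun e => hl.ne' (homCount_eq_of_pureS hk s0 s1 e)⟩
    exact ⟨s0, s1, pl_card_eq (by omega) C _ _, fun A _ hA => pl_card_le hk C A hA,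
      ⟨fun e h => (hs h).1 (e 1), fun h => (hb h).sEquiv⟩,
      ⟨fun e h => (hs h).2 (e 1), fun h => (hb h).pureS⟩, hs⟩

end Crest.Agent.S0438
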