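import Crest.Statements.S0461
import Crest.Agent.R302.Final
import Crest.Agent.R302.Est

set_option autoImplicit false
open Crest.Polymatroid
open Crest Crest.LogicCS

namespace Crest.Agent.S0461

/-- Counting common integer bases of two integral polymatroids given by rank-value oracles: one randomized oracle word-RAM program such that for all normalised nondecreasing submodular r₁, r₂ on an n-set with common total rank R and rationals ε, δ in (0,1), given the words n, R, ε, δ, every run halts within C·(S+1)^d steps, queries included (S = n + bit lengths + ⌈1/ε⌉), outputting a nonnegative rational that is 0 on all runs when the count is 0 and within 1 ± ε of it with probability ≥ 1−δ. -/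
theorem result :
    ∃ (P : Crest.OracleRAM.OProgram) (c₀ C d : ℕ),
      ∀ (n R : ℕ) (r₁ r₂ : Finset (Fin n) → ℕ) (ε δ : ℚ),
        IsPolymatroidRank r₁ → IsPolymatroidRank r₂ → r₁ Finset.univ = R → r₂ Finset.univ = R →
        0 < ε → ε < 1 → 0 < δ → δ < 1 →
        (∀ ρ : ℕ → ℕ, (Crest.OracleRAM.orun P n (fun b => if b then r₂ else r₁)
            (c₀ * Nat.clog 2 (n + R + ε.num.natAbs + ε.den + δ.num.natAbs + δ.den + 2)) ρ
            (countInput n R ε δ) (C * (sizeParam n R ε δ + 1) ^ d)).cfg.halted = true) ∧
        (∀ ρ : ℕ → ℕ, ∃ z : ℚ, 0 ≤ z ∧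
          Crest.OracleRAM.decodeRat
              (c₀ * Nat.clog 2 (n + R + ε.num.natAbs + ε.den + δ.num.natAbs + δ.den + 2))
              (Crest.OracleRAM.orun P n (fun b => if b then r₂ else r₁)
                (c₀ * Nat.clog 2 (n + R + ε.num.natAbs + ε.den + δ.num.natAbs + δ.den + 2)) ρ
                (countInput n R ε δ) (C * (sizeParam n R ε δ + 1) ^ d)).cfg.output = some z) ∧
        (numCommonIntBases R r₁ r₂ = 0 → ∀ ρ : ℕ → ℕ,
          Crest.OracleRAM.decodeRat
              (c₀ * Nat.clog 2 (n + R + ε.num.natAbs + ε.den + δ.num.natAbs + δ.den + 2))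
              (Crest.OracleRAM.orun P n (fun b => if b then r₂ else r₁)
                (c₀ * Nat.clog 2 (n + R + ε.num.natAbs + ε.den + δ.num.natAbs + δ.den + 2)) ρ
                (countInput n R ε δ) (C * (sizeParam n R ε δ + 1) ^ d)).cfg.output = some 0) ∧
        1 - (δ : ℝ) ≤ Crest.OracleRAM.oprobAfter P n (fun b => if b then r₂ else r₁)
            (c₀ * Nat.clog 2 (n + R + ε.num.natAbs + ε.den + δ.num.natAbs + δ.den + 2))
            (countInput n R ε δ) (C * (sizeParam n R ε δ + 1) ^ d)
            (fun c => ∃ z : ℚ, Crest.OracleRAM.decodeRat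
                (c₀ * Nat.clog 2 (n + R + ε.num.natAbs + ε.den + δ.num.natAbs + δ.den + 2))
                c.cfg.output = some z ∧
              (1 - ε) * numCommonIntBases R r₁ r₂ ≤ z ∧ z ≤ (1 + ε) * numCommonIntBases R r₁ r₂) := by
  obtain ⟨est, e, h⟩ := Crest.Agent.R302.exists_est
  exact Crest.Agent.R302.fpras_poly h

end Crest.Agent.S0461
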