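import Crest.Statements.S0516
import Crest.Agent.R332.Final

set_option autoImplicit false
open MeasureTheory
open scoped ComplexOrder
open Crest.MathPhysics.LiebThirring
open Crest Crest.MathPhysics

namespace Crest.Agent.S0516

/-- Equality cases, variational form, same setting (1/2 < γ < 3/2, r = 1/(γ-1/2), W measurable Hermitian positive semidefinite with ∫ tr(W^{γ+1/2}) < ∞): trial families come within every ε > 0 of C_γ ∫ tr(W^{γ+1/2}) with the γ-moment of the negative part of their energy matrix if and only if, for some constant unitary U and numbers a_i ≥ 0, c_i, almost everywhere W(x) = U diag((r+1) a_i² sech²(r a_i (x - c_i))) U*. -/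
theorem result
    (γ : ℝ) (hγ : 1 / 2 < γ) (hγ' : γ < 3 / 2) (m : ℕ) (hm : 1 ≤ m)
    (W : ℝ → Matrix (Fin m) (Fin m) ℂ) (hW : ∀ i j, Measurable fun x => W x i j)
    (hWp : ∀ x, (W x).PosSemidef)
    (hWi : Integrable fun x => tracePow (W x) (γ + 1 / 2)) :
    (∀ ε : ℝ, 0 < ε → ∃ (n : ℕ) (φ : Fin n → ℝ → Vec m), IsTrialFamily φ ∧
        sharpConst γ * (∫ x, tracePow (W x) (γ + 1 / 2)) - ε < negMoment (energyMatrix W φ) γ) ↔
      ∃ (U : Matrix.unitaryGroup (Fin m) ℂ) (a c : Fin m → ℝ), (∀ i, 0 ≤ a i) ∧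
        ∀ᵐ x : ℝ, W x = (U : Matrix (Fin m) (Fin m) ℂ) *
          Matrix.diagonal (fun i => ((soliton (γ - 1 / 2)⁻¹ (a i) (c i) x : ℝ) : ℂ)) *
            star (U : Matrix (Fin m) (Fin m) ℂ) := by
  obtain ⟨s, rfl⟩ : ∃ s, γ = s + 1 / 2 := ⟨γ - 1 / 2, by ring⟩
  have hs0 : 0 < s := by linarith
  have hs1 : s < 1 := by linarith
  have e : s + 1 / 2 + 1 / 2 = 1 + s := by ring
  rw [e] at hWi ⊢
  rw [R332.sharpConst_eq hs0, add_sub_cancel_right]
  constructor
  · exact fun h => R332.rigid hs0 hs1 ⟨hW, hWp, hWi⟩ h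
  · rintro ⟨U, a, c, ha, h⟩ ε hε
    exact R332.easy hs0 U a c ha h hε

end Crest.Agent.S0516
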