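import Crest.Statements.S0540
import Crest.Agent.S0541
import Crest.Agent.R345.Chan

set_option autoImplicit false
open Crest.Quantum
open Crest Crest.MathPhysics

namespace Crest.Agent.S0540

/-- There is a quantum channel on `21 × 21` complex matrices (linear, completely positive, trace preserving) that is PPT, meaning that the channel followed by transposition is also completely positive, and whose composition with itself is not entanglement breaking: for some auxiliary system and some positive semidefinite input on the pair, applying the channel twice to the second factor gives a matrix outside the separable cone. -/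
theorem result :
    ∃ Θ : Matrix (Fin 21) (Fin 21) ℂ → Matrix (Fin 21) (Fin 21) ℂ,
      IsChannel Θ ∧ IsPPT Θ ∧ ¬ IsEntanglementBreaking (Θ ∘ Θ) := by
  obtain ⟨Φ₁, Φ₂, l₁, l₂, p₁, p₂, -, -, hn⟩ := Crest.Agent.S0541.result
  exact Crest.Agent.R345.chan_of_pair Φ₁ Φ₂ l₁ l₂ p₁ p₂ hn

end Crest.Agent.S0540
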